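import Mathlib

/-!
# P207, line N3, package P10: the truncated product formula over a commutative ring

Everything is a polynomial expression in finitely many jets, over an arbitrary commutative
`ℝ`-algebra `R`, and compatible with algebra homomorphisms (`EK_map`).

Meaning: `T a = ∂^a S (at the base point)`, `T' b = ∂^b S'(0)`, `X`, `X'` the jets of the
logarithmic densities; `q - base point = ∇S'(p) - base point`, `p = ∇S(q)`.
-/

open Finset

set_option linter.unusedSectionVars false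

namespace Vale.Agent.P207.N3.H254

/-- Multi-indices of length at most `K`. -/
def tri (K : ℕ) : Finset (ℕ × ℕ) :=
  (range (K + 1) ×ˢ range (K + 1)).filter fun a => a.1 + a.2 ≤ K

theorem mem_tri {K : ℕ} {a : ℕ × ℕ} : a ∈ tri K ↔ a.1 + a.2 ≤ K := by
  unfold tri
  rw [mem_filter, mem_product, mem_range, mem_range]
  constructor
  · exact fun h => h.2
  · intro h; exact ⟨⟨by omega, by omega⟩, h⟩

/-- The unit multi-indices. -/
def e (i : Fin 2) : ℕ × ℕ := if i = 0 then (1, 0) else (0, 1)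

theorem e_zero : e 0 = (1, 0) := rfl

theorem e_one : e 1 = (0, 1) := by unfold e; rw [if_neg (by decide)]

/-- The length of a multi-index. -/
def len (a : ℕ × ℕ) : ℕ := a.1 + a.2

theorem len_add (a b : ℕ × ℕ) : len (a + b) = len a + len b := by
  unfold len; simp only [Prod.fst_add, Prod.snd_add]; omega

theorem len_e (i : Fin 2) : len (e i) = 1 := by
  unfold e len; split_ifs <;> rfl

/-- `1 / a!`. -/
noncomputable def fac (a : ℕ × ℕ) : ℝ := ((a.1.factorial : ℝ) * (a.2.factorial : ℝ))⁻¹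

variable {R : Type*} [CommRing R] [Algebra ℝ R]

/-- The monomial `q^a`. -/
def mon (q : Fin 2 → R) (a : ℕ × ℕ) : R := q 0 ^ a.1 * q 1 ^ a.2

/-- The Taylor polynomial `sum_{|a| ≤ K} T_a q^a / a!`. -/
noncomputable def ev (K : ℕ) (T : ℕ × ℕ → R) (q : Fin 2 → R) : R :=
  ∑ a ∈ tri K, fac a • (T a * mon q a)

/-- Shift of the jets: `T_{a + c}`. -/
def sh (T : ℕ × ℕ → R) (c : ℕ × ℕ) : ℕ × ℕ → R := fun a => T (a + c)

/-- The gradient of the Taylor polynomial. -/
noncomputable def gr (K : ℕ) (T : ℕ × ℕ → R) (q : Fin 2 → R) : Fin 2 → R :=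
  fun i => ev (K - 1) (sh T (e i)) q

/-- The Hessian of the Taylor polynomial. -/
noncomputable def he (K : ℕ) (T : ℕ × ℕ → R) (q : Fin 2 → R) : Fin 2 → Fin 2 → R :=
  fun i j => ev (K - 2) (sh T (e i + e j)) q

/-- The iterates for `p = ∇S(q)`, `q = ∇S'(p)`; first component `p`, second component `q`. -/
noncomputable def it (K : ℕ) (T T' : ℕ × ℕ → R) : ℕ → (Fin 2 → R) × (Fin 2 → R)
  | 0 => (0, 0)
  | n + 1 => (gr K T (it K T T' n).2, gr K T' (gr K T (it K T T' n).2))

theorem it_succ_fst (K : ℕ) (T T' : ℕ × ℕ → R) (n : ℕ) :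
    (it K T T' (n + 1)).1 = gr K T (it K T T' n).2 := rfl

theorem it_succ_snd (K : ℕ) (T T' : ℕ × ℕ → R) (n : ℕ) :
    (it K T T' (n + 1)).2 = gr K T' (it K T T' (n + 1)).1 := rfl

/-- `1 - det (1 - M M')` for `2 x 2` matrices `M`, `M'`. -/
def lo (M M' : Fin 2 → Fin 2 → R) : R :=
  (M 0 0 * M' 0 0 + M 0 1 * M' 1 0 + M 1 0 * M' 0 1 + M 1 1 * M' 1 1)
    - (M 0 0 * M 1 1 - M 0 1 * M 1 0) * (M' 0 0 * M' 1 1 - M' 0 1 * M' 1 0)

theorem lo_eq (M M' : Fin 2 → Fin 2 → R) :
    lo M M' = 1 - Matrix.det (1 - Matrix.of M * Matrix.of M') := by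
  rw [Matrix.det_fin_two]
  simp only [Matrix.sub_apply, Matrix.one_apply, Matrix.mul_apply, Fin.sum_univ_two,
    Matrix.of_apply, lo]
  simp
  ring

/-- The truncated series of `- log (1 - L)`. -/
noncomputable def ml (K : ℕ) (L : R) : R := ∑ i ∈ range K, ((i : ℝ) + 1)⁻¹ • L ^ (i + 1)

/-- The left hand side minus the right hand side of the product formula at given `p`, `q`:
`X(q) + X'(p) - h (S(q) + S'(p) - p q) - log det (1 - M M')`. -/
noncomputable def FK (K : ℕ) (h : ℝ) (T X T' X' : ℕ × ℕ → R) (p q : Fin 2 → R) : R :=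
  ev K X q + ev K X' p - h • (ev K T q + ev K T' p - (p 0 * q 0 + p 1 * q 1))
    + ml K (lo (he K T q) (he K T' p))

/-- The truncated product formula. -/
noncomputable def EK (K : ℕ) (h : ℝ) (T X T' X' : ℕ × ℕ → R) : R :=
  FK K h T X T' X' (it K T T' K).1 (it K T T' K).2

/-! ### Functoriality -/

variable {R' : Type*} [CommRing R'] [Algebra ℝ R'] (φ : R →ₐ[ℝ] R')

theorem ev_map (K : ℕ) (T : ℕ × ℕ → R) (q : Fin 2 → R) :
    φ (ev K T q) = ev K (fun a => φ (T a)) fun i => φ (q i) := by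
  unfold ev mon
  rw [map_sum]
  refine sum_congr rfl fun a _ => ?_
  rw [map_smul, map_mul, map_mul, map_pow, map_pow]

theorem gr_map (K : ℕ) (T : ℕ × ℕ → R) (q : Fin 2 → R) :
    (fun i => φ (gr K T q i)) = gr K (fun a => φ (T a)) fun i => φ (q i) := by
  funext i
  unfold gr
  rw [ev_map]
  rfl

theorem he_map (K : ℕ) (T : ℕ × ℕ → R) (q : Fin 2 → R) :
    (fun i j => φ (he K T q i j)) = he K (fun a => φ (T a)) fun i => φ (q i) := by
  funext i j
  unfold he
  rw [ev_map]
  rfl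

theorem it_map (K : ℕ) (T T' : ℕ × ℕ → R) (n : ℕ) :
    (fun i => φ ((it K T T' n).1 i)) = (it K (fun a => φ (T a)) (fun a => φ (T' a)) n).1 ∧
    (fun i => φ ((it K T T' n).2 i)) = (it K (fun a => φ (T a)) (fun a => φ (T' a)) n).2 := by
  induction n with
  | zero =>
    constructor <;> · funext i; exact map_zero φ
  | succ n ih =>
    have h1 : (fun i => φ ((it K T T' (n + 1)).1 i))
        = (it K (fun a => φ (T a)) (fun a => φ (T' a)) (n + 1)).1 := by
      rw [it_succ_fst, it_succ_fst, gr_map, ih.2]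
    refine ⟨h1, ?_⟩
    rw [it_succ_snd, it_succ_snd, gr_map, h1]

theorem lo_map (M M' : Fin 2 → Fin 2 → R) :
    φ (lo M M') = lo (fun i j => φ (M i j)) fun i j => φ (M' i j) := by
  unfold lo
  simp only [map_sub, map_add, map_mul]

theorem ml_map (K : ℕ) (L : R) : φ (ml K L) = ml K (φ L) := by
  unfold ml
  rw [map_sum]
  refine sum_congr rfl fun i _ => ?_
  rw [map_smul, map_pow]

theorem FK_map (K : ℕ) (h : ℝ) (T X T' X' : ℕ × ℕ → R) (p q : Fin 2 → R) :
    φ (FK K h T X T' X' p q) = FK K h (fun a => φ (T a)) (fun a => φ (X a))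
      (fun a => φ (T' a)) (fun a => φ (X' a)) (fun i => φ (p i)) fun i => φ (q i) := by
  unfold FK
  rw [map_add, map_sub, map_add, map_smul, map_sub, map_add, map_add, map_mul, map_mul,
    ml_map, lo_map, ev_map, ev_map, ev_map, ev_map, ← he_map φ K T q, ← he_map φ K T' p]

/-- **Functoriality** of the truncated product formula. -/
theorem EK_map (K : ℕ) (h : ℝ) (T X T' X' : ℕ × ℕ → R) :
    φ (EK K h T X T' X') = EK K h (fun a => φ (T a)) (fun a => φ (X a))
      (fun a => φ (T' a)) fun a => φ (X' a) := by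
  unfold EK
  rw [FK_map, (it_map φ K T T' K).1, (it_map φ K T T' K).2]

end Vale.Agent.P207.N3.H254
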