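import Mathlib
import Vale.Agent.P207.N3.H254.EK

/-!
# P207, line N3, package P10: the bilinear part of the product formula

If `T = δ t`, `X = δ x`, `T' = δ' t'`, `X' = δ' x'` with `δ² = δ'² = 0` then
`EK = δ δ' (sum_i (x_i t'_i + x'_i t_i - h t_i t'_i) + sum_{ij} t_ij t'_ij)`.
-/

open Finset

set_option linter.unusedSectionVars false

namespace Vale.Agent.P207.N3.H254

variable {R : Type*} [CommRing R] [Algebra ℝ R]

theorem fac_zero : fac (0, 0) = 1 := by unfold fac; simp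
theorem fac_10 : fac (1, 0) = 1 := by unfold fac; simp
theorem fac_01 : fac (0, 1) = 1 := by unfold fac; simp

/-- Evaluation at `q` with `q_i q_j = 0`. -/
theorem ev_lin {K : ℕ} (hK : 1 ≤ K) (T : ℕ × ℕ → R) {q : Fin 2 → R}
    (hq : ∀ i j, q i * q j = 0) :
    ev K T q = T (0, 0) + T (1, 0) * q 0 + T (0, 1) * q 1 := by
  classical
  have hm : ∀ a : ℕ × ℕ, a ∉ ({(0, 0), (1, 0), (0, 1)} : Finset (ℕ × ℕ)) → mon q a = 0 := by
    rintro ⟨a, b⟩ hab
    simp only [Finset.mem_insert, Finset.mem_singleton, Prod.mk.injEq, not_or] at hab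
    show q 0 ^ a * q 1 ^ b = 0
    by_cases ha : 2 ≤ a
    · obtain ⟨c, rfl⟩ := Nat.exists_eq_add_of_le ha
      rw [pow_add, pow_two, hq 0 0, zero_mul, zero_mul]
    by_cases hb : 2 ≤ b
    · obtain ⟨c, rfl⟩ := Nat.exists_eq_add_of_le hb
      rw [pow_add, pow_two, hq 1 1, zero_mul, mul_zero]
    have h1 : a = 1 := by omega
    have h2 : b = 1 := by omega
    rw [h1, h2, pow_one, pow_one, hq 0 1]
  have hs : ({(0, 0), (1, 0), (0, 1)} : Finset (ℕ × ℕ)) ⊆ tri K := by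
    intro a ha
    simp only [Finset.mem_insert, Finset.mem_singleton] at ha
    rcases ha with rfl | rfl | rfl <;> exact mem_tri.2 (by simp <;> omega)
  unfold ev
  rw [← Finset.sum_subset hs fun a _ ha => by rw [hm a ha, mul_zero, smul_zero]]
  rw [Finset.sum_insert (by simp), Finset.sum_insert (by simp), Finset.sum_singleton,
    fac_zero, fac_10, fac_01]
  simp only [one_smul, mon]
  ring

/-- Evaluation, without condition on `K`. -/
theorem ev_lin' {K : ℕ} (T : ℕ × ℕ → R) {q : Fin 2 → R} (hq : ∀ i j, q i * q j = 0) :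
    ∃ c d : R, ev K T q = T (0, 0) + c * q 0 + d * q 1 ∧ (∀ (δ : R) (t : ℕ × ℕ → R), T = (fun a => δ * t a) →
      ∃ c' d' : R, ev K T q = δ * (t (0, 0) + c' * q 0 + d' * q 1)) := by
  rcases Nat.eq_zero_or_pos K with h | h
  · subst h
    have h1 : ev 0 T q = T (0, 0) := by
      unfold ev
      have : tri 0 = {(0, 0)} := by decide
      rw [this, Finset.sum_singleton, fac_zero, one_smul]
      simp [mon]
    refine ⟨0, 0, by rw [h1]; ring, ?_⟩
    rintro δ t rfl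
    exact ⟨0, 0, by rw [h1]; ring⟩
  · refine ⟨_, _, ev_lin h T hq, ?_⟩
    rintro δ t rfl
    exact ⟨t (1, 0), t (0, 1), by rw [ev_lin h _ hq]; ring⟩

variable {δ δ' : R} {t x t' x' : ℕ × ℕ → R}

section

variable (hδ : δ * δ = 0) (hδ' : δ' * δ' = 0)
include hδ hδ'

theorem it_bil {K : ℕ} (hK : 2 ≤ K) (n : ℕ) :
    ∃ u u' : Fin 2 → R,
      (∀ i, (it K (fun a => δ * t a) (fun a => δ' * t' a) (n + 1)).1 i
        = δ * t (e i) + δ * δ' * u i) ∧
      (∀ i, (it K (fun a => δ * t a) (fun a => δ' * t' a) (n + 1)).2 i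
        = δ' * t' (e i) + δ * δ' * u' i) := by
  have step : ∀ q : Fin 2 → R, (∃ z : Fin 2 → R, ∀ i, q i = δ' * z i) →
      ∃ u : Fin 2 → R, ∀ i, gr K (fun a => δ * t a) q i = δ * t (e i) + δ * δ' * u i := by
    rintro q ⟨z, hz⟩
    have hq : ∀ i j, q i * q j = 0 := fun i j => by
      rw [hz i, hz j]
      linear_combination (z i * z j) * hδ'
    refine ⟨fun i => t ((1, 0) + e i) * z 0 + t ((0, 1) + e i) * z 1, fun i => ?_⟩
    unfold gr
    rw [ev_lin (by omega) _ hq]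
    unfold sh
    rw [hz 0, hz 1, Prod.mk_zero_zero, zero_add]
    ring
  have step' : ∀ p : Fin 2 → R, (∃ z : Fin 2 → R, ∀ i, p i = δ * z i) →
      ∃ u : Fin 2 → R, ∀ i, gr K (fun a => δ' * t' a) p i
        = δ' * t' (e i) + δ * δ' * u i := by
    rintro p ⟨z, hz⟩
    have hp : ∀ i j, p i * p j = 0 := fun i j => by
      rw [hz i, hz j]
      linear_combination (z i * z j) * hδ
    refine ⟨fun i => t' ((1, 0) + e i) * z 0 + t' ((0, 1) + e i) * z 1, fun i => ?_⟩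
    unfold gr
    rw [ev_lin (by omega) _ hp]
    unfold sh
    rw [hz 0, hz 1, Prod.mk_zero_zero, zero_add]
    ring
  induction n with
  | zero =>
    obtain ⟨u, hu⟩ := step 0 ⟨0, fun i => by simp⟩
    obtain ⟨u', hu'⟩ := step' (gr K (fun a => δ * t a) 0) ⟨fun i => t (e i) + δ' * u i,
      fun i => by rw [hu i]; ring⟩
    exact ⟨u, u', hu, hu'⟩
  | succ n ih =>
    obtain ⟨-, u', -, hu'⟩ := ih
    obtain ⟨v, hv⟩ := step (it K (fun a => δ * t a) (fun a => δ' * t' a) (n + 1)).2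
      ⟨fun i => t' (e i) + δ * u' i, fun i => by rw [hu' i]; ring⟩
    obtain ⟨v', hv'⟩ := step' (gr K (fun a => δ * t a)
      (it K (fun a => δ * t a) (fun a => δ' * t' a) (n + 1)).2) ⟨fun i => t (e i) + δ' * v i,
      fun i => by rw [hv i]; ring⟩
    exact ⟨v, v', hv, hv'⟩

/-- **The bilinear part.** -/
theorem EK_bil {K : ℕ} (hK : 2 ≤ K) (h : ℝ) (ht : t (0, 0) = 0) (hx : x (0, 0) = 0)
    (ht' : t' (0, 0) = 0) (hx' : x' (0, 0) = 0) :
    EK K h (fun a => δ * t a) (fun a => δ * x a) (fun a => δ' * t' a) (fun a => δ' * x' a)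
      = δ * δ' * (x (1, 0) * t' (1, 0) + x (0, 1) * t' (0, 1) + x' (1, 0) * t (1, 0)
        + x' (0, 1) * t (0, 1) - h • (t (1, 0) * t' (1, 0) + t (0, 1) * t' (0, 1))
        + (t (2, 0) * t' (2, 0) + t (1, 1) * t' (1, 1) + t (1, 1) * t' (1, 1)
          + t (0, 2) * t' (0, 2))) := by
  obtain ⟨m, rfl⟩ : ∃ m, K = m + 1 := ⟨K - 1, by omega⟩
  obtain ⟨u, u', hp, hq⟩ := it_bil (t := t) (t' := t') hδ hδ' hK m
  unfold EK
  set p := (it (m + 1) (fun a => δ * t a) (fun a => δ' * t' a) (m + 1)).1 with hpd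
  set q := (it (m + 1) (fun a => δ * t a) (fun a => δ' * t' a) (m + 1)).2 with hqd
  have hqq : ∀ i j, q i * q j = 0 := fun i j => by
    rw [hq i, hq j]
    linear_combination (t' (e i) * t' (e j) + δ * u' i * t' (e j) + δ * u' j * t' (e i)
      + δ * δ * u' i * u' j) * hδ'
  have hpp : ∀ i j, p i * p j = 0 := fun i j => by
    rw [hp i, hp j]
    linear_combination (t (e i) * t (e j) + δ' * u i * t (e j) + δ' * u j * t (e i)
      + δ' * δ' * u i * u j) * hδ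
  have hM : ∀ i j, ∃ z, he (m + 1) (fun a => δ * t a) q i j = δ * (t (e i + e j) + δ' * z) := by
    intro i j
    obtain ⟨_, _, _, h2⟩ := ev_lin' (K := m + 1 - 2) (sh (fun a => δ * t a) (e i + e j)) hqq
    obtain ⟨c', d', h3⟩ := h2 δ (fun a => t (a + (e i + e j))) rfl
    refine ⟨c' * (t' (e 0) + δ * u' 0) + d' * (t' (e 1) + δ * u' 1), ?_⟩
    show ev (m + 1 - 2) (sh (fun a => δ * t a) (e i + e j)) q = _
    rw [h3, hq 0, hq 1, Prod.mk_zero_zero, zero_add]
    ring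
  have hM' : ∀ i j, ∃ z, he (m + 1) (fun a => δ' * t' a) p i j
      = δ' * (t' (e i + e j) + δ * z) := by
    intro i j
    obtain ⟨_, _, _, h2⟩ := ev_lin' (K := m + 1 - 2) (sh (fun a => δ' * t' a) (e i + e j)) hpp
    obtain ⟨c', d', h3⟩ := h2 δ' (fun a => t' (a + (e i + e j))) rfl
    refine ⟨c' * (t (e 0) + δ' * u 0) + d' * (t (e 1) + δ' * u 1), ?_⟩
    show ev (m + 1 - 2) (sh (fun a => δ' * t' a) (e i + e j)) p = _
    rw [h3, hp 0, hp 1, Prod.mk_zero_zero, zero_add]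
    ring
  have hMM : ∀ i j k l, he (m + 1) (fun a => δ * t a) q i j *
      he (m + 1) (fun a => δ' * t' a) p k l = δ * δ' * (t (e i + e j) * t' (e k + e l)) := by
    intro i j k l
    obtain ⟨z, hz⟩ := hM i j
    obtain ⟨z', hz'⟩ := hM' k l
    rw [hz, hz']
    linear_combination (z' * δ' * t (e i + e j) + z' * z * δ' * δ') * hδ
      + (z * δ * t' (e k + e l)) * hδ'
  have hdet : he (m + 1) (fun a => δ * t a) q 0 0 * he (m + 1) (fun a => δ * t a) q 1 1
      - he (m + 1) (fun a => δ * t a) q 0 1 * he (m + 1) (fun a => δ * t a) q 1 0 = 0 := by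
    obtain ⟨z1, h1⟩ := hM 0 0
    obtain ⟨z2, h2⟩ := hM 1 1
    obtain ⟨z3, h3⟩ := hM 0 1
    obtain ⟨z4, h4⟩ := hM 1 0
    rw [h1, h2, h3, h4]
    linear_combination ((t (e 0 + e 0) + δ' * z1) * (t (e 1 + e 1) + δ' * z2)
      - (t (e 0 + e 1) + δ' * z3) * (t (e 1 + e 0) + δ' * z4)) * hδ
  have hlo : lo (he (m + 1) (fun a => δ * t a) q) (he (m + 1) (fun a => δ' * t' a) p)
      = δ * δ' * (t (2, 0) * t' (2, 0) + t (1, 1) * t' (1, 1) + t (1, 1) * t' (1, 1)
          + t (0, 2) * t' (0, 2)) := by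
    unfold lo
    rw [hMM, hMM, hMM, hMM, hdet]
    rw [show e 0 + e 0 = (2, 0) from rfl, show e 0 + e 1 = (1, 1) from rfl,
      show e 1 + e 0 = (1, 1) from rfl, show e 1 + e 1 = (0, 2) from rfl]
    ring
  have hml : ∀ z : R, ml (m + 1) (δ * δ' * z) = δ * δ' * z := by
    intro z
    unfold ml
    rw [Finset.sum_range_succ', Finset.sum_eq_zero]
    · simp
    · intro i _
      rw [show i + 1 + 1 = i + 2 from rfl, pow_add, pow_two]
      have : δ * δ' * z * (δ * δ' * z) = 0 := by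
        linear_combination (δ' * δ' * z * z) * hδ
      rw [this, mul_zero, smul_zero]
  unfold FK
  rw [hlo, hml, ev_lin (by omega) _ hqq, ev_lin (by omega) _ hpp, ev_lin (by omega) _ hqq,
    ev_lin (by omega) _ hpp, ht, hx, ht', hx', hp 0, hp 1, hq 0, hq 1, e_zero, e_one]
  have s1 : (δ * 0 + δ * t (1, 0) * (δ' * t' (1, 0) + δ * δ' * u' 0)
      + δ * t (0, 1) * (δ' * t' (0, 1) + δ * δ' * u' 1)
      + (δ' * 0 + δ' * t' (1, 0) * (δ * t (1, 0) + δ * δ' * u 0)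
        + δ' * t' (0, 1) * (δ * t (0, 1) + δ * δ' * u 1))
      - ((δ * t (1, 0) + δ * δ' * u 0) * (δ' * t' (1, 0) + δ * δ' * u' 0)
        + (δ * t (0, 1) + δ * δ' * u 1) * (δ' * t' (0, 1) + δ * δ' * u' 1)))
      = δ * δ' * (t (1, 0) * t' (1, 0) + t (0, 1) * t' (0, 1)) := by
    linear_combination (- u 0 * u' 0 * δ' * δ' - u 1 * u' 1 * δ' * δ') * hδ
  rw [s1]
  have s2 : δ * 0 + δ * x (1, 0) * (δ' * t' (1, 0) + δ * δ' * u' 0)
      + δ * x (0, 1) * (δ' * t' (0, 1) + δ * δ' * u' 1)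
      = δ * δ' * (x (1, 0) * t' (1, 0) + x (0, 1) * t' (0, 1)) := by
    linear_combination (δ' * x (1, 0) * u' 0 + δ' * x (0, 1) * u' 1) * hδ
  have s3 : δ' * 0 + δ' * x' (1, 0) * (δ * t (1, 0) + δ * δ' * u 0)
      + δ' * x' (0, 1) * (δ * t (0, 1) + δ * δ' * u 1)
      = δ * δ' * (x' (1, 0) * t (1, 0) + x' (0, 1) * t (0, 1)) := by
    linear_combination (δ * x' (1, 0) * u 0 + δ * x' (0, 1) * u 1) * hδ'
  rw [s2, s3, ← mul_smul_comm]
  simp only [Algebra.smul_def]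
  ring

end

end Vale.Agent.P207.N3.H254
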