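import Mathlib

/-!
# P207, line N3, package P10: a filtered algebra for the diagrams

`A` is the algebra of functions of `(y, x)`, `A0` = (nice in `y`) x (nice in `x`),
`AQ` = (any function of `y`) x (nice in `x`), `AP` = (nice in `y`) x (any function of `x`).
`Cl M o α β γ f`: the coefficients of the power series `f` of order `< M` vanish below `o` and lie
in `A0 + [α ≤ m] AQ + [β ≤ m] AP + [γ ≤ m] A`.
-/

open PowerSeries Finset

namespace Vale.Agent.P207.N3.H254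

/-- The filtration data. -/
structure Fil (A : Type*) [CommRing A] [Algebra ℝ A] where
  A0 : Submodule ℝ A
  AP : Submodule ℝ A
  AQ : Submodule ℝ A
  one : (1 : A) ∈ A0
  leP : A0 ≤ AP
  leQ : A0 ≤ AQ
  mul0 : ∀ a ∈ A0, ∀ b ∈ A0, a * b ∈ A0
  mulP : ∀ a ∈ AP, ∀ b ∈ AP, a * b ∈ AP
  mulQ : ∀ a ∈ AQ, ∀ b ∈ AQ, a * b ∈ AQ

variable {A : Type*} [CommRing A] [Algebra ℝ A]

/-- A submodule if a condition holds. -/
noncomputable def cnd (c : Prop) (S : Submodule ℝ A) : Submodule ℝ A := by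
  classical exact if c then S else ⊥

theorem cnd_pos {c : Prop} (h : c) (S : Submodule ℝ A) : cnd c S = S := by
  unfold cnd; exact if_pos h

theorem cnd_neg {c : Prop} (h : ¬c) (S : Submodule ℝ A) : cnd c S = ⊥ := by
  unfold cnd; exact if_neg h

theorem cnd_mono {c c' : Prop} (h : c → c') (S : Submodule ℝ A) : cnd c S ≤ cnd c' S := by
  by_cases hc : c
  · rw [cnd_pos hc, cnd_pos (h hc)]
  · rw [cnd_neg hc]; exact bot_le

/-- The allowed coefficients. -/
noncomputable def Fil.D (F : Fil A) (α β γ m : ℕ) : Submodule ℝ A :=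
  F.A0 ⊔ cnd (α ≤ m) F.AQ ⊔ cnd (β ≤ m) F.AP ⊔ cnd (γ ≤ m) ⊤

theorem Fil.D_mono (F : Fil A) {α β γ α' β' γ' m : ℕ} (hα : α' ≤ α) (hβ : β' ≤ β)
    (hγ : γ' ≤ γ) : F.D α β γ m ≤ F.D α' β' γ' m := by
  unfold Fil.D
  refine sup_le_sup (sup_le_sup (sup_le_sup le_rfl ?_) ?_) ?_ <;>
    exact cnd_mono (fun h => by omega) _

theorem Fil.A0_le (F : Fil A) (α β γ m : ℕ) : F.A0 ≤ F.D α β γ m :=
  (le_sup_left.trans le_sup_left).trans le_sup_left

theorem Fil.AQ_le (F : Fil A) {α : ℕ} (β γ : ℕ) {m : ℕ} (h : α ≤ m) : F.AQ ≤ F.D α β γ m := by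
  have h1 : F.AQ ≤ cnd (α ≤ m) F.AQ := by rw [cnd_pos h]
  exact ((h1.trans le_sup_right).trans le_sup_left).trans le_sup_left

theorem Fil.AP_le (F : Fil A) (α : ℕ) {β : ℕ} (γ : ℕ) {m : ℕ} (h : β ≤ m) :
    F.AP ≤ F.D α β γ m := by
  have h1 : F.AP ≤ cnd (β ≤ m) F.AP := by rw [cnd_pos h]
  exact (h1.trans le_sup_right).trans le_sup_left

theorem Fil.D_top (F : Fil A) (α β : ℕ) {γ m : ℕ} (h : γ ≤ m) (a : A) : a ∈ F.D α β γ m := by
  have h1 : (⊤ : Submodule ℝ A) ≤ cnd (γ ≤ m) ⊤ := by rw [cnd_pos h]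
  exact (h1.trans le_sup_right) trivial

theorem Fil.D_le (F : Fil A) {α β γ m : ℕ} (h : m < γ) : F.D α β γ m ≤ F.AP ⊔ F.AQ := by
  unfold Fil.D
  refine sup_le (sup_le (sup_le (F.leP.trans le_sup_left) ?_) ?_) ?_
  · by_cases h1 : α ≤ m
    · rw [cnd_pos h1]; exact le_sup_right
    · rw [cnd_neg h1]; exact bot_le
  · by_cases h1 : β ≤ m
    · rw [cnd_pos h1]; exact le_sup_left
    · rw [cnd_neg h1]; exact bot_le
  · rw [cnd_neg (by omega)]; exact bot_le

/-! ### Products -/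

/-- `S * T ⊆ R`. -/
def MulLe (S T R : Submodule ℝ A) : Prop := ∀ a ∈ S, ∀ b ∈ T, a * b ∈ R

theorem MulLe.sup_left {S S' T R : Submodule ℝ A} (h : MulLe S T R) (h' : MulLe S' T R) :
    MulLe (S ⊔ S') T R := by
  intro a ha b hb
  obtain ⟨s, hs, s', hs', rfl⟩ := Submodule.mem_sup.1 ha
  rw [add_mul]
  exact add_mem (h s hs b hb) (h' s' hs' b hb)

theorem MulLe.sup_right {S T T' R : Submodule ℝ A} (h : MulLe S T R) (h' : MulLe S T' R) :
    MulLe S (T ⊔ T') R := by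
  intro a ha b hb
  obtain ⟨s, hs, s', hs', rfl⟩ := Submodule.mem_sup.1 hb
  rw [mul_add]
  exact add_mem (h a ha s hs) (h' a ha s' hs')

theorem MulLe.cnd_left {c : Prop} {S T R : Submodule ℝ A} (h : c → MulLe S T R) :
    MulLe (cnd c S) T R := by
  by_cases hc : c
  · rw [cnd_pos hc]; exact h hc
  · rw [cnd_neg hc]
    intro a ha b _
    rw [(Submodule.mem_bot ℝ).1 ha, zero_mul]
    exact zero_mem _

theorem MulLe.cnd_right {c : Prop} {S T R : Submodule ℝ A} (h : c → MulLe S T R) :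
    MulLe S (cnd c T) R := by
  by_cases hc : c
  · rw [cnd_pos hc]; exact h hc
  · rw [cnd_neg hc]
    intro a _ b hb
    rw [(Submodule.mem_bot ℝ).1 hb, mul_zero]
    exact zero_mem _

theorem MulLe.mono {S T R R' : Submodule ℝ A} (h : MulLe S T R) (hR : R ≤ R') : MulLe S T R' :=
  fun a ha b hb => hR (h a ha b hb)

theorem Fil.D_mul (F : Fil A) {α β γ α' β' γ' α'' β'' γ'' o o' i j : ℕ} (hi : o ≤ i)
    (hj : o' ≤ j) (h1 : α'' ≤ α + o') (h2 : α'' ≤ α' + o) (h3 : β'' ≤ β + o')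
    (h4 : β'' ≤ β' + o) (h5 : γ'' ≤ γ + o') (h6 : γ'' ≤ γ' + o) (h7 : γ'' ≤ α + β')
    (h8 : γ'' ≤ α' + β) : MulLe (F.D α β γ i) (F.D α' β' γ' j) (F.D α'' β'' γ'' (i + j)) := by
  have top : γ'' ≤ i + j → ∀ S T : Submodule ℝ A, MulLe S T (F.D α'' β'' γ'' (i + j)) :=
    fun h S T a _ b _ => F.D_top _ _ h _
  have q0 : MulLe F.A0 F.AQ F.AQ := fun a ha b hb => F.mulQ a (F.leQ ha) b hb
  have q1 : MulLe F.AQ F.A0 F.AQ := fun a ha b hb => F.mulQ a ha b (F.leQ hb)
  have p0 : MulLe F.A0 F.AP F.AP := fun a ha b hb => F.mulP a (F.leP ha) b hb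
  have p1 : MulLe F.AP F.A0 F.AP := fun a ha b hb => F.mulP a ha b (F.leP hb)
  have z : MulLe F.A0 F.A0 F.A0 := F.mul0
  have pp : MulLe F.AP F.AP F.AP := F.mulP
  have qq : MulLe F.AQ F.AQ F.AQ := F.mulQ
  refine MulLe.sup_left (MulLe.sup_left (MulLe.sup_left ?_ ?_) ?_) ?_
  · -- A0
    refine MulLe.sup_right (MulLe.sup_right (MulLe.sup_right ?_ ?_) ?_) ?_
    · exact z.mono (F.A0_le _ _ _ _)
    · exact MulLe.cnd_right fun h => q0.mono (F.AQ_le _ _ (by omega))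
    · exact MulLe.cnd_right fun h => p0.mono (F.AP_le _ _ (by omega))
    · exact MulLe.cnd_right fun h => top (by omega) _ _
  · -- AQ
    refine MulLe.cnd_left fun h => ?_
    refine MulLe.sup_right (MulLe.sup_right (MulLe.sup_right ?_ ?_) ?_) ?_
    · exact q1.mono (F.AQ_le _ _ (by omega))
    · exact MulLe.cnd_right fun h' => qq.mono (F.AQ_le _ _ (by omega))
    · exact MulLe.cnd_right fun h' => top (by omega) _ _
    · exact MulLe.cnd_right fun h' => top (by omega) _ _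
  · -- AP
    refine MulLe.cnd_left fun h => ?_
    refine MulLe.sup_right (MulLe.sup_right (MulLe.sup_right ?_ ?_) ?_) ?_
    · exact p1.mono (F.AP_le _ _ (by omega))
    · exact MulLe.cnd_right fun h' => top (by omega) _ _
    · exact MulLe.cnd_right fun h' => pp.mono (F.AP_le _ _ (by omega))
    · exact MulLe.cnd_right fun h' => top (by omega) _ _
  · exact MulLe.cnd_left fun h => top (by omega) _ _

/-! ### Classes of power series -/

/-- The class of a power series. -/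
def Cl (F : Fil A) (M o α β γ : ℕ) (f : PowerSeries A) : Prop :=
  ∀ m < M, (m < o → coeff m f = 0) ∧ coeff m f ∈ F.D α β γ m

variable {F : Fil A} {M o α β γ o' α' β' γ' : ℕ} {f g : PowerSeries A}

theorem Cl.mono (h : Cl F M o α β γ f) (ho : o' ≤ o) (hα : α' ≤ α) (hβ : β' ≤ β)
    (hγ : γ' ≤ γ) : Cl F M o' α' β' γ' f :=
  fun m hm => ⟨fun h1 => (h m hm).1 (by omega), F.D_mono hα hβ hγ (h m hm).2⟩

theorem Cl.add (h : Cl F M o α β γ f) (h' : Cl F M o α β γ g) : Cl F M o α β γ (f + g) := by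
  intro m hm
  rw [map_add]
  exact ⟨fun h1 => by rw [(h m hm).1 h1, (h' m hm).1 h1, add_zero],
    add_mem (h m hm).2 (h' m hm).2⟩

theorem Cl.neg (h : Cl F M o α β γ f) : Cl F M o α β γ (-f) := by
  intro m hm
  rw [map_neg]
  exact ⟨fun h1 => by rw [(h m hm).1 h1, neg_zero], neg_mem (h m hm).2⟩

theorem Cl.sub (h : Cl F M o α β γ f) (h' : Cl F M o α β γ g) : Cl F M o α β γ (f - g) := by
  rw [sub_eq_add_neg]; exact h.add h'.neg

theorem Cl.zero : Cl F M o α β γ (0 : PowerSeries A) := by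
  intro m _
  rw [map_zero]
  exact ⟨fun _ => rfl, zero_mem _⟩

theorem Cl.sum {ι : Type*} {s : Finset ι} {f : ι → PowerSeries A}
    (h : ∀ i ∈ s, Cl F M o α β γ (f i)) : Cl F M o α β γ (∑ i ∈ s, f i) := by
  classical
  induction s using Finset.induction_on with
  | empty => rw [Finset.sum_empty]; exact Cl.zero
  | insert a s ha ih =>
    rw [Finset.sum_insert ha]
    exact (h a (Finset.mem_insert_self _ _)).add
      (ih fun i hi => h i (Finset.mem_insert_of_mem hi))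

theorem Cl.mul {o'' α'' β'' γ'' : ℕ} (h : Cl F M o α β γ f) (h' : Cl F M o' α' β' γ' g)
    (h0 : o'' ≤ o + o') (h1 : α'' ≤ α + o') (h2 : α'' ≤ α' + o) (h3 : β'' ≤ β + o')
    (h4 : β'' ≤ β' + o) (h5 : γ'' ≤ γ + o') (h6 : γ'' ≤ γ' + o) (h7 : γ'' ≤ α + β')
    (h8 : γ'' ≤ α' + β) : Cl F M o'' α'' β'' γ'' (f * g) := by
  intro m hm
  rw [PowerSeries.coeff_mul]
  constructor
  · intro hmo
    refine Finset.sum_eq_zero ?_
    intro p hp
    replace hp : p.1 + p.2 = m := by simpa using hp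
    by_cases hc : p.1 < o
    · rw [(h p.1 (by omega)).1 hc, zero_mul]
    · rw [(h' p.2 (by omega)).1 (by omega), mul_zero]
  · refine Submodule.sum_mem _ ?_
    intro p hp
    replace hp : p.1 + p.2 = m := by simpa using hp
    by_cases hc : p.1 < o
    · rw [(h p.1 (by omega)).1 hc, zero_mul]; exact zero_mem _
    · by_cases hc' : p.2 < o'
      · rw [(h' p.2 (by omega)).1 hc', mul_zero]; exact zero_mem _
      · have := F.D_mul (i := p.1) (j := p.2) (by omega) (by omega) h1 h2 h3 h4 h5 h6 h7 h8 _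
          (h p.1 (by omega)).2 _ (h' p.2 (by omega)).2
        rwa [hp] at this

theorem Cl.C_A0 {a : A} (ha : a ∈ F.A0) (α β γ : ℕ) : Cl F M 0 α β γ (PowerSeries.C a) := by
  intro m _
  refine ⟨fun h => absurd h (by omega), ?_⟩
  rw [PowerSeries.coeff_C]
  split_ifs
  · exact F.A0_le _ _ _ _ ha
  · exact zero_mem _

theorem Cl.C_AQ {a : A} (ha : a ∈ F.AQ) (β γ : ℕ) : Cl F M 0 0 β γ (PowerSeries.C a) := by
  intro m _
  refine ⟨fun h => absurd h (by omega), ?_⟩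
  rw [PowerSeries.coeff_C]
  split_ifs
  · exact F.AQ_le _ _ (by omega) ha
  · exact zero_mem _

theorem Cl.C_AP {a : A} (ha : a ∈ F.AP) (α γ : ℕ) : Cl F M 0 α 0 γ (PowerSeries.C a) := by
  intro m _
  refine ⟨fun h => absurd h (by omega), ?_⟩
  rw [PowerSeries.coeff_C]
  split_ifs
  · exact F.AP_le _ _ (by omega) ha
  · exact zero_mem _

/-- Multiplication by a constant of `A0`. -/
theorem Cl.mul_A0 {a : A} (ha : a ∈ F.A0) (h : Cl F M o α β γ f) :
    Cl F M o α β γ (PowerSeries.C a * f) :=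
  (Cl.C_A0 ha (α + β + γ) (α + β + γ) (α + β + γ)).mul h (by omega) (by omega) (by omega)
    (by omega) (by omega) (by omega) (by omega) (by omega) (by omega)

/-- Multiplication by a constant of `AQ`. -/
theorem Cl.mul_AQ {a : A} (ha : a ∈ F.AQ) (h : Cl F M o α β γ f) {α'' γ'' : ℕ}
    (h1 : α'' ≤ α) (h1' : α'' ≤ o) (h2 : γ'' ≤ γ) (h3 : γ'' ≤ β) :
    Cl F M o α'' β γ'' (PowerSeries.C a * f) :=
  (Cl.C_AQ ha (α + β + γ) (α + β + γ)).mul h (by omega) (by omega) (by omega)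
    (by omega) (by omega) (by omega) (by omega) (by omega) (by omega)

/-- Multiplication by a constant of `AP`. -/
theorem Cl.mul_AP {a : A} (ha : a ∈ F.AP) (h : Cl F M o α β γ f) {β'' γ'' : ℕ}
    (h1 : β'' ≤ β) (h1' : β'' ≤ o) (h2 : γ'' ≤ γ) (h3 : γ'' ≤ α) :
    Cl F M o α β'' γ'' (PowerSeries.C a * f) :=
  (Cl.C_AP ha (α + β + γ) (α + β + γ)).mul h (by omega) (by omega) (by omega)
    (by omega) (by omega) (by omega) (by omega) (by omega) (by omega)

/-- Multiplication by `X ^ n`. -/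
theorem Cl.X_pow_mul (h : Cl F M o α β γ f) (n : ℕ) :
    Cl F (M + n) (o + n) (α + n) (β + n) (γ + n) (PowerSeries.X ^ n * f) := by
  intro m hm
  rw [PowerSeries.coeff_X_pow_mul']
  split_ifs with hn
  · have h1 := h (m - n) (by omega)
    refine ⟨fun h2 => h1.1 (by omega), ?_⟩
    have h3 := h1.2
    have h4 : F.D α β γ (m - n) ≤ F.D (α + n) (β + n) (γ + n) m := by
      unfold Fil.D
      refine sup_le_sup (sup_le_sup (sup_le_sup le_rfl ?_) ?_) ?_ <;>
        exact cnd_mono (fun h => by omega) _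
    exact h4 h3
  · exact ⟨fun _ => rfl, zero_mem _⟩

theorem Cl.restrict (h : Cl F M o α β γ f) {M' : ℕ} (hM : M' ≤ M) : Cl F M' o α β γ f :=
  fun m hm => h m (by omega)

theorem Cl.one (α β γ : ℕ) : Cl F M 0 α β γ (1 : PowerSeries A) := by
  have := Cl.C_A0 (M := M) F.one α β γ
  rwa [map_one] at this

end Vale.Agent.P207.N3.H254
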