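import Mathlib
import Vale.Agent.P207.N3.H254.Fil

/-!
# P207, line N3, package P10: the filtered algebra with real exponents

The ring `A[ℝ]` of finite sums `sum_w a_w ε^w`, `a_w ∈ A`, `w ∈ ℝ`.
-/

open AddMonoidAlgebra Finset

namespace Vale.Agent.P207.N3.H254

variable {A : Type*} [CommRing A] [Algebra ℝ A]

/-- The allowed coefficients at the exponent `w`. -/
noncomputable def Fil.R (F : Fil A) (α β γ w : ℝ) : Submodule ℝ A :=
  F.A0 ⊔ cnd (α ≤ w) F.AQ ⊔ cnd (β ≤ w) F.AP ⊔ cnd (γ ≤ w) ⊤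

theorem Fil.R_mono (F : Fil A) {α β γ α' β' γ' w : ℝ} (hα : α' ≤ α) (hβ : β' ≤ β)
    (hγ : γ' ≤ γ) : F.R α β γ w ≤ F.R α' β' γ' w := by
  unfold Fil.R
  refine sup_le_sup (sup_le_sup (sup_le_sup le_rfl ?_) ?_) ?_ <;>
    exact cnd_mono (fun h => by linarith) _

theorem Fil.A0_leR (F : Fil A) (α β γ w : ℝ) : F.A0 ≤ F.R α β γ w :=
  (le_sup_left.trans le_sup_left).trans le_sup_left

theorem Fil.AQ_leR (F : Fil A) {α : ℝ} (β γ : ℝ) {w : ℝ} (h : α ≤ w) : F.AQ ≤ F.R α β γ w := by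
  have h1 : F.AQ ≤ cnd (α ≤ w) F.AQ := by rw [cnd_pos h]
  exact ((h1.trans le_sup_right).trans le_sup_left).trans le_sup_left

theorem Fil.AP_leR (F : Fil A) (α : ℝ) {β : ℝ} (γ : ℝ) {w : ℝ} (h : β ≤ w) :
    F.AP ≤ F.R α β γ w := by
  have h1 : F.AP ≤ cnd (β ≤ w) F.AP := by rw [cnd_pos h]
  exact (h1.trans le_sup_right).trans le_sup_left

theorem Fil.R_top (F : Fil A) (α β : ℝ) {γ w : ℝ} (h : γ ≤ w) (a : A) : a ∈ F.R α β γ w := by
  have h1 : (⊤ : Submodule ℝ A) ≤ cnd (γ ≤ w) ⊤ := by rw [cnd_pos h]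
  exact (h1.trans le_sup_right) trivial

theorem Fil.R_le (F : Fil A) {α β γ w : ℝ} (h : w < γ) : F.R α β γ w ≤ F.AP ⊔ F.AQ := by
  unfold Fil.R
  refine sup_le (sup_le (sup_le (F.leP.trans le_sup_left) ?_) ?_) ?_
  · by_cases h1 : α ≤ w
    · rw [cnd_pos h1]; exact le_sup_right
    · rw [cnd_neg h1]; exact bot_le
  · by_cases h1 : β ≤ w
    · rw [cnd_pos h1]; exact le_sup_left
    · rw [cnd_neg h1]; exact bot_le
  · rw [cnd_neg (by linarith)]; exact bot_le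

theorem Fil.R_le0 (F : Fil A) {α β γ w : ℝ} (hα : w < α) (hβ : w < β) (hγ : w < γ) :
    F.R α β γ w ≤ F.A0 := by
  unfold Fil.R
  rw [cnd_neg (by linarith), cnd_neg (by linarith), cnd_neg (by linarith)]
  simp

theorem Fil.R_leQ (F : Fil A) {α β γ w : ℝ} (hβ : w < β) (hγ : w < γ) :
    F.R α β γ w ≤ F.AQ := by
  unfold Fil.R
  rw [cnd_neg (show ¬ β ≤ w by linarith), cnd_neg (show ¬ γ ≤ w by linarith)]
  refine sup_le (sup_le (sup_le F.leQ ?_) bot_le) bot_le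
  by_cases h1 : α ≤ w
  · rw [cnd_pos h1]
  · rw [cnd_neg h1]; exact bot_le

theorem Fil.R_leP (F : Fil A) {α β γ w : ℝ} (hα : w < α) (hγ : w < γ) :
    F.R α β γ w ≤ F.AP := by
  unfold Fil.R
  rw [cnd_neg (show ¬ α ≤ w by linarith), cnd_neg (show ¬ γ ≤ w by linarith)]
  refine sup_le (sup_le (sup_le F.leP bot_le) ?_) bot_le
  by_cases h1 : β ≤ w
  · rw [cnd_pos h1]
  · rw [cnd_neg h1]; exact bot_le

theorem Fil.R_mul (F : Fil A) {α β γ α' β' γ' α'' β'' γ'' o o' i j : ℝ} (hi : o ≤ i)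
    (hj : o' ≤ j) (h1 : α'' ≤ α + o') (h2 : α'' ≤ α' + o) (h3 : β'' ≤ β + o')
    (h4 : β'' ≤ β' + o) (h5 : γ'' ≤ γ + o') (h6 : γ'' ≤ γ' + o) (h7 : γ'' ≤ α + β')
    (h8 : γ'' ≤ α' + β) : MulLe (F.R α β γ i) (F.R α' β' γ' j) (F.R α'' β'' γ'' (i + j)) := by
  have top : γ'' ≤ i + j → ∀ S T : Submodule ℝ A, MulLe S T (F.R α'' β'' γ'' (i + j)) :=
    fun h S T a _ b _ => F.R_top _ _ h _
  have q0 : MulLe F.A0 F.AQ F.AQ := fun a ha b hb => F.mulQ a (F.leQ ha) b hb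
  have q1 : MulLe F.AQ F.A0 F.AQ := fun a ha b hb => F.mulQ a ha b (F.leQ hb)
  have p0 : MulLe F.A0 F.AP F.AP := fun a ha b hb => F.mulP a (F.leP ha) b hb
  have p1 : MulLe F.AP F.A0 F.AP := fun a ha b hb => F.mulP a ha b (F.leP hb)
  have z : MulLe F.A0 F.A0 F.A0 := F.mul0
  have pp : MulLe F.AP F.AP F.AP := F.mulP
  have qq : MulLe F.AQ F.AQ F.AQ := F.mulQ
  refine MulLe.sup_left (MulLe.sup_left (MulLe.sup_left ?_ ?_) ?_) ?_
  · refine MulLe.sup_right (MulLe.sup_right (MulLe.sup_right ?_ ?_) ?_) ?_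
    · exact z.mono (F.A0_leR _ _ _ _)
    · exact MulLe.cnd_right fun h => q0.mono (F.AQ_leR _ _ (by linarith))
    · exact MulLe.cnd_right fun h => p0.mono (F.AP_leR _ _ (by linarith))
    · exact MulLe.cnd_right fun h => top (by linarith) _ _
  · refine MulLe.cnd_left fun h => ?_
    refine MulLe.sup_right (MulLe.sup_right (MulLe.sup_right ?_ ?_) ?_) ?_
    · exact q1.mono (F.AQ_leR _ _ (by linarith))
    · exact MulLe.cnd_right fun h' => qq.mono (F.AQ_leR _ _ (by linarith))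
    · exact MulLe.cnd_right fun h' => top (by linarith) _ _
    · exact MulLe.cnd_right fun h' => top (by linarith) _ _
  · refine MulLe.cnd_left fun h => ?_
    refine MulLe.sup_right (MulLe.sup_right (MulLe.sup_right ?_ ?_) ?_) ?_
    · exact p1.mono (F.AP_leR _ _ (by linarith))
    · exact MulLe.cnd_right fun h' => top (by linarith) _ _
    · exact MulLe.cnd_right fun h' => pp.mono (F.AP_leR _ _ (by linarith))
    · exact MulLe.cnd_right fun h' => top (by linarith) _ _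
  · exact MulLe.cnd_left fun h => top (by linarith) _ _

/-! ### Classes -/

/-- The class of an element of `A[ℝ]`: exponents `≥ o`, coefficient of `ε^w` in
`A0 + [α ≤ w] AQ + [β ≤ w] AP + [γ ≤ w] A`. -/
def Cr (F : Fil A) (o α β γ : ℝ) (f : AddMonoidAlgebra A ℝ) : Prop :=
  ∀ w : ℝ, (w < o → f.coeff w = 0) ∧ f.coeff w ∈ F.R α β γ w

variable {F : Fil A} {o α β γ o' α' β' γ' : ℝ} {f g : AddMonoidAlgebra A ℝ}

theorem Cr.mono (h : Cr F o α β γ f) (ho : o' ≤ o) (hα : α' ≤ α) (hβ : β' ≤ β)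
    (hγ : γ' ≤ γ) : Cr F o' α' β' γ' f :=
  fun w => ⟨fun h1 => (h w).1 (by linarith), F.R_mono hα hβ hγ (h w).2⟩

theorem Cr.add (h : Cr F o α β γ f) (h' : Cr F o α β γ g) : Cr F o α β γ (f + g) := by
  intro w
  rw [AddMonoidAlgebra.coeff_add, Finsupp.add_apply]
  exact ⟨fun h1 => by rw [(h w).1 h1, (h' w).1 h1, add_zero], add_mem (h w).2 (h' w).2⟩

theorem Cr.neg (h : Cr F o α β γ f) : Cr F o α β γ (-f) := by
  intro w
  rw [AddMonoidAlgebra.coeff_neg, Finsupp.neg_apply]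
  exact ⟨fun h1 => by rw [(h w).1 h1, neg_zero], neg_mem (h w).2⟩

theorem Cr.sub (h : Cr F o α β γ f) (h' : Cr F o α β γ g) : Cr F o α β γ (f - g) := by
  rw [sub_eq_add_neg]; exact h.add h'.neg

theorem Cr.zero : Cr F o α β γ (0 : AddMonoidAlgebra A ℝ) := by
  intro w
  rw [AddMonoidAlgebra.coeff_zero, Finsupp.zero_apply]
  exact ⟨fun _ => rfl, zero_mem _⟩

theorem Cr.sum {ι : Type*} {s : Finset ι} {f : ι → AddMonoidAlgebra A ℝ}
    (h : ∀ i ∈ s, Cr F o α β γ (f i)) : Cr F o α β γ (∑ i ∈ s, f i) := by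
  classical
  induction s using Finset.induction_on with
  | empty => rw [Finset.sum_empty]; exact Cr.zero
  | insert a s ha ih =>
    rw [Finset.sum_insert ha]
    exact (h a (Finset.mem_insert_self _ _)).add
      (ih fun i hi => h i (Finset.mem_insert_of_mem hi))

theorem Cr.smul (c : ℝ) (h : Cr F o α β γ f) : Cr F o α β γ (c • f) := by
  intro w
  rw [AddMonoidAlgebra.coeff_smul, Finsupp.smul_apply]
  exact ⟨fun h1 => by rw [(h w).1 h1, smul_zero], Submodule.smul_mem _ _ (h w).2⟩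

theorem Cr.mul {o'' α'' β'' γ'' : ℝ} (h : Cr F o α β γ f) (h' : Cr F o' α' β' γ' g)
    (h0 : o'' ≤ o + o') (h1 : α'' ≤ α + o') (h2 : α'' ≤ α' + o) (h3 : β'' ≤ β + o')
    (h4 : β'' ≤ β' + o) (h5 : γ'' ≤ γ + o') (h6 : γ'' ≤ γ' + o) (h7 : γ'' ≤ α + β')
    (h8 : γ'' ≤ α' + β) : Cr F o'' α'' β'' γ'' (f * g) := by
  classical
  intro w
  rw [AddMonoidAlgebra.coeff_mul]
  have key : ∀ u v : ℝ, u + v = w →
      (w < o'' → f.coeff u * g.coeff v = 0) ∧ f.coeff u * g.coeff v ∈ F.R α'' β'' γ'' w := by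
    intro u v huv
    by_cases hc : u < o
    · rw [(h u).1 hc, zero_mul]
      exact ⟨fun _ => rfl, zero_mem _⟩
    · by_cases hc' : v < o'
      · rw [(h' v).1 hc', mul_zero]
        exact ⟨fun _ => rfl, zero_mem _⟩
      · push Not at hc hc'
        refine ⟨fun hw => by linarith, ?_⟩
        rw [← huv]
        exact F.R_mul hc hc' h1 h2 h3 h4 h5 h6 h7 h8 _ (h u).2 _ (h' v).2
  constructor
  · intro hw
    refine Finset.sum_eq_zero fun u _ => Finset.sum_eq_zero fun v _ => ?_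
    show (if u + v = w then f.coeff u * g.coeff v else 0) = 0
    split_ifs with huv
    · exact (key u v huv).1 hw
    · rfl
  · refine Submodule.sum_mem _ fun u _ => Submodule.sum_mem _ fun v _ => ?_
    show (if u + v = w then f.coeff u * g.coeff v else 0) ∈ _
    split_ifs with huv
    · exact (key u v huv).2
    · exact zero_mem _

/-- One monomial. -/
theorem Cr.single {a : A} {w : ℝ} (how : o ≤ w) (ha : a ∈ F.R α β γ w) :
    Cr F o α β γ (single w a) := by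
  classical
  intro v
  rw [AddMonoidAlgebra.coeff_single, Finsupp.single_apply]
  split_ifs with h
  · subst h
    exact ⟨fun h1 => absurd how (by linarith), ha⟩
  · exact ⟨fun _ => rfl, zero_mem _⟩

/-- Constants. -/
theorem Cr.const0 {a : A} (ha : a ∈ F.A0) (α β γ : ℝ) : Cr F 0 α β γ (AddMonoidAlgebra.single 0 a) :=
  Cr.single le_rfl (F.A0_leR _ _ _ _ ha)

theorem Cr.constP {a : A} (ha : a ∈ F.AP) (α γ : ℝ) : Cr F 0 α 0 γ (AddMonoidAlgebra.single 0 a) :=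
  Cr.single le_rfl (F.AP_leR _ _ le_rfl ha)

theorem Cr.one (α β γ : ℝ) : Cr F 0 α β γ (1 : AddMonoidAlgebra A ℝ) := by
  rw [AddMonoidAlgebra.one_def]
  exact Cr.const0 F.one _ _ _

end Vale.Agent.P207.N3.H254
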