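import Mathlib
import Vale.Agent.P207.N3.H254.FilR
import Vale.Agent.P207.N3.H254.EK

/-!
# P207, line N3, package P10: classes of the iterates and of the product formula
-/

open AddMonoidAlgebra Finset

namespace Vale.Agent.P207.N3.H254

variable {B : Type*} [CommRing B] [Algebra ℝ B]

/-- The jets of the `y`-side: exponents `≥ o`, coefficients in `AQ`, and in `A0` below `α`. -/
def CY (F : Fil B) (o α : ℝ) (f : AddMonoidAlgebra B ℝ) : Prop :=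
  ∀ w : ℝ, (w < o → f.coeff w = 0) ∧ (w < α → f.coeff w ∈ F.A0) ∧ f.coeff w ∈ F.AQ

variable {F : Fil B}

theorem CY.cr {o α : ℝ} {f : AddMonoidAlgebra B ℝ} (h : CY F o α f) (β γ : ℝ) :
    Cr F o α β γ f := by
  intro w
  refine ⟨(h w).1, ?_⟩
  by_cases hw : w < α
  · exact F.A0_leR _ _ _ _ ((h w).2.1 hw)
  · exact F.AQ_leR _ _ (not_lt.1 hw) (h w).2.2

/-- Constants. -/
noncomputable def cs (b : B) : AddMonoidAlgebra B ℝ := single 0 b

/-- The hypotheses of the formal theorem. -/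
structure Hyp (F : Fil B) (ℓ α αX : ℝ) (b bX : ℕ) (T X : ℕ × ℕ → AddMonoidAlgebra B ℝ)
    (T' X' : ℕ × ℕ → B) : Prop where
  hℓ : 0 < ℓ
  hα : 2 * ℓ ≤ α
  hb : 2 ≤ b
  T1 : ∀ a, CY F ℓ α (T a)
  T2 : ∀ a, 2 ≤ len a → CY F (2 * ℓ) α (T a)
  X1 : ∀ a, CY F ℓ αX (X a)
  T0' : ∀ c, len c < b → T' c ∈ F.A0
  TP' : ∀ c, T' c ∈ F.AP
  X0' : ∀ c, len c < bX → X' c ∈ F.A0
  XP' : ∀ c, X' c ∈ F.AP

section powers

variable {o α β γ ℓ : ℝ} {f : AddMonoidAlgebra B ℝ} {q p : Fin 2 → AddMonoidAlgebra B ℝ}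

theorem Cr.pow0 (h : Cr F 0 α β γ f) (hγ : γ ≤ α + β) (n : ℕ) : Cr F 0 α β γ (f ^ n) := by
  induction n with
  | zero => rw [pow_zero]; exact Cr.one _ _ _
  | succ n ih =>
    rw [pow_succ]
    exact ih.mul h (by linarith) (by linarith) (by linarith) (by linarith) (by linarith)
      (by linarith) (by linarith) (by linarith) (by linarith)

theorem Cr.mon0 (h : ∀ i, Cr F 0 α β γ (q i)) (hγ : γ ≤ α + β) (a : ℕ × ℕ) :
    Cr F 0 α β γ (mon q a) :=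
  ((h 0).pow0 hγ a.1).mul ((h 1).pow0 hγ a.2) (by linarith) (by linarith) (by linarith)
    (by linarith) (by linarith) (by linarith) (by linarith) (by linarith) (by linarith)

/-- The class of a product of `n` factors of the class `(ℓ; α, β, γ)`. -/
def Cp (F : Fil B) (ℓ α β γ : ℝ) (n : ℕ) (f : AddMonoidAlgebra B ℝ) : Prop :=
  Cr F (n * ℓ) (α + (n - 1) * ℓ) (β + (n - 1) * ℓ) (γ + (n - 1) * ℓ) f

theorem Cp.mul (hγ : γ + ℓ ≤ α + β) {m n : ℕ} {f g : AddMonoidAlgebra B ℝ}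
    (hf : Cp F ℓ α β γ m f) (hg : Cp F ℓ α β γ n g) : Cp F ℓ α β γ (m + n) (f * g) := by
  unfold Cp at *
  refine Cr.mul hf hg ?_ ?_ ?_ ?_ ?_ ?_ ?_ ?_ ?_ <;> push_cast <;> nlinarith

theorem Cp.zero_one : Cp F ℓ α β γ 0 (1 : AddMonoidAlgebra B ℝ) := by
  unfold Cp
  simpa using Cr.one (F := F) (α + ((0 : ℕ) - 1 : ℝ) * ℓ) (β + ((0 : ℕ) - 1 : ℝ) * ℓ)
    (γ + ((0 : ℕ) - 1 : ℝ) * ℓ)

theorem Cp.one_of (h : Cr F ℓ α β γ f) : Cp F ℓ α β γ 1 f := by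
  unfold Cp
  simpa using h

theorem Cp.pow (hγ : γ + ℓ ≤ α + β) (h : Cr F ℓ α β γ f) (n : ℕ) :
    Cp F ℓ α β γ n (f ^ n) := by
  induction n with
  | zero => rw [pow_zero]; exact Cp.zero_one
  | succ n ih => rw [pow_succ]; exact Cp.mul hγ ih (Cp.one_of h)

theorem Cp.mon (hγ : γ + ℓ ≤ α + β) (h : ∀ i, Cr F ℓ α β γ (p i)) (a : ℕ × ℕ) :
    Cp F ℓ α β γ (len a) (mon p a) :=
  Cp.mul hγ (Cp.pow hγ (h 0) a.1) (Cp.pow hγ (h 1) a.2)

theorem mon_zero {R : Type*} [CommRing R] (q : Fin 2 → R) : mon q (0, 0) = 1 := by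
  unfold Vale.Agent.P207.N3.H254.mon; simp

theorem Cr.cs0 {a : B} (ha : a ∈ F.A0) (α β γ : ℝ) : Cr F 0 α β γ (cs a) := Cr.const0 ha _ _ _

/-- Multiplication by a constant of `A0`. -/
theorem Cr.mul0 {a : B} (ha : a ∈ F.A0) (h : Cr F o α β γ f) : Cr F o α β γ (cs a * f) := by
  have hc := Cr.cs0 ha (max (max (α - o) (γ - β)) (max 0 0)) (max (max (β - o) (γ - α)) 0)
    (γ - o)
  have h1 : α - o ≤ max (max (α - o) (γ - β)) (max 0 0) :=
    (le_max_left _ _).trans (le_max_left _ _)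
  have h2 : γ - β ≤ max (max (α - o) (γ - β)) (max 0 0) :=
    (le_max_right _ _).trans (le_max_left _ _)
  have h3 : β - o ≤ max (max (β - o) (γ - α)) 0 := (le_max_left _ _).trans (le_max_left _ _)
  have h4 : γ - α ≤ max (max (β - o) (γ - α)) 0 := (le_max_right _ _).trans (le_max_left _ _)
  exact hc.mul h (by linarith) (by linarith) (by linarith) (by linarith) (by linarith)
    (by linarith) (by linarith) (by linarith) (by linarith)

/-- Multiplication by a constant of `AP`. -/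
theorem Cr.mulP {a : B} (ha : a ∈ F.AP) (h : Cr F o α β γ f) {β' γ' : ℝ} (h1 : β' ≤ β)
    (h2 : β' ≤ o) (h3 : γ' ≤ γ) (h4 : γ' ≤ α) : Cr F o α β' γ' (cs a * f) := by
  have hc : Cr F 0 (max (α - o) (γ' - β)) 0 (γ' - o) (cs a) := Cr.constP ha _ _
  have h5 : α - o ≤ max (α - o) (γ' - β) := le_max_left _ _
  have h6 : γ' - β ≤ max (α - o) (γ' - β) := le_max_right _ _
  exact hc.mul h (by linarith) (by linarith) (by linarith) (by linarith) (by linarith)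
    (by linarith) (by linarith) (by linarith) (by linarith)

end powers

/-! ### The classes of `p`, `q` -/

/-- The class of `q`. -/
def Cq (F : Fil B) (ℓ α : ℝ) (b : ℕ) (f : AddMonoidAlgebra B ℝ) : Prop :=
  Cr F 0 α ((b - 1) * ℓ) (α + (b - 2) * ℓ) f

/-- The class of `p`. -/
def Cpp (F : Fil B) (ℓ α : ℝ) (b : ℕ) (f : AddMonoidAlgebra B ℝ) : Prop :=
  Cr F ℓ α ((b + 1) * ℓ) (α + (b - 1) * ℓ) f

variable {ℓ α αX : ℝ} {b bX K : ℕ} {T X : ℕ × ℕ → AddMonoidAlgebra B ℝ}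
  {T' X' : ℕ × ℕ → B} {q p : Fin 2 → AddMonoidAlgebra B ℝ}

theorem Cq.mon (H : Hyp F ℓ α αX b bX T X T' X') (hq : ∀ i, Cq F ℓ α b (q i)) (a : ℕ × ℕ) :
    Cq F ℓ α b (mon q a) := by
  have := H.hℓ
  exact Cr.mon0 hq (by nlinarith) a

theorem Cpp.mon (H : Hyp F ℓ α αX b bX T X T' X') (hp : ∀ i, Cpp F ℓ α b (p i)) (a : ℕ × ℕ) :
    Cr F (len a * ℓ) (α + (len a - 1) * ℓ) ((b + len a) * ℓ) (α + (b + len a - 2) * ℓ)
      (mon p a) := by
  have h0 := H.hℓ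
  have h1 := Cp.mon (F := F) (ℓ := ℓ) (α := α) (β := (b + 1) * ℓ) (γ := α + (b - 1) * ℓ)
    (by nlinarith) hp a
  unfold Cp at h1
  exact h1.mono le_rfl le_rfl (by nlinarith) (by nlinarith)

/-- A jet of length `≥ 2` times a monomial in `q`. -/
theorem T2_mul (H : Hyp F ℓ α αX b bX T X T' X') (hq : ∀ i, Cq F ℓ α b (q i)) {c : ℕ × ℕ}
    (hc : 2 ≤ len c) (a : ℕ × ℕ) :
    Cr F (2 * ℓ) α ((b + 1) * ℓ) (α + (b - 1) * ℓ) (T c * Vale.Agent.P207.N3.H254.mon q a) := by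
  have h0 := H.hℓ
  have h1 := H.hα
  have hT := (H.T2 c hc).cr ((b + 1) * ℓ) (α + (b - 1) * ℓ)
  have hm : Cr F 0 α ((b - 1) * ℓ) (α + (b - 2) * ℓ) (Vale.Agent.P207.N3.H254.mon q a) :=
    Cq.mon H hq a
  refine hT.mul hm ?_ ?_ ?_ ?_ ?_ ?_ ?_ ?_ ?_ <;> nlinarith

theorem gr_T (H : Hyp F ℓ α αX b bX T X T' X') (hq : ∀ i, Cq F ℓ α b (q i)) (i : Fin 2) :
    Cpp F ℓ α b (gr K T q i) := by
  have h0 := H.hℓ
  unfold gr ev
  refine Cr.sum fun a _ => Cr.smul _ ?_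
  by_cases ha : a = (0, 0)
  · subst ha
    rw [mon_zero, mul_one]
    exact (H.T1 _).cr _ _
  · have h2 : 2 ≤ len (a + e i) := by
      rw [len_add, len_e]
      have : len a ≠ 0 := by
        intro h
        apply ha
        unfold len at h
        exact Prod.ext (by simp; omega) (by simp; omega)
      omega
    exact (T2_mul H hq h2 a).mono (by linarith) le_rfl le_rfl le_rfl

theorem gr_T' (H : Hyp F ℓ α αX b bX T X T' X') (hp : ∀ i, Cpp F ℓ α b (p i)) (i : Fin 2) :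
    Cq F ℓ α b (gr K (fun c => cs (T' c)) p i) := by
  have h0 := H.hℓ
  have hb := H.hb
  have hbR : (2 : ℝ) ≤ b := by exact_mod_cast hb
  unfold gr ev
  refine Cr.sum fun a _ => Cr.smul _ ?_
  show Cr F 0 α ((b - 1) * ℓ) (α + (b - 2) * ℓ)
    (cs (T' (a + e i)) * Vale.Agent.P207.N3.H254.mon p a)
  have hm := Cpp.mon H hp a
  by_cases ha : len a = 0
  · have ha' : a = (0, 0) := by
      unfold len at ha
      exact Prod.ext (by simp; omega) (by simp; omega)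
    subst ha'
    rw [mon_zero, mul_one]
    exact Cr.cs0 (H.T0' _ (by rw [len_add, len_e]; omega)) _ _ _
  · have h1 : (1 : ℝ) ≤ len a := by exact_mod_cast Nat.one_le_iff_ne_zero.2 ha
    by_cases hc : len (a + e i) < b
    · exact (hm.mul0 (H.T0' _ hc)).mono (by nlinarith) (by nlinarith) (by nlinarith)
        (by nlinarith)
    · rw [len_add, len_e, not_lt] at hc
      have hcR : (b : ℝ) ≤ len a + 1 := by exact_mod_cast hc
      exact (hm.mulP (H.TP' _) (β' := (b - 1) * ℓ) (γ' := α + (b - 2) * ℓ) (by nlinarith)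
        (by nlinarith) (by nlinarith) (by nlinarith)).mono (by nlinarith) (by nlinarith) le_rfl
        le_rfl

/-- The classes of the iterates. -/
theorem it_class (H : Hyp F ℓ α αX b bX T X T' X') (n : ℕ) :
    (∀ i, Cpp F ℓ α b ((it K T (fun c => cs (T' c)) n).1 i)) ∧
    ∀ i, Cq F ℓ α b ((it K T (fun c => cs (T' c)) n).2 i) := by
  induction n with
  | zero => exact ⟨fun i => Cr.zero, fun i => Cr.zero⟩
  | succ n ih =>
    have h1 : ∀ i, Cpp F ℓ α b ((it K T (fun c => cs (T' c)) (n + 1)).1 i) := by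
      intro i
      rw [it_succ_fst]
      exact gr_T H ih.2 i
    refine ⟨h1, fun i => ?_⟩
    rw [it_succ_snd]
    exact gr_T' H h1 i

/-! ### The classes of the terms of the product formula -/

theorem he_T (H : Hyp F ℓ α αX b bX T X T' X') (hq : ∀ i, Cq F ℓ α b (q i)) (i j : Fin 2) :
    Cr F (2 * ℓ) α ((b + 1) * ℓ) (α + (b - 1) * ℓ) (he K T q i j) := by
  unfold he ev
  refine Cr.sum fun a _ => Cr.smul _ ?_
  exact T2_mul H hq (by rw [len_add, len_add, len_e, len_e]; omega) a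

theorem he_T' (H : Hyp F ℓ α αX b bX T X T' X') (hp : ∀ i, Cpp F ℓ α b (p i)) (i j : Fin 2) :
    Cr F 0 α ((b - 2) * ℓ) (α + (b - 3) * ℓ) (he K (fun c => cs (T' c)) p i j) := by
  have h0 := H.hℓ
  have hb := H.hb
  have hbR : (2 : ℝ) ≤ b := by exact_mod_cast hb
  unfold he ev
  refine Cr.sum fun a _ => Cr.smul _ ?_
  show Cr F 0 α ((b - 2) * ℓ) (α + (b - 3) * ℓ)
    (cs (T' (a + (e i + e j))) * Vale.Agent.P207.N3.H254.mon p a)
  have hm := Cpp.mon H hp a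
  have hlen : len (a + (e i + e j)) = len a + 2 := by rw [len_add, len_add, len_e, len_e]
  by_cases ha : len a = 0
  · have ha' : a = (0, 0) := by
      unfold len at ha
      exact Prod.ext (by simp; omega) (by simp; omega)
    subst ha'
    rw [mon_zero, mul_one]
    by_cases hc : len (((0 : ℕ), (0 : ℕ)) + (e i + e j)) < b
    · exact Cr.cs0 (H.T0' _ hc) _ _ _
    · rw [hlen] at hc
      have hb2 : b = 2 := by
        have : len ((0 : ℕ), (0 : ℕ)) = 0 := rfl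
        omega
      refine (Cr.constP (F := F) (H.TP' (((0 : ℕ), (0 : ℕ)) + (e i + e j))) α
        (α + (b - 3) * ℓ)).mono le_rfl le_rfl ?_ le_rfl
      rw [hb2]; norm_num
  · have h1 : (1 : ℝ) ≤ len a := by exact_mod_cast Nat.one_le_iff_ne_zero.2 ha
    by_cases hc : len (a + (e i + e j)) < b
    · exact (hm.mul0 (H.T0' _ hc)).mono (by nlinarith) (by nlinarith) (by nlinarith)
        (by nlinarith)
    · rw [hlen, not_lt] at hc
      have hcR : (b : ℝ) ≤ len a + 2 := by exact_mod_cast hc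
      exact (hm.mulP (H.TP' _) (β' := (b - 2) * ℓ) (γ' := α + (b - 3) * ℓ) (by nlinarith)
        (by nlinarith) (by nlinarith) (by nlinarith)).mono (by nlinarith) (by nlinarith) le_rfl
        le_rfl

/-- A `y`-jet (any length, threshold `αX`) times a monomial in `q`. -/
theorem X_mul (H : Hyp F ℓ α αX b bX T X T' X') (hq : ∀ i, Cq F ℓ α b (q i))
    {f : AddMonoidAlgebra B ℝ} {αf : ℝ} (hf : CY F ℓ αf f) (a : ℕ × ℕ) {α'' γ'' : ℝ}
    (h1 : α'' ≤ αf) (h2 : α'' ≤ α + ℓ) (h3 : γ'' ≤ α + (b - 1) * ℓ)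
    (h4 : γ'' ≤ αf + (b - 1) * ℓ) :
    Cr F ℓ α'' (b * ℓ) γ'' (f * Vale.Agent.P207.N3.H254.mon q a) := by
  have h0 := H.hℓ
  have hf' := hf.cr (b * ℓ) (max γ'' (γ'' - α))
  have hm : Cr F 0 α ((b - 1) * ℓ) (α + (b - 2) * ℓ) (Vale.Agent.P207.N3.H254.mon q a) :=
    Cq.mon H hq a
  have hb0 : (0 : ℝ) ≤ b := Nat.cast_nonneg _
  have h7 : γ'' ≤ max γ'' (γ'' - α) := le_max_left _ _
  have hα0 : 0 < α := by have := H.hα; linarith
  have hf2 := hf.cr (max (b * ℓ) (γ'' - α)) (max γ'' (γ'' - α))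
  have h8 : b * ℓ ≤ max (b * ℓ) (γ'' - α) := le_max_left _ _
  have h9 : γ'' - α ≤ max (b * ℓ) (γ'' - α) := le_max_right _ _
  refine hf2.mul hm ?_ ?_ ?_ ?_ ?_ ?_ ?_ ?_ ?_ <;> nlinarith

theorem ev_X (H : Hyp F ℓ α αX b bX T X T' X') (hq : ∀ i, Cq F ℓ α b (q i)) {α'' γ'' : ℝ}
    (h1 : α'' ≤ αX) (h2 : α'' ≤ α + ℓ) (h3 : γ'' ≤ α + (b - 1) * ℓ)
    (h4 : γ'' ≤ αX + (b - 1) * ℓ) : Cr F ℓ α'' (b * ℓ) γ'' (ev K X q) := by
  unfold ev
  exact Cr.sum fun a _ => Cr.smul _ (X_mul H hq (H.X1 a) a h1 h2 h3 h4)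

theorem ev_T (H : Hyp F ℓ α αX b bX T X T' X') (hq : ∀ i, Cq F ℓ α b (q i)) :
    Cr F ℓ α (b * ℓ) (α + (b - 1) * ℓ) (ev K T q) := by
  have h0 := H.hℓ
  unfold ev
  exact Cr.sum fun a _ => Cr.smul _ (X_mul H hq (H.T1 a) a le_rfl (by linarith) le_rfl le_rfl)

/-- Evaluation of `x`-side jets which are in `A0` below the length `b'`. -/
theorem ev_x (H : Hyp F ℓ α αX b bX T X T' X') (hp : ∀ i, Cpp F ℓ α b (p i))
    {Z : ℕ × ℕ → B} {b' : ℕ} (hb' : 1 ≤ b') (h0' : ∀ c, len c < b' → Z c ∈ F.A0)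
    (hP : ∀ c, Z c ∈ F.AP) {β'' γ'' : ℝ} (h1 : β'' ≤ (b + 1) * ℓ) (h2 : β'' ≤ b' * ℓ)
    (h3 : γ'' ≤ α + (b - 1) * ℓ) (h4 : γ'' ≤ α + (b' - 1) * ℓ) :
    Cr F 0 α β'' γ'' (ev K (fun c => cs (Z c)) p) := by
  have h0 := H.hℓ
  unfold ev
  refine Cr.sum fun a _ => Cr.smul _ ?_
  have hm := Cpp.mon H hp a
  by_cases ha : len a = 0
  · have ha' : a = (0, 0) := by
      unfold len at ha
      exact Prod.ext (by simp; omega) (by simp; omega)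
    subst ha'
    rw [mon_zero, mul_one]
    exact Cr.cs0 (h0' _ (by show 0 < b'; omega)) _ _ _
  · have h5 : (1 : ℝ) ≤ len a := by exact_mod_cast Nat.one_le_iff_ne_zero.2 ha
    have hbR : (0 : ℝ) ≤ b := Nat.cast_nonneg _
    by_cases hc : len a < b'
    · exact (hm.mul0 (h0' _ hc)).mono (by nlinarith) (by nlinarith) (by nlinarith)
        (by nlinarith)
    · have hcR : (b' : ℝ) ≤ len a := by exact_mod_cast not_lt.1 hc
      exact (hm.mulP (hP _) (β' := β'') (γ' := γ'') (by nlinarith) (by nlinarith)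
        (by nlinarith) (by nlinarith)).mono (by nlinarith) (by nlinarith) le_rfl le_rfl

theorem pq_mul (H : Hyp F ℓ α αX b bX T X T' X') (hp : ∀ i, Cpp F ℓ α b (p i))
    (hq : ∀ i, Cq F ℓ α b (q i)) (i : Fin 2) :
    Cr F ℓ α (b * ℓ) (α + (b - 1) * ℓ) (p i * q i) := by
  have h0 := H.hℓ
  have h1 := H.hα
  have hp' : Cr F ℓ α ((b + 1) * ℓ) (α + (b - 1) * ℓ) (p i) := hp i
  have hq' : Cr F 0 α ((b - 1) * ℓ) (α + (b - 2) * ℓ) (q i) := hq i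
  refine hp'.mul hq' ?_ ?_ ?_ ?_ ?_ ?_ ?_ ?_ ?_ <;> nlinarith

variable {M M' : Fin 2 → Fin 2 → AddMonoidAlgebra B ℝ}

/-- The product of the two Hessians. -/
theorem MM_class (hℓ : 0 < ℓ) (hα : 2 * ℓ ≤ α)
    (hM : ∀ i j, Cr F (2 * ℓ) α ((b + 1) * ℓ) (α + (b - 1) * ℓ) (M i j))
    (hM' : ∀ i j, Cr F 0 α ((b - 2) * ℓ) (α + (b - 3) * ℓ) (M' i j)) (i j k l : Fin 2) :
    Cr F (2 * ℓ) α (b * ℓ) (α + (b - 2) * ℓ) (M i j * M' k l) := by
  refine (hM i j).mul (hM' k l) ?_ ?_ ?_ ?_ ?_ ?_ ?_ ?_ ?_ <;> nlinarith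

/-- The product of the two determinants. -/
theorem dd_class (hℓ : 0 < ℓ) (hα : 2 * ℓ ≤ α)
    (hM : ∀ i j, Cr F (2 * ℓ) α ((b + 1) * ℓ) (α + (b - 1) * ℓ) (M i j))
    (hM' : ∀ i j, Cr F 0 α ((b - 2) * ℓ) (α + (b - 3) * ℓ) (M' i j)) :
    Cr F (2 * ℓ) α (b * ℓ) (α + (b - 1) * ℓ)
      ((M 0 0 * M 1 1 - M 0 1 * M 1 0) * (M' 0 0 * M' 1 1 - M' 0 1 * M' 1 0)) := by
  have h1 : ∀ i j k l, Cr F (4 * ℓ) (α + 2 * ℓ) ((b + 3) * ℓ) (α + (b + 1) * ℓ)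
      (M i j * M k l) := by
    intro i j k l
    refine (hM i j).mul (hM k l) ?_ ?_ ?_ ?_ ?_ ?_ ?_ ?_ ?_ <;> nlinarith
  have h2 : ∀ i j k l, Cr F 0 α ((b - 2) * ℓ) (α + (b - 3) * ℓ) (M' i j * M' k l) := by
    intro i j k l
    refine (hM' i j).mul (hM' k l) ?_ ?_ ?_ ?_ ?_ ?_ ?_ ?_ ?_ <;> nlinarith
  refine ((h1 0 0 1 1).sub (h1 0 1 1 0)).mul ((h2 0 0 1 1).sub (h2 0 1 1 0))
    ?_ ?_ ?_ ?_ ?_ ?_ ?_ ?_ ?_ <;> nlinarith

theorem lo_class (hℓ : 0 < ℓ) (hα : 2 * ℓ ≤ α)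
    (hM : ∀ i j, Cr F (2 * ℓ) α ((b + 1) * ℓ) (α + (b - 1) * ℓ) (M i j))
    (hM' : ∀ i j, Cr F 0 α ((b - 2) * ℓ) (α + (b - 3) * ℓ) (M' i j)) :
    Cr F (2 * ℓ) α (b * ℓ) (α + (b - 2) * ℓ) (lo M M') := by
  have h := MM_class hℓ hα hM hM'
  unfold lo
  refine Cr.sub ((((h 0 0 0 0).add (h 0 1 1 0)).add (h 1 0 0 1)).add (h 1 1 1 1)) ?_
  exact (dd_class hℓ hα hM hM').mono le_rfl le_rfl le_rfl (by linarith)

/-- The higher powers of `L`. -/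
theorem pow_class (hℓ : 0 < ℓ) (hα : 2 * ℓ ≤ α) {L : AddMonoidAlgebra B ℝ}
    (hL : Cr F (2 * ℓ) α (b * ℓ) (α + (b - 2) * ℓ) L) (n : ℕ) :
    Cr F (2 * ℓ) α (b * ℓ) (α + (b - 1) * ℓ) (L ^ (n + 2)) := by
  induction n with
  | zero =>
    rw [pow_succ, pow_one]
    refine hL.mul hL ?_ ?_ ?_ ?_ ?_ ?_ ?_ ?_ ?_ <;> nlinarith
  | succ n ih =>
    rw [pow_succ]
    refine ih.mul hL ?_ ?_ ?_ ?_ ?_ ?_ ?_ ?_ ?_ <;> nlinarith

/-- `-log (1 - L) = L + ` (terms which do not matter). -/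
theorem ml_class (hℓ : 0 < ℓ) (hα : 2 * ℓ ≤ α) {L : AddMonoidAlgebra B ℝ}
    (hL : Cr F (2 * ℓ) α (b * ℓ) (α + (b - 2) * ℓ) L) (n : ℕ) :
    Cr F (2 * ℓ) α (b * ℓ) (α + (b - 1) * ℓ) (ml (n + 1) L - L) := by
  have e1 : ml (n + 1) L - L = ∑ i ∈ range n, (((i + 1 : ℕ) : ℝ) + 1)⁻¹ • L ^ (i + 2) := by
    unfold ml
    rw [sum_range_succ']
    simp
  rw [e1]
  exact Cr.sum fun i _ => Cr.smul _ (pow_class hℓ hα hL i)

end Vale.Agent.P207.N3.H254
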