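import Mathlib
import Vale.Agent.P207.N3.H254.Form

/-!
# P207, line N3, package P10: the main formal theorem
-/

open AddMonoidAlgebra Finset

set_option linter.unusedSectionVars false

namespace Vale.Agent.P207.N3.H254

variable {B : Type*} [CommRing B] [Algebra ℝ B] {F : Fil B}

/-- The coefficient of a product at the exponent `w`. -/
theorem coeff_mul_eq (f g : AddMonoidAlgebra B ℝ) (w : ℝ) :
    (f * g).coeff w = ∑ u ∈ f.coeff.support, f.coeff u * g.coeff (w - u) := by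
  classical
  rw [AddMonoidAlgebra.coeff_mul]
  refine Finset.sum_congr rfl fun u _ => ?_
  show (∑ v ∈ g.coeff.support, if u + v = w then f.coeff u * g.coeff v else 0) = _
  by_cases hv : w - u ∈ g.coeff.support
  · rw [Finset.sum_eq_single_of_mem (w - u) hv]
    · rw [if_pos (by ring)]
    · intro v _ hne
      rw [if_neg]
      intro h
      exact hne (by linarith)
  · rw [Finsupp.notMem_support_iff.1 hv, mul_zero]
    refine Finset.sum_eq_zero fun v hv' => ?_
    rw [if_neg]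
    intro h
    have : v = w - u := by linarith
    exact hv (this ▸ hv')

/-- Coefficient of a product: all pairs but `(u₀, w - u₀)` are in `S`. -/
theorem coeff_mul_sub_mem (S : Submodule ℝ B) (f g : AddMonoidAlgebra B ℝ) (w u₀ : ℝ)
    (h : ∀ u, u ≠ u₀ → f.coeff u * g.coeff (w - u) ∈ S) :
    (f * g).coeff w - f.coeff u₀ * g.coeff (w - u₀) ∈ S := by
  classical
  rw [coeff_mul_eq]
  by_cases hu : u₀ ∈ f.coeff.support
  · rw [← Finset.add_sum_erase _ _ hu, add_sub_cancel_left]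
    exact Submodule.sum_mem _ fun u hu' => h u (Finset.ne_of_mem_erase hu')
  · rw [Finsupp.notMem_support_iff.1 hu, zero_mul, sub_zero]
    refine Submodule.sum_mem _ fun u hu' => h u ?_
    rintro rfl
    exact hu hu'

theorem coeff_mul_mem (S : Submodule ℝ B) (f g : AddMonoidAlgebra B ℝ) (w : ℝ)
    (h : ∀ u, f.coeff u * g.coeff (w - u) ∈ S) : (f * g).coeff w ∈ S := by
  rw [coeff_mul_eq]
  exact Submodule.sum_mem _ fun u _ => h u

theorem coeff_sum_smul {ι : Type*} (s : Finset ι) (c : ι → ℝ) (f : ι → AddMonoidAlgebra B ℝ)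
    (w : ℝ) : (∑ i ∈ s, c i • f i).coeff w = ∑ i ∈ s, c i • (f i).coeff w := by
  classical
  induction s using Finset.induction_on with
  | empty => simp
  | insert a s ha ih =>
    rw [Finset.sum_insert ha, Finset.sum_insert ha, AddMonoidAlgebra.coeff_add,
      Finsupp.add_apply, ih, AddMonoidAlgebra.coeff_smul, Finsupp.smul_apply]

/-- **Leading products.** -/
theorem lead_mul {o α β γ o' α' β' γ' w : ℝ} {f g : AddMonoidAlgebra B ℝ}
    (hf : Cr F o α β γ f) (hg : Cr F o' α' β' γ' g) (hw : w = α + β') (h1 : w < β + α')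
    (h2 : w < γ + o') (h3 : w < γ' + o) :
    (f * g).coeff w - f.coeff α * g.coeff β' ∈ F.AP ⊔ F.AQ := by
  have hβ : β' = w - α := by linarith
  rw [hβ]
  refine coeff_mul_sub_mem _ f g w α fun u hu => ?_
  by_cases ho : u < o
  · rw [(hf u).1 ho, zero_mul]; exact zero_mem _
  by_cases ho' : w - u < o'
  · rw [(hg _).1 ho', mul_zero]; exact zero_mem _
  push Not at ho ho'
  have a1 := (hf u).2
  have a2 := (hg (w - u)).2
  have hγ : u < γ := by linarith
  have hγ' : w - u < γ' := by linarith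
  rcases lt_or_gt_of_ne hu with h | h
  · -- `u < α`: no `AQ` part in `f`
    have b1 : f.coeff u ∈ F.AP := F.R_leP h hγ a1
    by_cases hb : u < β
    · have b1' : f.coeff u ∈ F.A0 := F.R_le0 h hb hγ a1
      have b2 := F.R_le hγ' a2
      obtain ⟨s, hs, t, ht, e1⟩ := Submodule.mem_sup.1 b2
      rw [← e1, mul_add]
      exact add_mem (Submodule.mem_sup_left (F.mulP _ (F.leP b1') _ hs))
        (Submodule.mem_sup_right (F.mulQ _ (F.leQ b1') _ ht))
    · have h4 : w - u < α' := by linarith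
      exact Submodule.mem_sup_left (F.mulP _ b1 _ (F.R_leP h4 hγ' a2))
  · have h4 : w - u < β' := by linarith
    have b2 : g.coeff (w - u) ∈ F.AQ := F.R_leQ h4 hγ' a2
    by_cases hb : u < β
    · have b1 : f.coeff u ∈ F.AQ := F.R_leQ hb hγ a1
      exact Submodule.mem_sup_right (F.mulQ _ b1 _ b2)
    · have h5 : w - u < α' := by linarith
      have b2' : g.coeff (w - u) ∈ F.A0 := F.R_le0 h5 h4 hγ' a2
      have b1 := F.R_le hγ a1
      obtain ⟨s, hs, t, ht, e1⟩ := Submodule.mem_sup.1 b1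
      rw [← e1, add_mul]
      exact add_mem (Submodule.mem_sup_left (F.mulP _ hs _ (F.leP b2')))
        (Submodule.mem_sup_right (F.mulQ _ ht _ (F.leQ b2')))

/-! ### Coefficients at the lowest exponent -/

/-- Exponents `≥ o`. -/
def Ge (o : ℝ) (f : AddMonoidAlgebra B ℝ) : Prop := ∀ w < o, f.coeff w = 0

theorem Cr.ge {o α β γ : ℝ} {f : AddMonoidAlgebra B ℝ} (h : Cr F o α β γ f) : Ge o f :=
  fun w hw => (h w).1 hw

theorem Ge.mul_coeff {o o' : ℝ} {f g : AddMonoidAlgebra B ℝ} (hf : Ge o f) (hg : Ge o' g) :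
    (f * g).coeff (o + o') = f.coeff o * g.coeff o' := by
  have h := coeff_mul_sub_mem (⊥ : Submodule ℝ B) f g (o + o') o (by
    intro u hu
    rcases lt_or_gt_of_ne hu with h | h
    · rw [hf u h, zero_mul]; exact zero_mem _
    · rw [hg (o + o' - u) (by linarith), mul_zero]; exact zero_mem _)
  rw [Submodule.mem_bot, add_sub_cancel_left] at h
  exact sub_eq_zero.1 h

theorem Ge.mul {o o' : ℝ} {f g : AddMonoidAlgebra B ℝ} (hf : Ge o f) (hg : Ge o' g) :
    Ge (o + o') (f * g) := by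
  intro w hw
  have h := coeff_mul_mem (⊥ : Submodule ℝ B) f g w (by
    intro u
    by_cases h : u < o
    · rw [hf u h, zero_mul]; exact zero_mem _
    · rw [hg (w - u) (by linarith), mul_zero]; exact zero_mem _)
  exact (Submodule.mem_bot ℝ).1 h

theorem Ge.one : Ge 0 (1 : AddMonoidAlgebra B ℝ) := by
  classical
  intro w hw
  rw [AddMonoidAlgebra.one_def, AddMonoidAlgebra.coeff_single, Finsupp.single_apply,
    if_neg hw.ne']

theorem coeff_one_zero : (1 : AddMonoidAlgebra B ℝ).coeff 0 = 1 := by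
  classical
  rw [AddMonoidAlgebra.one_def, AddMonoidAlgebra.coeff_single, Finsupp.single_apply,
    if_pos rfl]

theorem coeff_one_ne {w : ℝ} (hw : w ≠ 0) : (1 : AddMonoidAlgebra B ℝ).coeff w = 0 := by
  classical
  rw [AddMonoidAlgebra.one_def, AddMonoidAlgebra.coeff_single, Finsupp.single_apply,
    if_neg hw.symm]

theorem Ge.pow {o : ℝ} {f : AddMonoidAlgebra B ℝ} (hf : Ge o f) (n : ℕ) :
    Ge (n * o) (f ^ n) ∧ (f ^ n).coeff (n * o) = f.coeff o ^ n := by
  induction n with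
  | zero =>
    rw [pow_zero, pow_zero, Nat.cast_zero, zero_mul]
    exact ⟨Ge.one, coeff_one_zero⟩
  | succ n ih =>
    have e1 : ((n + 1 : ℕ) : ℝ) * o = n * o + o := by push_cast; ring
    rw [e1, pow_succ, pow_succ]
    exact ⟨ih.1.mul hf, by rw [ih.1.mul_coeff hf, ih.2]⟩

theorem Ge.mon {o : ℝ} {q : Fin 2 → AddMonoidAlgebra B ℝ} (hq : ∀ i, Ge o (q i)) (a : ℕ × ℕ) :
    Ge (len a * o) (mon q a) ∧
      (mon q a).coeff (len a * o) = mon (fun i => (q i).coeff o) a := by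
  have e1 : (len a : ℝ) * o = a.1 * o + a.2 * o := by unfold len; push_cast; ring
  rw [e1]
  have h0 := (hq 0).pow a.1
  have h1 := (hq 1).pow a.2
  refine ⟨h0.1.mul h1.1, ?_⟩
  show (q 0 ^ a.1 * q 1 ^ a.2).coeff _ = _
  rw [h0.1.mul_coeff h1.1, h0.2, h1.2]
  rfl

theorem Ge.mono {o o' : ℝ} {f : AddMonoidAlgebra B ℝ} (h : Ge o f) (ho : o' ≤ o) : Ge o' f :=
  fun w hw => h w (lt_of_lt_of_le hw ho)

/-- Lowest coefficients of `q`. -/
theorem mon_coeff_zero {q : Fin 2 → AddMonoidAlgebra B ℝ} (hq : ∀ i, Ge 0 (q i)) (a : ℕ × ℕ) :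
    (mon q a).coeff 0 = mon (fun i => (q i).coeff 0) a := by
  have h := (Ge.mon hq a).2
  rwa [mul_zero] at h

theorem cs_ge (b : B) : Ge 0 (cs b) := by
  classical
  intro w hw
  unfold cs
  rw [AddMonoidAlgebra.coeff_single, Finsupp.single_apply, if_neg hw.ne']

theorem cs_mul_coeff (b : B) (f : AddMonoidAlgebra B ℝ) (w : ℝ) :
    (cs b * f).coeff w = b * f.coeff w := by
  classical
  have h := coeff_mul_sub_mem (⊥ : Submodule ℝ B) (cs b) f w 0 (by
    intro u hu
    unfold cs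
    rw [AddMonoidAlgebra.coeff_single, Finsupp.single_apply, if_neg (Ne.symm hu), zero_mul]
    exact zero_mem _)
  rw [Submodule.mem_bot] at h
  have h2 := sub_eq_zero.1 h
  rw [h2, sub_zero]
  unfold cs
  rw [AddMonoidAlgebra.coeff_single, Finsupp.single_apply, if_pos rfl]

/-! ### The leading coefficients of the Hessians -/

variable {ℓ α αX : ℝ} {b bX K : ℕ} {T X : ℕ × ℕ → AddMonoidAlgebra B ℝ}
  {T' X' : ℕ × ℕ → B}

/-- `sum_a T(a + c)|_α t^a / a!`. -/
noncomputable def mu (K : ℕ) (α : ℝ) (T : ℕ × ℕ → AddMonoidAlgebra B ℝ) (t : Fin 2 → B)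
    (c : ℕ × ℕ) : B := ∑ a ∈ tri (K - 2), fac a • ((T (a + c)).coeff α * mon t a)

/-- `sum_{|a| = b - 2} T'(a + c) π^a / a!`. -/
noncomputable def mu' (K b : ℕ) (T' : ℕ × ℕ → B) (π : Fin 2 → B) (c : ℕ × ℕ) : B :=
  ∑ a ∈ (tri (K - 2)).filter (fun a => len a + 2 = b), fac a • (T' (a + c) * mon π a)

theorem len_zero_iff (a : ℕ × ℕ) : len a = 0 ↔ a = (0, 0) := by
  unfold len
  constructor
  · intro h; exact Prod.ext (by simp; omega) (by simp; omega)
  · rintro rfl; rfl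

section

variable {q p : Fin 2 → AddMonoidAlgebra B ℝ}

/-- The coefficient at `0` of `q_i`. -/
theorem grT'_coeff_zero (H : Hyp F ℓ α αX b bX T X T' X') (hp : ∀ i, Ge ℓ (p i)) (i : Fin 2) :
    (gr K (fun c => cs (T' c)) p i).coeff 0 = T' (e i) := by
  have h0 := H.hℓ
  unfold gr ev
  rw [coeff_sum_smul]
  rw [Finset.sum_eq_single (0, 0)]
  · rw [mon_zero, mul_one]
    have : sh (fun c => cs (T' c)) (e i) (0, 0) = cs (T' (e i)) := by
      unfold sh; congr 2; exact Prod.ext (by simp) (by simp)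
    rw [this]
    have h1 := cs_mul_coeff (T' (e i)) 1 0
    rw [mul_one, coeff_one_zero, mul_one] at h1
    rw [h1]
    unfold fac; simp
  · intro a _ ha
    have h1 : len a ≠ 0 := fun h => ha ((len_zero_iff a).1 h)
    have h2 : (0 : ℝ) < len a * ℓ := mul_pos (by exact_mod_cast Nat.pos_of_ne_zero h1) h0
    have h3 : (sh (fun c => cs (T' c)) (e i) a * mon p a).coeff 0 = 0 := by
      show (cs (T' (a + e i)) * mon p a).coeff 0 = 0
      rw [cs_mul_coeff, (Ge.mon hp a).1 0 h2, mul_zero]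
    rw [h3, smul_zero]
  · intro h
    exact absurd (mem_tri.2 (by simp)) h

/-- The coefficient at `ℓ` of `p_i`. -/
theorem grT_coeff (H : Hyp F ℓ α αX b bX T X T' X') (hq : ∀ i, Ge 0 (q i)) (i : Fin 2) :
    (gr K T q i).coeff ℓ = (T (e i)).coeff ℓ := by
  have h0 := H.hℓ
  unfold gr ev
  rw [coeff_sum_smul]
  rw [Finset.sum_eq_single (0, 0)]
  · rw [mon_zero, mul_one]
    have : sh T (e i) (0, 0) = T (e i) := by
      unfold sh; congr 1; exact Prod.ext (by simp) (by simp)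
    rw [this]
    unfold fac; simp
  · intro a _ ha
    have h1 : len a ≠ 0 := fun h => ha ((len_zero_iff a).1 h)
    have h2 : 2 ≤ len (a + e i) := by rw [len_add, len_e]; omega
    have h3 : Ge (2 * ℓ) (T (a + e i)) := fun w hw => (H.T2 _ h2 w).1 hw
    have h4 : Ge (len a * 0) (mon q a) := (Ge.mon hq a).1
    have h5 : (T (a + e i) * mon q a).coeff ℓ = 0 :=
      (h3.mul h4) ℓ (by rw [mul_zero, add_zero]; linarith)
    show fac a • (T (a + e i) * mon q a).coeff ℓ = 0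
    rw [h5, smul_zero]
  · intro h
    exact absurd (mem_tri.2 (by simp)) h

end

/-- The coefficient at `0` of the iterate `q`, for `n ≥ 1`. -/
theorem it_q_zero (H : Hyp F ℓ α αX b bX T X T' X') (n : ℕ) (i : Fin 2) :
    ((it K T (fun c => cs (T' c)) (n + 1)).2 i).coeff 0 = T' (e i) := by
  rw [it_succ_snd]
  exact grT'_coeff_zero H (fun i => ((it_class H (n + 1)).1 i).ge) i

/-- The coefficient at `ℓ` of the iterate `p`, for `n ≥ 1`. -/
theorem it_p_ell (H : Hyp F ℓ α αX b bX T X T' X') (n : ℕ) (i : Fin 2) :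
    ((it K T (fun c => cs (T' c)) (n + 1)).1 i).coeff ℓ = (T (e i)).coeff ℓ := by
  rw [it_succ_fst]
  exact grT_coeff H (fun i => ((it_class H n).2 i).ge) i

/-- The coefficient of the Hessian `M` at `α`. -/
theorem heT_coeff (H : Hyp F ℓ α αX b bX T X T' X') {q : Fin 2 → AddMonoidAlgebra B ℝ}
    (hq : ∀ i, Cq F ℓ α b (q i)) (i j : Fin 2) :
    (he K T q i j).coeff α - mu K α T (fun i => (q i).coeff 0) (e i + e j) ∈
      F.A0 ⊔ cnd ((b + 1) * ℓ ≤ α) F.AP := by
  have h0 := H.hℓ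
  unfold he ev mu
  rw [coeff_sum_smul, ← Finset.sum_sub_distrib]
  refine Submodule.sum_mem _ fun a _ => ?_
  rw [← smul_sub]
  refine Submodule.smul_mem _ _ ?_
  show (T (a + (e i + e j)) * mon q a).coeff α - _ ∈ _
  have hT := H.T2 (a + (e i + e j)) (by rw [len_add, len_add, len_e, len_e]; omega)
  have hm : Cr F 0 α ((b - 1) * ℓ) (α + (b - 2) * ℓ) (mon q a) := Cq.mon H hq a
  rw [← mon_coeff_zero (fun i => (hq i).ge)]
  have := coeff_mul_sub_mem (F.A0 ⊔ cnd ((b + 1) * ℓ ≤ α) F.AP) (T (a + (e i + e j)))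
    (mon q a) α α (by
      intro u hu
      by_cases h1 : u < 2 * ℓ
      · rw [(hT u).1 h1, zero_mul]; exact zero_mem _
      rcases lt_or_gt_of_ne hu with h | h
      · have b1 := (hT u).2.1 h
        push Not at h1
        have hb : (2 : ℝ) ≤ b := by exact_mod_cast H.hb
        have b2 : (mon q a).coeff (α - u) ∈ F.AP :=
          F.R_leP (by linarith) (by nlinarith) (hm (α - u)).2
        by_cases h2 : (b + 1) * ℓ ≤ α
        · rw [cnd_pos h2]
          exact Submodule.mem_sup_right (F.mulP _ (F.leP b1) _ b2)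
        · have b3 : (mon q a).coeff (α - u) ∈ F.A0 :=
            F.R_le0 (by linarith) (by nlinarith) (by nlinarith) (hm (α - u)).2
          exact Submodule.mem_sup_left (F.mul0 _ b1 _ b3)
      · rw [(hm (α - u)).1 (by linarith), mul_zero]; exact zero_mem _)
  rwa [sub_self] at this

/-- The coefficient of the Hessian `M'` at `(b - 2) ℓ`. -/
theorem heT'_coeff (H : Hyp F ℓ α αX b bX T X T' X') {p : Fin 2 → AddMonoidAlgebra B ℝ}
    (hp : ∀ i, Cpp F ℓ α b (p i)) (i j : Fin 2) :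
    (he K (fun c => cs (T' c)) p i j).coeff ((b - 2) * ℓ)
      - mu' K b T' (fun i => (p i).coeff ℓ) (e i + e j) ∈
      F.A0 ⊔ cnd (α ≤ (b - 2) * ℓ) F.AQ := by
  classical
  have h0 := H.hℓ
  have hbR : (2 : ℝ) ≤ b := by exact_mod_cast H.hb
  unfold he ev mu'
  rw [coeff_sum_smul, Finset.sum_filter, ← Finset.sum_sub_distrib]
  refine Submodule.sum_mem _ fun a _ => ?_
  have hm := Cpp.mon H hp a
  have hlen : len (a + (e i + e j)) = len a + 2 := by rw [len_add, len_add, len_e, len_e]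
  have e0 : (sh (fun c => cs (T' c)) (e i + e j) a * mon p a).coeff ((b - 2) * ℓ)
      = T' (a + (e i + e j)) * (mon p a).coeff ((b - 2) * ℓ) := cs_mul_coeff _ _ _
  rw [e0]
  rcases lt_trichotomy (len a + 2) b with h | h | h
  · rw [if_neg (by omega), sub_zero]
    refine Submodule.smul_mem _ _ ?_
    have hT : T' (a + (e i + e j)) ∈ F.A0 := H.T0' _ (by omega)
    have hR : (len a : ℝ) + 2 + 1 ≤ b := by exact_mod_cast h
    by_cases ha : len a = 0
    · rw [(len_zero_iff a).1 ha, mon_zero, coeff_one_ne (by nlinarith), mul_zero]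
      exact zero_mem _
    · have h1 : (1 : ℝ) ≤ len a := by exact_mod_cast Nat.one_le_iff_ne_zero.2 ha
      have b1 := (hm ((b - 2) * ℓ)).2
      by_cases h2 : α ≤ (b - 2) * ℓ
      · rw [cnd_pos h2]
        exact Submodule.mem_sup_right (F.mulQ _ (F.leQ hT) _
          (F.R_leQ (by nlinarith) (by have := H.hα; nlinarith) b1))
      · exact Submodule.mem_sup_left (F.mul0 _ hT _
          (F.R_le0 (by nlinarith) (by nlinarith) (by have := H.hα; nlinarith) b1))
  · rw [if_pos h]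
    have hR : (len a : ℝ) = b - 2 := by
      have : (len a : ℝ) + 2 = b := by exact_mod_cast h
      linarith
    have h3 : (mon p a).coeff ((b - 2) * ℓ) = mon (fun i => (p i).coeff ℓ) a := by
      rw [← hR]
      exact (Ge.mon (fun i => (hp i).ge) a).2
    rw [h3, sub_self]
    exact zero_mem _
  · rw [if_neg (by omega), sub_zero]
    have hR : (b : ℝ) < len a + 2 := by exact_mod_cast h
    rw [(hm ((b - 2) * ℓ)).1 (by nlinarith), mul_zero, smul_zero]
    exact zero_mem _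

/-! ### The main theorem -/

theorem A0_mon (t : Fin 2 → B) (ht : ∀ i, t i ∈ F.A0) (a : ℕ × ℕ) : mon t a ∈ F.A0 := by
  have hp : ∀ (x : B), x ∈ F.A0 → ∀ n : ℕ, x ^ n ∈ F.A0 := by
    intro x hx n
    induction n with
    | zero => rw [pow_zero]; exact F.one
    | succ n ih => rw [pow_succ]; exact F.mul0 _ ih _ hx
  exact F.mul0 _ (hp _ (ht 0) _) _ (hp _ (ht 1) _)

theorem mu_mem (H : Hyp F ℓ α αX b bX T X T' X') (c : ℕ × ℕ) :
    mu K α T (fun i => T' (e i)) c ∈ F.AQ := by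
  unfold mu
  refine Submodule.sum_mem _ fun a _ => Submodule.smul_mem _ _ ?_
  refine F.mulQ _ (H.T1 _ α).2.2 _ (F.leQ (A0_mon _ (fun i => H.T0' _ ?_) a))
  rw [len_e]; exact H.hb

theorem mu'_mem (H : Hyp F ℓ α αX b bX T X T' X') (c : ℕ × ℕ) :
    mu' K b T' (fun i => (T (e i)).coeff ℓ) c ∈ F.AP := by
  have h0 := H.hℓ
  have h1 := H.hα
  unfold mu'
  refine Submodule.sum_mem _ fun a _ => Submodule.smul_mem _ _ ?_
  exact F.mulP _ (H.TP' _) _ (F.leP (A0_mon _ (fun i => (H.T1 _ ℓ).2.1 (by linarith)) a))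

/-- The product of the two leading coefficients. -/
theorem lead_prod (H : Hyp F ℓ α αX b bX T X T' X') {m μ n ν : B}
    (h1 : m - μ ∈ F.A0 ⊔ cnd ((b + 1) * ℓ ≤ α) F.AP) (hμ : μ ∈ F.AQ)
    (h2 : n - ν ∈ F.A0 ⊔ cnd (α ≤ (b - 2) * ℓ) F.AQ) (hν : ν ∈ F.AP) :
    m * n - μ * ν ∈ F.AP ⊔ F.AQ := by
  have h0 := H.hℓ
  have e1 : m * n - μ * ν = μ * (n - ν) + (m - μ) * ν + (m - μ) * (n - ν) := by ring
  have k1 : m - μ ∈ F.AP := by
    refine (sup_le F.leP ?_) h1
    by_cases h : (b + 1) * ℓ ≤ α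
    · rw [cnd_pos h]
    · rw [cnd_neg h]; exact bot_le
  have k2 : n - ν ∈ F.AQ := by
    refine (sup_le F.leQ ?_) h2
    by_cases h : α ≤ (b - 2) * ℓ
    · rw [cnd_pos h]
    · rw [cnd_neg h]; exact bot_le
  have k3 : (m - μ) * (n - ν) ∈ F.AP ⊔ F.AQ := by
    by_cases h : (b + 1) * ℓ ≤ α
    · have h' : ¬ α ≤ (b - 2) * ℓ := by nlinarith
      rw [cnd_neg h', sup_bot_eq] at h2
      exact Submodule.mem_sup_left (F.mulP _ k1 _ (F.leP h2))
    · rw [cnd_neg h, sup_bot_eq] at h1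
      exact Submodule.mem_sup_right (F.mulQ _ (F.leQ h1) _ k2)
  rw [e1]
  exact add_mem (add_mem (Submodule.mem_sup_right (F.mulQ _ hμ _ k2))
    (Submodule.mem_sup_left (F.mulP _ k1 _ hν))) k3

/-- The main product of the Hessians in the product formula. -/
noncomputable def tot (K b : ℕ) (ℓ α : ℝ) (T : ℕ × ℕ → AddMonoidAlgebra B ℝ) (T' : ℕ × ℕ → B) :
    B :=
  (mu K α T (fun i => T' (e i)) (e 0 + e 0) *
      mu' K b T' (fun i => (T (e i)).coeff ℓ) (e 0 + e 0)
    + mu K α T (fun i => T' (e i)) (e 0 + e 1) *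
      mu' K b T' (fun i => (T (e i)).coeff ℓ) (e 1 + e 0)
    + mu K α T (fun i => T' (e i)) (e 1 + e 0) *
      mu' K b T' (fun i => (T (e i)).coeff ℓ) (e 0 + e 1)
    + mu K α T (fun i => T' (e i)) (e 1 + e 1) *
      mu' K b T' (fun i => (T (e i)).coeff ℓ) (e 1 + e 1))

theorem coeff_sub' (f g : AddMonoidAlgebra B ℝ) (w : ℝ) :
    (f - g).coeff w = f.coeff w - g.coeff w := by
  rw [AddMonoidAlgebra.coeff_sub, Finsupp.sub_apply]

theorem coeff_add' (f g : AddMonoidAlgebra B ℝ) (w : ℝ) :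
    (f + g).coeff w = f.coeff w + g.coeff w := by
  rw [AddMonoidAlgebra.coeff_add, Finsupp.add_apply]

theorem coeff_smul' (c : ℝ) (f : AddMonoidAlgebra B ℝ) (w : ℝ) :
    (c • f).coeff w = c • f.coeff w := by
  rw [AddMonoidAlgebra.coeff_smul, Finsupp.smul_apply]

/-- All the terms except the products of the Hessian entries. -/
theorem rest_mem (H : Hyp F ℓ α αX b bX T X T' X') (hX : α - ℓ < αX) (hbX : b ≤ bX)
    (h : ℝ) (n : ℕ) {w : ℝ} (hw : w ≤ α + (b - 2) * ℓ)
    {p q : Fin 2 → AddMonoidAlgebra B ℝ} (hp : ∀ i, Cpp F ℓ α b (p i))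
    (hq : ∀ i, Cq F ℓ α b (q i)) :
    (FK (n + 1) h T X (fun c => cs (T' c)) (fun c => cs (X' c)) p q).coeff w
      - ((he (n + 1) T q 0 0 * he (n + 1) (fun c => cs (T' c)) p 0 0
        + he (n + 1) T q 0 1 * he (n + 1) (fun c => cs (T' c)) p 1 0
        + he (n + 1) T q 1 0 * he (n + 1) (fun c => cs (T' c)) p 0 1
        + he (n + 1) T q 1 1 * he (n + 1) (fun c => cs (T' c)) p 1 1 :
          AddMonoidAlgebra B ℝ).coeff w) ∈ F.AP ⊔ F.AQ := by
  have h0 := H.hℓ
  have h1 := H.hα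
  have hb := H.hb
  have hbR : (2 : ℝ) ≤ b := by exact_mod_cast hb
  have hbX' : (b : ℝ) ≤ bX := by exact_mod_cast hbX
  set M := he (n + 1) T q with hMdef
  set M' := he (n + 1) (fun c => cs (T' c)) p with hM'def
  have hM : ∀ i j, Cr F (2 * ℓ) α ((b + 1) * ℓ) (α + (b - 1) * ℓ) (M i j) :=
    fun i j => he_T H hq i j
  have hM' : ∀ i j, Cr F 0 α ((b - 2) * ℓ) (α + (b - 3) * ℓ) (M' i j) :=
    fun i j => he_T' H hp i j
  have t1 : (ev (n + 1) X q).coeff w ∈ F.AP ⊔ F.AQ := by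
    have c1 := ev_X (K := n + 1) H hq (α'' := min αX α) (γ'' := min (α + (b - 1) * ℓ)
      (αX + (b - 1) * ℓ)) (min_le_left _ _) ((min_le_right _ _).trans (by linarith))
      (min_le_left _ _) (min_le_right _ _)
    refine F.R_le ?_ (c1 w).2
    rw [lt_min_iff]
    constructor <;> nlinarith
  have t2 : (ev (n + 1) (fun c => cs (X' c)) p).coeff w ∈ F.AP ⊔ F.AQ := by
    have c1 := ev_x (K := n + 1) H hp (Z := X') (b' := bX) (by omega) H.X0' H.XP'
      (β'' := b * ℓ) (γ'' := α + (b - 1) * ℓ) (by nlinarith) (by nlinarith) le_rfl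
      (by nlinarith)
    exact F.R_le (by nlinarith) (c1 w).2
  have t3 : (ev (n + 1) T q).coeff w ∈ F.AP ⊔ F.AQ :=
    F.R_le (by nlinarith) (ev_T (K := n + 1) H hq w).2
  have t4 : (ev (n + 1) (fun c => cs (T' c)) p).coeff w ∈ F.AP ⊔ F.AQ := by
    have c1 := ev_x (K := n + 1) H hp (Z := T') (b' := b) (by omega) H.T0' H.TP'
      (β'' := b * ℓ) (γ'' := α + (b - 1) * ℓ) (by nlinarith) (by nlinarith) le_rfl
      (by nlinarith)
    exact F.R_le (by nlinarith) (c1 w).2
  have t5 : ∀ i, (p i * q i).coeff w ∈ F.AP ⊔ F.AQ := fun i =>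
    F.R_le (by nlinarith) (pq_mul H hp hq i w).2
  have t6 : (ml (n + 1) (lo M M') - lo M M').coeff w ∈ F.AP ⊔ F.AQ :=
    F.R_le (by nlinarith) (ml_class h0 h1 (lo_class h0 h1 hM hM') n w).2
  have t7 : ((M 0 0 * M 1 1 - M 0 1 * M 1 0) * (M' 0 0 * M' 1 1 - M' 0 1 * M' 1 0)).coeff w
      ∈ F.AP ⊔ F.AQ := F.R_le (by nlinarith) (dd_class h0 h1 hM hM' w).2
  have e2 : FK (n + 1) h T X (fun c => cs (T' c)) (fun c => cs (X' c)) p q
      - (M 0 0 * M' 0 0 + M 0 1 * M' 1 0 + M 1 0 * M' 0 1 + M 1 1 * M' 1 1)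
      = ev (n + 1) X q + ev (n + 1) (fun c => cs (X' c)) p
        - h • (ev (n + 1) T q + ev (n + 1) (fun c => cs (T' c)) p - (p 0 * q 0 + p 1 * q 1))
        + (ml (n + 1) (lo M M') - lo M M')
        - (M 0 0 * M 1 1 - M 0 1 * M 1 0) * (M' 0 0 * M' 1 1 - M' 0 1 * M' 1 0) := by
    unfold FK
    rw [← hMdef, ← hM'def]
    unfold lo
    ring
  rw [← coeff_sub', e2, coeff_sub', coeff_add', coeff_sub', coeff_add', coeff_smul',
    coeff_sub', coeff_add', coeff_add']
  exact sub_mem (add_mem (sub_mem (add_mem t1 t2) (Submodule.smul_mem _ _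
    (sub_mem (add_mem t3 t4) (add_mem (t5 0) (t5 1))))) t6) t7

/-- **Main theorem, below the critical exponent.** -/
theorem form_lt (H : Hyp F ℓ α αX b bX T X T' X') (hX : α - ℓ < αX) (hbX : b ≤ bX)
    (h : ℝ) (n : ℕ) {w : ℝ} (hw : w < α + (b - 2) * ℓ) :
    (EK (n + 1) h T X (fun c => cs (T' c)) (fun c => cs (X' c))).coeff w ∈ F.AP ⊔ F.AQ := by
  have h0 := H.hℓ
  have h1 := H.hα
  obtain ⟨hp, hq⟩ := it_class (K := n + 1) H (n + 1)
  have hR := rest_mem H hX hbX h n hw.le hp hq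
  have hM : ∀ i j, Cr F (2 * ℓ) α ((b + 1) * ℓ) (α + (b - 1) * ℓ) _ :=
    fun i j => he_T (K := n + 1) H hq i j
  have hM' : ∀ i j, Cr F 0 α ((b - 2) * ℓ) (α + (b - 3) * ℓ) _ :=
    fun i j => he_T' (K := n + 1) H hp i j
  have hMM := fun i j k l => F.R_le hw (MM_class h0 h1 hM hM' i j k l w).2
  unfold EK
  have := add_mem hR (add_mem (add_mem (add_mem (hMM 0 0 0 0) (hMM 0 1 1 0)) (hMM 1 0 0 1))
    (hMM 1 1 1 1))
  rw [← coeff_add', ← coeff_add', ← coeff_add', sub_add_cancel] at this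
  exact this

/-- **Main theorem, at the critical exponent.** -/
theorem form_eq (H : Hyp F ℓ α αX b bX T X T' X') (hX : α - ℓ < αX) (hbX : b ≤ bX)
    (h : ℝ) (n : ℕ) :
    (EK (n + 1) h T X (fun c => cs (T' c)) (fun c => cs (X' c))).coeff (α + (b - 2) * ℓ)
      - tot (n + 1) b ℓ α T T' ∈ F.AP ⊔ F.AQ := by
  have h0 := H.hℓ
  have h1 := H.hα
  obtain ⟨hp, hq⟩ := it_class (K := n + 1) H (n + 1)
  have hR := rest_mem H hX hbX h n le_rfl hp hq
  have hM : ∀ i j, Cr F (2 * ℓ) α ((b + 1) * ℓ) (α + (b - 1) * ℓ) _ :=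
    fun i j => he_T (K := n + 1) H hq i j
  have hM' : ∀ i j, Cr F 0 α ((b - 2) * ℓ) (α + (b - 3) * ℓ) _ :=
    fun i j => he_T' (K := n + 1) H hp i j
  have hMM : ∀ i j k l, (he (n + 1) T (it (n + 1) T (fun c => cs (T' c)) (n + 1)).2 i j *
      he (n + 1) (fun c => cs (T' c)) (it (n + 1) T (fun c => cs (T' c)) (n + 1)).1 k l).coeff
        (α + (b - 2) * ℓ)
      - mu (n + 1) α T (fun i => T' (e i)) (e i + e j) *
        mu' (n + 1) b T' (fun i => (T (e i)).coeff ℓ) (e k + e l) ∈ F.AP ⊔ F.AQ := by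
    intro i j k l
    have k1 := lead_mul (hM i j) (hM' k l) rfl (by nlinarith) (by nlinarith) (by nlinarith)
    have k2 := heT_coeff (K := n + 1) H hq i j
    have k3 := heT'_coeff (K := n + 1) H hp k l
    have e1 : (fun i => ((it (n + 1) T (fun c => cs (T' c)) (n + 1)).2 i).coeff 0)
        = fun i => T' (e i) := funext fun i => it_q_zero H n i
    have e2 : (fun i => ((it (n + 1) T (fun c => cs (T' c)) (n + 1)).1 i).coeff ℓ)
        = fun i => (T (e i)).coeff ℓ := funext fun i => it_p_ell H n i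
    rw [e1] at k2
    rw [e2] at k3
    have k4 := lead_prod H k2 (mu_mem H _) k3 (mu'_mem H _)
    have k5 := add_mem k1 k4
    rwa [sub_add_sub_cancel] at k5
  have hs := add_mem hR (add_mem (add_mem (add_mem (hMM 0 0 0 0) (hMM 0 1 1 0)) (hMM 1 0 0 1))
    (hMM 1 1 1 1))
  unfold EK tot
  rw [coeff_add', coeff_add', coeff_add'] at hs
  refine (congrArg (· ∈ F.AP ⊔ F.AQ) ?_).mp hs
  ring

end Vale.Agent.P207.N3.H254
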