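import Mathlib
import Vale.Agent.P207.N3.H254.Form2

/-!
# P207, line N3, package P10: weighted series of a polynomial

For weights `wt : J → ℝ` and elements `v : J → R` of a commutative algebra, `sr wt v p` is the
polynomial `p` at the arguments `v_j ε^{wt j}`; its coefficient at `ε^w` is the part `cf wt v p w`
of weight `w` of `p`, evaluated at `v`.
-/

open AddMonoidAlgebra Finset

set_option linter.unusedSectionVars false

namespace Vale.Agent.P207.N3.H254

variable {J : Type*} {R : Type*} [CommRing R] [Algebra ℝ R]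

/-- The weight of a monomial. -/
noncomputable def wm (wt : J → ℝ) (α : J →₀ ℕ) : ℝ := ∑ j ∈ α.support, (α j : ℝ) * wt j

/-- The value of a monomial. -/
noncomputable def vm (v : J → R) (α : J →₀ ℕ) : R := ∏ j ∈ α.support, v j ^ α j

/-- The part of weight `w`. -/
noncomputable def cf (wt : J → ℝ) (v : J → R) (p : MvPolynomial J ℝ) (w : ℝ) : R :=
  ∑ α ∈ p.support.filter (fun α => wm wt α = w), p.coeff α • vm v α

/-- The series. -/
noncomputable def sr (wt : J → ℝ) (v : J → R) : MvPolynomial J ℝ →ₐ[ℝ] AddMonoidAlgebra R ℝ :=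
  MvPolynomial.aeval fun j => single (wt j) (v j)

theorem prod_single (wt : J → ℝ) (v : J → R) (n : J → ℕ) (s : Finset J) :
    ∏ j ∈ s, (single (wt j) (v j) : AddMonoidAlgebra R ℝ) ^ n j
      = single (∑ j ∈ s, (n j : ℝ) * wt j) (∏ j ∈ s, v j ^ n j) := by
  classical
  induction s using Finset.induction_on with
  | empty => rw [Finset.prod_empty, Finset.sum_empty, Finset.prod_empty]; rfl
  | insert a s ha ih =>
    rw [Finset.prod_insert ha, Finset.sum_insert ha, Finset.prod_insert ha, ih,
      AddMonoidAlgebra.single_pow, AddMonoidAlgebra.single_mul_single, nsmul_eq_mul]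

theorem sr_eq (wt : J → ℝ) (v : J → R) (p : MvPolynomial J ℝ) :
    sr wt v p = ∑ α ∈ p.support, p.coeff α • single (wm wt α) (vm v α) := by
  unfold sr
  rw [MvPolynomial.aeval_def, MvPolynomial.eval₂_eq]
  refine Finset.sum_congr rfl fun α _ => ?_
  rw [prod_single, ← Algebra.smul_def]
  rfl

theorem sr_coeff (wt : J → ℝ) (v : J → R) (p : MvPolynomial J ℝ) (w : ℝ) :
    (sr wt v p).coeff w = cf wt v p w := by
  classical
  rw [sr_eq, coeff_sum_smul]
  unfold cf
  rw [Finset.sum_filter]
  refine Finset.sum_congr rfl fun α _ => ?_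
  rw [AddMonoidAlgebra.coeff_single, Finsupp.single_apply]
  split_ifs
  · rfl
  · rw [smul_zero]

/-- Membership of the part of weight `w`. -/
theorem cf_mem (S : Submodule ℝ R) (wt : J → ℝ) (v : J → R) (p : MvPolynomial J ℝ) (w : ℝ)
    (h : ∀ α ∈ p.support, wm wt α = w → vm v α ∈ S) : cf wt v p w ∈ S := by
  unfold cf
  refine Submodule.sum_mem _ fun α hα => Submodule.smul_mem _ _ ?_
  rw [Finset.mem_filter] at hα
  exact h α hα.1 hα.2

theorem cf_eq_zero (wt : J → ℝ) (v : J → R) (p : MvPolynomial J ℝ) (w : ℝ)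
    (h : ∀ α ∈ p.support, wm wt α ≠ w) : cf wt v p w = 0 := by
  unfold cf
  rw [Finset.filter_false_of_mem h, Finset.sum_empty]

/-- Monomials in a submodule closed under products. -/
theorem vm_mem (S : Submodule ℝ R) (h1 : (1 : R) ∈ S) (hmul : ∀ a ∈ S, ∀ b ∈ S, a * b ∈ S)
    (v : J → R) (α : J →₀ ℕ) (h : ∀ j ∈ α.support, v j ∈ S) : vm v α ∈ S := by
  classical
  have hp : ∀ (x : R), x ∈ S → ∀ n : ℕ, x ^ n ∈ S := by
    intro x hx n
    induction n with
    | zero => rw [pow_zero]; exact h1
    | succ n ih => rw [pow_succ]; exact hmul _ ih _ hx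
  unfold vm
  have key : ∀ s : Finset J, (∀ j ∈ s, v j ∈ S) → ∏ j ∈ s, v j ^ α j ∈ S := by
    intro s
    induction s using Finset.induction_on with
    | empty => intro _; rw [Finset.prod_empty]; exact h1
    | insert a s ha ih =>
      intro hs
      rw [Finset.prod_insert ha]
      exact hmul _ (hp _ (hs a (Finset.mem_insert_self _ _)) _) _
        (ih fun j hj => hs j (Finset.mem_insert_of_mem hj))
  exact key _ h

/-- Functoriality. -/
theorem vm_map {R' : Type*} [CommRing R'] [Algebra ℝ R'] (φ : R →ₐ[ℝ] R') (v : J → R)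
    (α : J →₀ ℕ) : φ (vm v α) = vm (fun j => φ (v j)) α := by
  unfold vm
  rw [map_prod]
  exact Finset.prod_congr rfl fun j _ => map_pow φ _ _

theorem cf_map {R' : Type*} [CommRing R'] [Algebra ℝ R'] (φ : R →ₐ[ℝ] R') (wt : J → ℝ)
    (v : J → R) (p : MvPolynomial J ℝ) (w : ℝ) :
    φ (cf wt v p w) = cf wt (fun j => φ (v j)) p w := by
  unfold cf
  rw [map_sum]
  refine Finset.sum_congr rfl fun α _ => ?_
  rw [map_smul, vm_map]

/-! ### Weights of monomials -/

section weights

variable {wt : J → ℝ} {α : J →₀ ℕ} {ℓ : ℝ}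

theorem wm_single (wt : J → ℝ) (j : J) : wm wt (Finsupp.single j 1) = wt j := by
  classical
  unfold wm
  rw [Finsupp.support_single_ne_zero _ one_ne_zero, Finset.sum_singleton, Finsupp.single_eq_same,
    Nat.cast_one, one_mul]

theorem vm_single (v : J → R) (j : J) : vm v (Finsupp.single j 1) = v j := by
  classical
  unfold vm
  rw [Finsupp.support_single_ne_zero _ one_ne_zero, Finset.prod_singleton,
    Finsupp.single_eq_same, pow_one]

/-- The degree times the least weight. -/
theorem deg_le_wm (h : ∀ j ∈ α.support, ℓ ≤ wt j) : (α.degree : ℝ) * ℓ ≤ wm wt α := by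
  unfold wm
  rw [Finsupp.degree_apply, Nat.cast_sum, Finset.sum_mul]
  exact Finset.sum_le_sum fun j hj => mul_le_mul_of_nonneg_left (h j hj) (Nat.cast_nonneg _)

/-- The weight of a factor is at most the weight of the monomial minus the weight of the rest. -/
theorem factor_le (hℓ : 0 < ℓ) (h : ∀ j ∈ α.support, ℓ ≤ wt j) {j : J} (hj : j ∈ α.support) :
    wt j + ((α.degree : ℝ) - 1) * ℓ ≤ wm wt α := by
  classical
  have h1 : (1 : ℝ) ≤ α j := by
    exact_mod_cast Nat.one_le_iff_ne_zero.2 (Finsupp.mem_support_iff.1 hj)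
  unfold wm
  rw [Finsupp.degree_apply, ← Finset.add_sum_erase _ _ hj, ← Finset.add_sum_erase _ _ hj]
  push_cast
  have h2 : (∑ x ∈ α.support.erase j, (α x : ℝ)) * ℓ
      ≤ ∑ x ∈ α.support.erase j, (α x : ℝ) * wt x := by
    rw [Finset.sum_mul]
    exact Finset.sum_le_sum fun i hi => mul_le_mul_of_nonneg_left
      (h i (Finset.mem_of_mem_erase hi)) (Nat.cast_nonneg _)
  have h3 := h j hj
  nlinarith

theorem factor_le' (hℓ : 0 < ℓ) (h : ∀ j ∈ α.support, ℓ ≤ wt j) {j : J} (hj : j ∈ α.support) :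
    wt j ≤ wm wt α := by
  classical
  have h0 : 1 ≤ α.degree := by
    rw [Nat.one_le_iff_ne_zero, Ne, Finsupp.degree_eq_zero_iff]
    rintro rfl
    simp at hj
  have h1 : (1 : ℝ) ≤ α.degree := by exact_mod_cast h0
  have := factor_le hℓ h hj
  nlinarith

end weights

end Vale.Agent.P207.N3.H254
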