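import Mathlib
import Vale.Agent.P207.N3.H254.Ser

/-!
# P207, line N3, package P10: the interface (OUT2), (OUT3)

`Side K Y`: one side of the closed orbit at the level of jets. `v (inl a) y = T^_a(y)`,
`v (inr a) y = X^_a(y)` are the corrected jets, the polynomials `P a`, `Q a` express (the Taylor
polynomials of) the raw jets `T_a`, `X_a` by the corrected ones.

`TwoId`: the bi-weight identities of the product formula at the two moving points.
-/

open Finset Sum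

namespace Vale.Agent.P207.N3.H254

/-- Labels of the jets: `inl a` for `T_a`, `inr a` for `X_a`. -/
abbrev Lb := (ℕ × ℕ) ⊕ (ℕ × ℕ)

/-- Weights: `κ = λ₁ ≥ ℓ = λ₂`. -/
noncomputable def wtl (κ ℓ : ℝ) : Lb → ℝ :=
  Sum.elim (fun a => κ * a.1 + ℓ * a.2) fun a => κ * a.1 + ℓ * a.2

/-- One side. -/
structure Side (K : ℕ) (Y : Type*) where
  v : Lb → Y → ℝ
  P : ℕ × ℕ → MvPolynomial Lb ℝ
  Q : ℕ × ℕ → MvPolynomial Lb ℝ
  P_zero : P (0, 0) = 0
  Q_zero : Q (0, 0) = 0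
  /-- `T_a = T^_a + ` products of at least two jets `T^_b`, `1 ≤ |b| < |a|` -/
  P_supp : ∀ a, ∀ α ∈ (P a).support, α = Finsupp.single (inl a) 1 ∨
    (2 ≤ α.degree ∧ ∀ j ∈ α.support, ∃ b, j = inl b ∧ 1 ≤ len b ∧ len b < len a)
  P_one : ∀ a, 1 ≤ len a → len a ≤ K → (P a).coeff (Finsupp.single (inl a) 1) = 1
  /-- `X_a = X^_a + ` non-constant monomials in `T^_b`, `1 ≤ |b| ≤ |a|`, `X^_b`, `1 ≤ |b| < |a|` -/
  Q_supp : ∀ a, ∀ α ∈ (Q a).support, α = Finsupp.single (inr a) 1 ∨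
    (α ≠ 0 ∧ ∀ j ∈ α.support, (∃ b, j = inl b ∧ 1 ≤ len b ∧ len b ≤ len a) ∨
      ∃ b, j = inr b ∧ 1 ≤ len b ∧ len b < len a)
  Q_one : ∀ a, 1 ≤ len a → len a ≤ K → (Q a).coeff (Finsupp.single (inr a) 1) = 1

/-- The product formula as a polynomial in the corrected jets of the two sides. -/
noncomputable def pK {K : ℕ} {Y X : Type*} (h : ℝ) (S : Side K Y) (S' : Side K X) :
    MvPolynomial (Lb ⊕ Lb) ℝ :=
  EK K h (fun a => MvPolynomial.rename inl (S.P a)) (fun a => MvPolynomial.rename inl (S.Q a))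
    (fun a => MvPolynomial.rename inr (S'.P a)) fun a => MvPolynomial.rename inr (S'.Q a)

/-- **The bi-weight identities.** -/
def TwoId {K : ℕ} {Y X : Type*} (κ ℓ h W : ℝ) (S : Side K Y) (S' : Side K X) : Prop :=
  ∀ w w' : ℝ, w + w' < W → ∀ (y : Y) (x : X),
    ∑ α ∈ (pK h S S').support.filter (fun α => wm (Sum.elim (wtl κ ℓ) 0) α = w ∧
        wm (Sum.elim 0 (wtl κ ℓ)) α = w'),
      (pK h S S').coeff α * vm (Sum.elim (fun j => S.v j y) fun j => S'.v j x) α = 0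

end Vale.Agent.P207.N3.H254
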