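import Mathlib

/-!
# P207, line N3, package P10: the tensor rule

`sp U V` is the space of finite sums `sum u_i(y) v_i(x)` with `u_i` in `U`, `v_i` in `V`.
If `u(y) v(x)` lies in `sp U ⊤ ⊔ sp ⊤ V` then `u ∈ U` or `v ∈ V`.
-/

open Submodule

namespace Vale.Agent.P207.N3.H254

variable {Y X : Type*}

/-- The function `u(y) v(x)`. -/
def tn (u : Y → ℝ) (v : X → ℝ) : Y × X → ℝ := fun z => u z.1 * v z.2

/-- Finite sums of `u(y) v(x)`, `u ∈ U`, `v ∈ V`. -/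
def sp (U : Submodule ℝ (Y → ℝ)) (V : Submodule ℝ (X → ℝ)) : Submodule ℝ (Y × X → ℝ) :=
  span ℝ {f | ∃ u ∈ U, ∃ v ∈ V, f = tn u v}

theorem tn_mem {U : Submodule ℝ (Y → ℝ)} {V : Submodule ℝ (X → ℝ)} {u : Y → ℝ} {v : X → ℝ}
    (hu : u ∈ U) (hv : v ∈ V) : tn u v ∈ sp U V :=
  subset_span ⟨u, hu, v, hv, rfl⟩

theorem sp_mono {U U' : Submodule ℝ (Y → ℝ)} {V V' : Submodule ℝ (X → ℝ)} (hU : U ≤ U')
    (hV : V ≤ V') : sp U V ≤ sp U' V' := by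
  refine span_mono ?_
  rintro _ ⟨u, hu, v, hv, rfl⟩
  exact ⟨u, hU hu, v, hV hv, rfl⟩

theorem sp_le {U : Submodule ℝ (Y → ℝ)} {V : Submodule ℝ (X → ℝ)}
    {M : Submodule ℝ (Y × X → ℝ)} (h : ∀ u ∈ U, ∀ v ∈ V, tn u v ∈ M) : sp U V ≤ M := by
  refine span_le.2 ?_
  rintro _ ⟨u, hu, v, hv, rfl⟩
  exact h u hu v hv

theorem tn_mul (u u' : Y → ℝ) (v v' : X → ℝ) : tn u v * tn u' v' = tn (u * u') (v * v') := by
  funext z; simp only [tn, Pi.mul_apply]; ring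

/-- Products of elements of `sp`. -/
theorem sp_mul {U U' U'' : Submodule ℝ (Y → ℝ)} {V V' V'' : Submodule ℝ (X → ℝ)}
    (hU : ∀ u ∈ U, ∀ u' ∈ U', u * u' ∈ U'') (hV : ∀ v ∈ V, ∀ v' ∈ V', v * v' ∈ V'')
    {f g : Y × X → ℝ} (hf : f ∈ sp U V) (hg : g ∈ sp U' V') : f * g ∈ sp U'' V'' := by
  induction hf using span_induction with
  | mem f hf =>
    obtain ⟨u, hu, v, hv, rfl⟩ := hf
    induction hg using span_induction with
    | mem g hg =>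
      obtain ⟨u', hu', v', hv', rfl⟩ := hg
      rw [tn_mul]
      exact tn_mem (hU u hu u' hu') (hV v hv v' hv')
    | zero => rw [mul_zero]; exact zero_mem _
    | add a b _ _ ha hb => rw [mul_add]; exact add_mem ha hb
    | smul c a _ ha => rw [mul_smul_comm]; exact smul_mem _ _ ha
  | zero => rw [zero_mul]; exact zero_mem _
  | add a b _ _ ha hb => rw [add_mul]; exact add_mem ha hb
  | smul c a _ ha => rw [smul_mul_assoc]; exact smul_mem _ _ ha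

/-- Applying a linear functional in the variable `x`. -/
def appX (ℓ : (X → ℝ) →ₗ[ℝ] ℝ) : (Y × X → ℝ) →ₗ[ℝ] (Y → ℝ) where
  toFun f := fun y => ℓ fun x => f (y, x)
  map_add' f g := by
    funext y
    show ℓ (fun x => f (y, x) + g (y, x)) = ℓ (fun x => f (y, x)) + ℓ (fun x => g (y, x))
    rw [← map_add]; rfl
  map_smul' c f := by
    funext y
    show ℓ (fun x => c * f (y, x)) = c * ℓ (fun x => f (y, x))
    rw [← smul_eq_mul c, ← map_smul]; rfl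

theorem appX_tn (ℓ : (X → ℝ) →ₗ[ℝ] ℝ) (u : Y → ℝ) (v : X → ℝ) :
    appX ℓ (tn u v) = ℓ v • u := by
  funext y
  show ℓ (fun x => u y * v x) = ℓ v * u y
  have : (fun x => u y * v x) = u y • v := by funext x; rfl
  rw [this, map_smul, smul_eq_mul, mul_comm]

/-- Applying a linear functional in the variable `y`. -/
def appY (ℓ : (Y → ℝ) →ₗ[ℝ] ℝ) : (Y × X → ℝ) →ₗ[ℝ] (X → ℝ) where
  toFun f := fun x => ℓ fun y => f (y, x)
  map_add' f g := by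
    funext x
    show ℓ (fun y => f (y, x) + g (y, x)) = ℓ (fun y => f (y, x)) + ℓ (fun y => g (y, x))
    rw [← map_add]; rfl
  map_smul' c f := by
    funext x
    show ℓ (fun y => c * f (y, x)) = c * ℓ (fun y => f (y, x))
    rw [← smul_eq_mul c, ← map_smul]; rfl

theorem appY_tn (ℓ : (Y → ℝ) →ₗ[ℝ] ℝ) (u : Y → ℝ) (v : X → ℝ) :
    appY ℓ (tn u v) = ℓ u • v := by
  funext x
  show ℓ (fun y => u y * v x) = ℓ u * v x
  have : (fun y => u y * v x) = v x • u := by funext y; show u y * v x = v x * u y; ring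
  rw [this, map_smul, smul_eq_mul, mul_comm]

theorem appX_mem {U : Submodule ℝ (Y → ℝ)} {V : Submodule ℝ (X → ℝ)} (ℓ : (X → ℝ) →ₗ[ℝ] ℝ)
    {f : Y × X → ℝ} (hf : f ∈ sp U V) : appX ℓ f ∈ U := by
  induction hf using span_induction with
  | mem f hf =>
    obtain ⟨u, hu, v, hv, rfl⟩ := hf
    rw [appX_tn]; exact smul_mem _ _ hu
  | zero => rw [map_zero]; exact zero_mem _
  | add a b _ _ ha hb => rw [map_add]; exact add_mem ha hb
  | smul c a _ ha => rw [map_smul]; exact smul_mem _ _ ha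

theorem appX_zero {U : Submodule ℝ (Y → ℝ)} {V : Submodule ℝ (X → ℝ)} (ℓ : (X → ℝ) →ₗ[ℝ] ℝ)
    (hℓ : ∀ v ∈ V, ℓ v = 0) {f : Y × X → ℝ} (hf : f ∈ sp U V) : appX ℓ f = 0 := by
  induction hf using span_induction with
  | mem f hf =>
    obtain ⟨u, hu, v, hv, rfl⟩ := hf
    rw [appX_tn, hℓ v hv, zero_smul]
  | zero => rw [map_zero]
  | add a b _ _ ha hb => rw [map_add, ha, hb, add_zero]
  | smul c a _ ha => rw [map_smul, ha, smul_zero]

theorem appY_mem {U : Submodule ℝ (Y → ℝ)} {V : Submodule ℝ (X → ℝ)} (ℓ : (Y → ℝ) →ₗ[ℝ] ℝ)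
    {f : Y × X → ℝ} (hf : f ∈ sp U V) : appY ℓ f ∈ V := by
  induction hf using span_induction with
  | mem f hf =>
    obtain ⟨u, hu, v, hv, rfl⟩ := hf
    rw [appY_tn]; exact smul_mem _ _ hv
  | zero => rw [map_zero]; exact zero_mem _
  | add a b _ _ ha hb => rw [map_add]; exact add_mem ha hb
  | smul c a _ ha => rw [map_smul]; exact smul_mem _ _ ha

theorem appY_zero {U : Submodule ℝ (Y → ℝ)} {V : Submodule ℝ (X → ℝ)} (ℓ : (Y → ℝ) →ₗ[ℝ] ℝ)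
    (hℓ : ∀ u ∈ U, ℓ u = 0) {f : Y × X → ℝ} (hf : f ∈ sp U V) : appY ℓ f = 0 := by
  induction hf using span_induction with
  | mem f hf =>
    obtain ⟨u, hu, v, hv, rfl⟩ := hf
    rw [appY_tn, hℓ u hu, zero_smul]
  | zero => rw [map_zero]
  | add a b _ _ ha hb => rw [map_add, ha, hb, add_zero]
  | smul c a _ ha => rw [map_smul, ha, smul_zero]

/-- A functional which is `1` at `v` and `0` on `V`. -/
theorem exists_fun {Z : Type*} {V : Submodule ℝ (Z → ℝ)} {v : Z → ℝ} (hv : v ∉ V) :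
    ∃ ℓ : (Z → ℝ) →ₗ[ℝ] ℝ, ℓ v = 1 ∧ ∀ w ∈ V, ℓ w = 0 := by
  obtain ⟨f, hf, hV⟩ := Submodule.exists_le_ker_of_notMem hv
  refine ⟨(f v)⁻¹ • f, ?_, ?_⟩
  · rw [LinearMap.smul_apply, smul_eq_mul, inv_mul_cancel₀ hf]
  · intro w hw
    have : f w = 0 := LinearMap.mem_ker.1 (hV hw)
    rw [LinearMap.smul_apply, this, smul_zero]

/-- **Tensor rule.** -/
theorem tensor_rule {U : Submodule ℝ (Y → ℝ)} {V : Submodule ℝ (X → ℝ)} {u : Y → ℝ}
    {v : X → ℝ} (h : tn u v ∈ sp U ⊤ ⊔ sp ⊤ V) : u ∈ U ∨ v ∈ V := by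
  by_contra hc
  push Not at hc
  obtain ⟨ℓ, h1, h2⟩ := exists_fun hc.2
  obtain ⟨f, hf, g, hg, hfg⟩ := mem_sup.1 h
  have h3 := congrArg (appX ℓ) hfg
  rw [map_add, appX_zero ℓ h2 hg, add_zero, appX_tn, h1, one_smul] at h3
  exact hc.1 (h3 ▸ appX_mem ℓ hf)

/-- Several terms: if a functional `ℓ` kills `V` then `sum ℓ(v_i) u_i ∈ U`. -/
theorem tensor_rule_sum {ι : Type*} (s : Finset ι) {U : Submodule ℝ (Y → ℝ)}
    {V : Submodule ℝ (X → ℝ)} {u : ι → Y → ℝ} {v : ι → X → ℝ}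
    (h : ∑ i ∈ s, tn (u i) (v i) ∈ sp U ⊤ ⊔ sp ⊤ V) (ℓ : (X → ℝ) →ₗ[ℝ] ℝ)
    (hℓ : ∀ w ∈ V, ℓ w = 0) : ∑ i ∈ s, ℓ (v i) • u i ∈ U := by
  obtain ⟨f, hf, g, hg, hfg⟩ := mem_sup.1 h
  have h3 := congrArg (appX ℓ) hfg
  rw [map_add, appX_zero ℓ hℓ hg, add_zero, map_sum] at h3
  simp only [appX_tn] at h3
  exact h3 ▸ appX_mem ℓ hf

/-- One-sided version: `u(y) v(x) ∈ sp U ⊤` with `v x0 ≠ 0` gives `u ∈ U`. -/
theorem left_mem {U : Submodule ℝ (Y → ℝ)} {V : Submodule ℝ (X → ℝ)} {u : Y → ℝ} {v : X → ℝ}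
    (h : tn u v ∈ sp U V) {x : X} (hx : v x ≠ 0) : u ∈ U := by
  have h1 := appX_mem (LinearMap.proj x : (X → ℝ) →ₗ[ℝ] ℝ) h
  rw [appX_tn, LinearMap.proj_apply] at h1
  have h2 := U.smul_mem (v x)⁻¹ h1
  rwa [smul_smul, inv_mul_cancel₀ hx, one_smul] at h2

theorem right_mem {U : Submodule ℝ (Y → ℝ)} {V : Submodule ℝ (X → ℝ)} {u : Y → ℝ} {v : X → ℝ}
    (h : tn u v ∈ sp U V) {y : Y} (hy : u y ≠ 0) : v ∈ V := by
  have h1 := appY_mem (LinearMap.proj y : (Y → ℝ) →ₗ[ℝ] ℝ) h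
  rw [appY_tn, LinearMap.proj_apply] at h1
  have h2 := V.smul_mem (u y)⁻¹ h1
  rwa [smul_smul, inv_mul_cancel₀ hy, one_smul] at h2

end Vale.Agent.P207.N3.H254
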