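import Mathlib
import Vale.Agent.P207.N3.H254.Side
import Vale.Agent.P207.N3.H254.Tensor

/-!
# P207, line N3, package P10: from the bi-weight identities to the nested series
-/

open AddMonoidAlgebra Finset Sum

set_option linter.unusedSectionVars false

namespace Vale.Agent.P207.N3.H254

variable {Y X : Type*}

/-- Functions of `y` as functions of `(y, x)`. -/
def fy : (Y → ℝ) →ₐ[ℝ] (Y × X → ℝ) where
  toFun u := fun z => u z.1
  map_one' := rfl
  map_mul' _ _ := rfl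
  map_zero' := rfl
  map_add' _ _ := rfl
  commutes' _ := rfl

/-- Functions of `x` as functions of `(y, x)`. -/
def fx : (X → ℝ) →ₐ[ℝ] (Y × X → ℝ) where
  toFun u := fun z => u z.2
  map_one' := rfl
  map_mul' _ _ := rfl
  map_zero' := rfl
  map_add' _ _ := rfl
  commutes' _ := rfl

theorem fy_eq_tn (u : Y → ℝ) : (fy u : Y × X → ℝ) = tn u 1 := by
  funext z; show u z.1 = u z.1 * 1; ring

theorem fx_eq_tn (u : X → ℝ) : (fx u : Y × X → ℝ) = tn 1 u := by
  funext z; show u z.2 = 1 * u z.2; ring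

variable {K : ℕ} (κ ℓ : ℝ) (S : Side K Y) (S' : Side K X)

/-- The series of a polynomial in the corrected jets of the `y`-side. -/
noncomputable def yS (p : MvPolynomial Lb ℝ) :
    AddMonoidAlgebra (AddMonoidAlgebra (Y × X → ℝ) ℝ) ℝ :=
  sr (wtl κ ℓ) (fun j => singleZeroAlgHom (R := ℝ) (A := Y × X → ℝ) (M := ℝ) (fy (S.v j))) p

/-- The series of a polynomial in the corrected jets of the `x`-side. -/
noncomputable def xS (p : MvPolynomial Lb ℝ) : AddMonoidAlgebra (Y × X → ℝ) ℝ :=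
  sr (wtl κ ℓ) (fun j => fx (S'.v j)) p

/-- The substitution of the two series. -/
noncomputable def sub2 : MvPolynomial (Lb ⊕ Lb) ℝ →ₐ[ℝ]
    AddMonoidAlgebra (AddMonoidAlgebra (Y × X → ℝ) ℝ) ℝ :=
  sr (Sum.elim (wtl κ ℓ) 0) fun j => single (Sum.elim 0 (wtl κ ℓ) j)
    (Sum.elim (fun j => (fy (S.v j) : Y × X → ℝ)) (fun j => fx (S'.v j)) j)

theorem sub2_inl (p : MvPolynomial Lb ℝ) :
    sub2 κ ℓ S S' (MvPolynomial.rename inl p) = yS κ ℓ S p := by
  unfold sub2 yS sr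
  rw [MvPolynomial.aeval_rename]
  rfl

theorem cs_eq {B : Type*} [CommRing B] [Algebra ℝ B] (b : B) :
    singleZeroAlgHom (R := ℝ) (A := B) (M := ℝ) b = cs b := rfl

theorem sub2_inr (p : MvPolynomial Lb ℝ) :
    sub2 κ ℓ S S' (MvPolynomial.rename inr p) = cs (xS (Y := Y) κ ℓ S' p) := by
  unfold sub2 xS sr
  rw [MvPolynomial.aeval_rename, ← cs_eq, ← AlgHom.comp_apply]
  congr 1
  apply MvPolynomial.algHom_ext
  intro j
  rw [MvPolynomial.aeval_X, AlgHom.comp_apply, MvPolynomial.aeval_X]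
  rfl

/-- The nested series of the product formula. -/
noncomputable def EN (h : ℝ) : AddMonoidAlgebra (AddMonoidAlgebra (Y × X → ℝ) ℝ) ℝ :=
  EK K h (fun a => yS κ ℓ S (S.P a)) (fun a => yS κ ℓ S (S.Q a))
    (fun a => cs (xS κ ℓ S' (S'.P a))) fun a => cs (xS κ ℓ S' (S'.Q a))

theorem EN_eq (h : ℝ) : EN κ ℓ S S' h = sub2 κ ℓ S S' (pK h S S') := by
  have h1 := EK_map (R := MvPolynomial (Lb ⊕ Lb) ℝ)
    (R' := AddMonoidAlgebra (AddMonoidAlgebra (Y × X → ℝ) ℝ) ℝ) (sub2 κ ℓ S S') K h (fun a => MvPolynomial.rename inl (S.P a))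
    (fun a => MvPolynomial.rename inl (S.Q a)) (fun a => MvPolynomial.rename inr (S'.P a))
    fun a => MvPolynomial.rename inr (S'.Q a)
  unfold EN pK
  rw [h1]
  simp only [sub2_inl, sub2_inr]

/-- The coefficients of the nested series. -/
theorem sub2_coeff (p : MvPolynomial (Lb ⊕ Lb) ℝ) (w w' : ℝ) (y : Y) (x : X) :
    ((sub2 κ ℓ S S' p).coeff w).coeff w' (y, x)
      = ∑ α ∈ p.support.filter (fun α => wm (Sum.elim (wtl κ ℓ) 0) α = w ∧
          wm (Sum.elim 0 (wtl κ ℓ)) α = w'),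
        p.coeff α * vm (Sum.elim (fun j => S.v j y) fun j => S'.v j x) α := by
  classical
  unfold sub2
  rw [sr_coeff]
  unfold cf
  rw [coeff_sum_smul, Finset.sum_apply]
  have e0 : p.support.filter (fun α => wm (Sum.elim (wtl κ ℓ) 0) α = w ∧
      wm (Sum.elim 0 (wtl κ ℓ)) α = w')
      = (p.support.filter (fun α => wm (Sum.elim (wtl κ ℓ) 0) α = w)).filter
        (fun α => wm (Sum.elim 0 (wtl κ ℓ)) α = w') := (Finset.filter_filter _ _ _).symm
  rw [e0]
  conv_rhs => rw [Finset.sum_filter]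
  refine Finset.sum_congr rfl fun α _ => ?_
  have e1 : vm (fun j => (single (Sum.elim 0 (wtl κ ℓ) j)
      (Sum.elim (fun j => (fy (S.v j) : Y × X → ℝ)) (fun j => fx (S'.v j)) j) :
        AddMonoidAlgebra (Y × X → ℝ) ℝ)) α
      = single (wm (Sum.elim 0 (wtl κ ℓ)) α)
        (vm (fun j => Sum.elim (fun j => (fy (S.v j) : Y × X → ℝ)) (fun j => fx (S'.v j)) j) α) :=
    prod_single _ _ _ _
  have e2 : vm (fun j => Sum.elim (fun j => (fy (S.v j) : Y × X → ℝ))
      (fun j => fx (S'.v j)) j) α (y, x)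
      = vm (Sum.elim (fun j => S.v j y) fun j => S'.v j x) α := by
    have := vm_map (Pi.evalAlgHom ℝ (fun _ : Y × X => ℝ) (y, x))
      (fun j => Sum.elim (fun j => (fy (S.v j) : Y × X → ℝ)) (fun j => fx (S'.v j)) j) α
    rw [Pi.evalAlgHom_apply] at this
    rw [this]
    congr 1
    funext j
    rcases j with j | j <;> rfl
  rw [e1, AddMonoidAlgebra.coeff_single, Finsupp.single_apply]
  by_cases h : wm (Sum.elim 0 (wtl κ ℓ)) α = w'
  · rw [if_pos h, if_pos h, Pi.smul_apply, e2, smul_eq_mul]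
  · rw [if_neg h, if_neg h, smul_zero]
    rfl

variable {κ ℓ S S'}

/-- **The bi-weight identities for the nested series.** -/
theorem TwoId.coeff {h W : ℝ} (H : TwoId κ ℓ h W S S') {w w' : ℝ} (hw : w + w' < W) :
    ((EN κ ℓ S S' h).coeff w).coeff w' = 0 := by
  funext z
  obtain ⟨y, x⟩ := z
  rw [EN_eq, sub2_coeff]
  exact H w w' hw y x

/-! ### The filtration of the nested algebra -/

/-- The coefficientwise filtration, up to the exponent `W`. -/
noncomputable def upTo {A : Type*} [CommRing A] [Algebra ℝ A] (M : Submodule ℝ A) (W : ℝ) :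
    Submodule ℝ (AddMonoidAlgebra A ℝ) where
  carrier := {f | (∀ w < 0, f.coeff w = 0) ∧ ∀ w ≤ W, f.coeff w ∈ M}
  add_mem' := by
    rintro f g ⟨h1, h2⟩ ⟨h3, h4⟩
    refine ⟨fun w hw => ?_, fun w hw => ?_⟩
    · rw [coeff_add', h1 w hw, h3 w hw, add_zero]
    · rw [coeff_add']; exact add_mem (h2 w hw) (h4 w hw)
  zero_mem' := by
    refine ⟨fun w _ => ?_, fun w _ => ?_⟩ <;> rw [AddMonoidAlgebra.coeff_zero,
      Finsupp.zero_apply]
    exact zero_mem _
  smul_mem' := by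
    rintro c f ⟨h1, h2⟩
    refine ⟨fun w hw => ?_, fun w hw => ?_⟩
    · rw [coeff_smul', h1 w hw, smul_zero]
    · rw [coeff_smul']; exact Submodule.smul_mem _ _ (h2 w hw)

theorem mem_upTo {A : Type*} [CommRing A] [Algebra ℝ A] {M : Submodule ℝ A} {W : ℝ}
    {f : AddMonoidAlgebra A ℝ} :
    f ∈ upTo M W ↔ (∀ w < 0, f.coeff w = 0) ∧ ∀ w ≤ W, f.coeff w ∈ M := Iff.rfl

theorem upTo_mul {A : Type*} [CommRing A] [Algebra ℝ A] {M : Submodule ℝ A} {W : ℝ}
    (hM : ∀ a ∈ M, ∀ b ∈ M, a * b ∈ M) {f g : AddMonoidAlgebra A ℝ} (hf : f ∈ upTo M W)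
    (hg : g ∈ upTo M W) : f * g ∈ upTo M W := by
  refine ⟨fun w hw => ?_, fun w hw => coeff_mul_mem M f g w fun u => ?_⟩
  · have := Ge.mul (o := 0) (o' := 0) (fun w hw => hf.1 w hw) (fun w hw => hg.1 w hw)
    exact this w (by linarith)
  · by_cases h : u < 0
    · rw [hf.1 u h, zero_mul]; exact zero_mem _
    by_cases h' : w - u < 0
    · rw [hg.1 _ h', mul_zero]; exact zero_mem _
    exact hM _ (hf.2 u (by linarith)) _ (hg.2 _ (by linarith))

theorem upTo_mono {A : Type*} [CommRing A] [Algebra ℝ A] {M M' : Submodule ℝ A} (h : M ≤ M')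
    (W : ℝ) : upTo M W ≤ upTo M' W :=
  fun _ hf => ⟨hf.1, fun w hw => h (hf.2 w hw)⟩

theorem upTo_one {A : Type*} [CommRing A] [Algebra ℝ A] {M : Submodule ℝ A} (h : (1 : A) ∈ M)
    (W : ℝ) : (1 : AddMonoidAlgebra A ℝ) ∈ upTo M W := by
  refine ⟨fun w hw => Ge.one w hw, fun w _ => ?_⟩
  by_cases hw : w = 0
  · rw [hw, coeff_one_zero]; exact h
  · rw [coeff_one_ne hw]; exact zero_mem _

/-- The lift of a filtration. -/
noncomputable def Fil.up {A : Type*} [CommRing A] [Algebra ℝ A] (F : Fil A) (W : ℝ) :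
    Fil (AddMonoidAlgebra A ℝ) where
  A0 := upTo F.A0 W
  AP := upTo F.AP W
  AQ := upTo F.AQ W
  one := upTo_one F.one W
  leP := upTo_mono F.leP W
  leQ := upTo_mono F.leQ W
  mul0 _ ha _ hb := upTo_mul F.mul0 ha hb
  mulP _ ha _ hb := upTo_mul F.mulP ha hb
  mulQ _ ha _ hb := upTo_mul F.mulQ ha hb

/-- The filtration of the functions of `(y, x)` by two subalgebras. -/
def fil (U : Subalgebra ℝ (Y → ℝ)) (V : Subalgebra ℝ (X → ℝ)) : Fil (Y × X → ℝ) where
  A0 := sp (Subalgebra.toSubmodule U) (Subalgebra.toSubmodule V)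
  AP := sp (Subalgebra.toSubmodule U) ⊤
  AQ := sp ⊤ (Subalgebra.toSubmodule V)
  one := by
    have : (1 : Y × X → ℝ) = tn 1 1 := by funext z; show (1 : ℝ) = 1 * 1; ring
    rw [this]
    exact tn_mem U.one_mem V.one_mem
  leP := sp_mono le_rfl le_top
  leQ := sp_mono le_top le_rfl
  mul0 _ ha _ hb := sp_mul (fun _ hu _ hu' => U.mul_mem hu hu') (fun _ hv _ hv' => V.mul_mem hv hv')
    ha hb
  mulP _ ha _ hb := sp_mul (fun _ hu _ hu' => U.mul_mem hu hu') (fun _ _ _ _ => Submodule.mem_top) ha hb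
  mulQ _ ha _ hb := sp_mul (fun _ _ _ _ => Submodule.mem_top) (fun _ hv _ hv' => V.mul_mem hv hv') ha hb

theorem up_sup {A : Type*} [CommRing A] [Algebra ℝ A] {F : Fil A} {W w : ℝ} (hw : w ≤ W)
    {f : AddMonoidAlgebra A ℝ} (hf : f ∈ (F.up W).AP ⊔ (F.up W).AQ) :
    f.coeff w ∈ F.AP ⊔ F.AQ := by
  obtain ⟨a, ha, b, hb, rfl⟩ := Submodule.mem_sup.1 hf
  rw [coeff_add']
  exact add_mem (Submodule.mem_sup_left (ha.2 w hw)) (Submodule.mem_sup_right (hb.2 w hw))

end Vale.Agent.P207.N3.H254
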