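import Mathlib
import Vale.Agent.P207.N3.H254.Nest

/-!
# P207, line N3, package P10: classes of the jets of a side
-/

open AddMonoidAlgebra Finset Sum

set_option linter.unusedSectionVars false

namespace Vale.Agent.P207.N3.H254

variable {Y X : Type*} {K : ℕ} {κ ℓ : ℝ}

theorem wtl_inl (κ ℓ : ℝ) (a : ℕ × ℕ) : wtl κ ℓ (inl a) = κ * a.1 + ℓ * a.2 := rfl
theorem wtl_inr (κ ℓ : ℝ) (a : ℕ × ℕ) : wtl κ ℓ (inr a) = κ * a.1 + ℓ * a.2 := rfl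

theorem len_le_wtl (hκ : ℓ ≤ κ) (a : ℕ × ℕ) : len a * ℓ ≤ κ * a.1 + ℓ * a.2 := by
  unfold len
  have h1 : (0 : ℝ) ≤ a.1 := Nat.cast_nonneg _
  push_cast
  nlinarith

/-- The weight of a label. -/
theorem wtl_ge (hℓ : 0 < ℓ) (hκ : ℓ ≤ κ) {a : ℕ × ℕ} (ha : 1 ≤ len a) :
    ℓ ≤ κ * a.1 + ℓ * a.2 := by
  have h1 := len_le_wtl hκ a
  have h2 : (1 : ℝ) ≤ len a := by exact_mod_cast ha
  nlinarith

theorem wtl_ge2 (hℓ : 0 < ℓ) (hκ : ℓ ≤ κ) {a : ℕ × ℕ} (ha : 2 ≤ len a) :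
    2 * ℓ ≤ κ * a.1 + ℓ * a.2 := by
  have h1 := len_le_wtl hκ a
  have h2 : (2 : ℝ) ≤ len a := by exact_mod_cast ha
  nlinarith

/-- A label of length `≥ 2` which is not of the form `(0, n)` has weight `≥ κ + ℓ`. -/
theorem wtl_ge3 (hℓ : 0 < ℓ) (hκ : ℓ ≤ κ) {a : ℕ × ℕ} (ha : 2 ≤ len a) (h1 : a.1 ≠ 0) :
    κ + ℓ ≤ κ * a.1 + ℓ * a.2 := by
  have h2 : (1 : ℝ) ≤ a.1 := by exact_mod_cast Nat.one_le_iff_ne_zero.2 h1
  unfold len at ha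
  have h3 : (2 : ℝ) ≤ a.1 + a.2 := by exact_mod_cast ha
  have h4 : (0 : ℝ) ≤ a.2 := Nat.cast_nonneg _
  by_cases h5 : a.1 = 1
  · rw [h5] at h3 ⊢
    push_cast at h3 ⊢
    nlinarith
  · have h6 : (2 : ℝ) ≤ a.1 := by
      have : 2 ≤ a.1 := by omega
      exact_mod_cast this
    nlinarith

section side

variable (S : Side K Y)

/-- Variables of the monomials of `P a`. -/
theorem Side.P_var {a : ℕ × ℕ} {α : Lb →₀ ℕ} (hα : α ∈ (S.P a).support) {j : Lb}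
    (hj : j ∈ α.support) : ∃ b, j = inl b ∧ 1 ≤ len b ∧ len b ≤ len a := by
  rcases S.P_supp a α hα with h | h
  · subst h
    have : j = inl a := by
      have := Finsupp.support_single_subset hj
      simpa using this
    refine ⟨a, this, ?_, le_rfl⟩
    rw [Nat.one_le_iff_ne_zero]
    intro h0
    rw [(len_zero_iff a).1 h0, S.P_zero] at hα
    simp at hα
  · obtain ⟨b, h1, h2, h3⟩ := h.2 j hj
    exact ⟨b, h1, h2, h3.le⟩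

/-- Variables of the monomials of `Q a`. -/
theorem Side.Q_var {a : ℕ × ℕ} {α : Lb →₀ ℕ} (hα : α ∈ (S.Q a).support) {j : Lb}
    (hj : j ∈ α.support) : ∃ b, (j = inl b ∨ j = inr b) ∧ 1 ≤ len b ∧ len b ≤ len a := by
  rcases S.Q_supp a α hα with h | h
  · subst h
    have : j = inr a := by
      have := Finsupp.support_single_subset hj
      simpa using this
    refine ⟨a, Or.inr this, ?_, le_rfl⟩
    rw [Nat.one_le_iff_ne_zero]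
    intro h0
    rw [(len_zero_iff a).1 h0, S.Q_zero] at hα
    simp at hα
  · rcases h.2 j hj with ⟨b, h1, h2, h3⟩ | ⟨b, h1, h2, h3⟩
    · exact ⟨b, Or.inl h1, h2, h3⟩
    · exact ⟨b, Or.inr h1, h2, h3.le⟩

theorem Side.P_wt (hℓ : 0 < ℓ) (hκ : ℓ ≤ κ) {a : ℕ × ℕ} {α : Lb →₀ ℕ}
    (hα : α ∈ (S.P a).support) {j : Lb} (hj : j ∈ α.support) : ℓ ≤ wtl κ ℓ j := by
  obtain ⟨b, rfl, h1, -⟩ := S.P_var hα hj
  exact wtl_ge hℓ hκ h1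

theorem Side.Q_wt (hℓ : 0 < ℓ) (hκ : ℓ ≤ κ) {a : ℕ × ℕ} {α : Lb →₀ ℕ}
    (hα : α ∈ (S.Q a).support) {j : Lb} (hj : j ∈ α.support) : ℓ ≤ wtl κ ℓ j := by
  obtain ⟨b, rfl | rfl, h1, -⟩ := S.Q_var hα hj
  · exact wtl_ge hℓ hκ h1
  · exact wtl_ge hℓ hκ h1

theorem Side.P_ne {a : ℕ × ℕ} {α : Lb →₀ ℕ} (hα : α ∈ (S.P a).support) : α ≠ 0 := by
  rcases S.P_supp a α hα with h | h
  · rw [h]; exact Finsupp.single_ne_zero.2 one_ne_zero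
  · rintro rfl
    rw [map_zero] at h
    omega

theorem Side.Q_ne {a : ℕ × ℕ} {α : Lb →₀ ℕ} (hα : α ∈ (S.Q a).support) : α ≠ 0 := by
  rcases S.Q_supp a α hα with h | h
  · rw [h]; exact Finsupp.single_ne_zero.2 one_ne_zero
  · exact h.1

theorem ge_of_ne {α : Lb →₀ ℕ} (hℓ : 0 < ℓ) (h0 : α ≠ 0)
    (h : ∀ j ∈ α.support, ℓ ≤ wtl κ ℓ j) : ℓ ≤ wm (wtl κ ℓ) α := by
  obtain ⟨j, hj⟩ := Finsupp.support_nonempty_iff.2 h0
  exact (h j hj).trans (factor_le' hℓ h hj)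

/-- Weights of the monomials of `P a`, `|a| ≥ 2`. -/
theorem Side.P_ge2 (hℓ : 0 < ℓ) (hκ : ℓ ≤ κ) {a : ℕ × ℕ} (ha : 2 ≤ len a) {α : Lb →₀ ℕ}
    (hα : α ∈ (S.P a).support) : 2 * ℓ ≤ wm (wtl κ ℓ) α := by
  rcases S.P_supp a α hα with h | h
  · rw [h, wm_single]; exact wtl_ge2 hℓ hκ ha
  · have h1 := deg_le_wm (α := α) (ℓ := ℓ) fun j hj => S.P_wt hℓ hκ hα hj
    have h2 : (2 : ℝ) ≤ α.degree := by exact_mod_cast h.1
    nlinarith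

/-- A factor of a product in `P a` has small weight. -/
theorem Side.P_factor (hℓ : 0 < ℓ) (hκ : ℓ ≤ κ) {a : ℕ × ℕ} {α : Lb →₀ ℕ}
    (hα : α ∈ (S.P a).support) (h2 : 2 ≤ α.degree) {j : Lb} (hj : j ∈ α.support) :
    wtl κ ℓ j + ℓ ≤ wm (wtl κ ℓ) α := by
  have h1 := factor_le (α := α) hℓ (fun j hj => S.P_wt hℓ hκ hα hj) hj
  have h3 : (2 : ℝ) ≤ α.degree := by exact_mod_cast h2
  nlinarith

end side

/-! ### Coefficients of the series -/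

theorem yS_coeff (S : Side K Y) (p : MvPolynomial Lb ℝ) (w : ℝ) :
    ((yS κ ℓ S p : AddMonoidAlgebra (AddMonoidAlgebra (Y × X → ℝ) ℝ) ℝ)).coeff w
      = cs (fy (cf (wtl κ ℓ) S.v p w)) := by
  unfold yS
  rw [sr_coeff, ← cs_eq]
  exact (cf_map ((singleZeroAlgHom (R := ℝ) (A := Y × X → ℝ) (M := ℝ)).comp fy) (wtl κ ℓ) S.v
    p w).symm

theorem xS_coeff (S' : Side K X) (p : MvPolynomial Lb ℝ) (w : ℝ) :
    ((xS κ ℓ S' p : AddMonoidAlgebra (Y × X → ℝ) ℝ)).coeff w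
      = fx (cf (wtl κ ℓ) S'.v p w) := by
  unfold xS
  rw [sr_coeff]
  exact (cf_map fx (wtl κ ℓ) S'.v p w).symm

variable {U : Subalgebra ℝ (Y → ℝ)} {V : Subalgebra ℝ (X → ℝ)}

theorem fy_mem {u : Y → ℝ} (hu : u ∈ U) : (fy u : Y × X → ℝ) ∈ (fil U V).A0 := by
  rw [fy_eq_tn]; exact tn_mem hu V.one_mem

theorem fy_memQ (u : Y → ℝ) : (fy u : Y × X → ℝ) ∈ (fil U V).AQ := by
  rw [fy_eq_tn]; exact tn_mem Submodule.mem_top V.one_mem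

theorem fx_mem {u : X → ℝ} (hu : u ∈ V) : (fx u : Y × X → ℝ) ∈ (fil U V).A0 := by
  rw [fx_eq_tn]; exact tn_mem U.one_mem hu

theorem fx_memP (u : X → ℝ) : (fx u : Y × X → ℝ) ∈ (fil U V).AP := by
  rw [fx_eq_tn]; exact tn_mem U.one_mem Submodule.mem_top

/-- Constants of the nested algebra. -/
theorem cs_upTo {A : Type*} [CommRing A] [Algebra ℝ A] {M : Submodule ℝ A} {a : A} (ha : a ∈ M)
    (W : ℝ) : cs a ∈ upTo M W := by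
  refine ⟨fun w hw => cs_ge a w hw, fun w _ => ?_⟩
  have h := cs_mul_coeff a 1 w
  rw [mul_one] at h
  rw [h]
  by_cases hw : w = 0
  · rw [hw, coeff_one_zero, mul_one]; exact ha
  · rw [coeff_one_ne hw, mul_zero]; exact zero_mem _

theorem cs_coeff_zero {A : Type*} [CommRing A] [Algebra ℝ A] (a : A) : (cs a).coeff 0 = a := by
  have h := cs_mul_coeff a 1 0
  rwa [mul_one, coeff_one_zero, mul_one] at h

theorem cs_coeff_ne {A : Type*} [CommRing A] [Algebra ℝ A] (a : A) {w : ℝ} (hw : w ≠ 0) :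
    (cs a).coeff w = 0 := by
  have h := cs_mul_coeff a 1 w
  rwa [mul_one, coeff_one_ne hw, mul_zero] at h

theorem cf_memU (S : Side K Y) (p : MvPolynomial Lb ℝ) (w : ℝ)
    (h : ∀ α ∈ p.support, wm (wtl κ ℓ) α = w → ∀ j ∈ α.support, S.v j ∈ U) :
    cf (wtl κ ℓ) S.v p w ∈ U :=
  cf_mem (Subalgebra.toSubmodule U) _ _ _ _ fun α hα hw =>
    vm_mem (Subalgebra.toSubmodule U) U.one_mem (fun _ ha _ hb => U.mul_mem ha hb) _ _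
      (h α hα hw)

/-- The class of the `T`-jets of the `y`-side. -/
theorem CY_P (hℓ : 0 < ℓ) (hκ : ℓ ≤ κ) (S : Side K Y) {α W : ℝ} (V : Subalgebra ℝ (X → ℝ))
    (hT : ∀ b, 1 ≤ len b → wtl κ ℓ (inl b) < α → S.v (inl b) ∈ U) (a : ℕ × ℕ) :
    CY ((fil U V).up W) ℓ α (yS κ ℓ S (S.P a)) := by
  intro w
  rw [yS_coeff]
  refine ⟨fun hw => ?_, fun hw => ?_, ?_⟩
  · rw [cf_eq_zero, map_zero]
    · exact AddMonoidAlgebra.single_zero _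
    · intro β hβ h
      have := ge_of_ne hℓ (S.P_ne hβ) fun j hj => S.P_wt hℓ hκ hβ hj
      linarith
  · refine cs_upTo (fy_mem (cf_memU S _ _ fun β hβ h j hj => ?_)) _
    obtain ⟨b, rfl, h1, -⟩ := S.P_var hβ hj
    refine hT b h1 ?_
    have := factor_le' hℓ (fun j hj => S.P_wt (κ := κ) hℓ hκ hβ hj) hj
    linarith
  · exact cs_upTo (fy_memQ _) _

theorem CY_P2 (hℓ : 0 < ℓ) (hκ : ℓ ≤ κ) (S : Side K Y) {α W : ℝ} (V : Subalgebra ℝ (X → ℝ))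
    (hT : ∀ b, 1 ≤ len b → wtl κ ℓ (inl b) < α → S.v (inl b) ∈ U) {a : ℕ × ℕ}
    (ha : 2 ≤ len a) : CY ((fil U V).up W) (2 * ℓ) α (yS κ ℓ S (S.P a)) := by
  intro w
  refine ⟨fun hw => ?_, (CY_P hℓ hκ S V hT a w).2⟩
  rw [yS_coeff, cf_eq_zero, map_zero]
  · exact AddMonoidAlgebra.single_zero _
  · intro β hβ h
    have := S.P_ge2 hℓ hκ ha hβ
    linarith

/-- The class of the `X`-jets of the `y`-side. -/
theorem CY_Q (hℓ : 0 < ℓ) (hκ : ℓ ≤ κ) (S : Side K Y) {α W : ℝ} (V : Subalgebra ℝ (X → ℝ))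
    (hT : ∀ b, 1 ≤ len b → wtl κ ℓ (inl b) < α → S.v (inl b) ∈ U)
    (hX : ∀ b, 1 ≤ len b → wtl κ ℓ (inr b) < α → S.v (inr b) ∈ U) (a : ℕ × ℕ) :
    CY ((fil U V).up W) ℓ α (yS κ ℓ S (S.Q a)) := by
  intro w
  rw [yS_coeff]
  refine ⟨fun hw => ?_, fun hw => ?_, ?_⟩
  · rw [cf_eq_zero, map_zero]
    · exact AddMonoidAlgebra.single_zero _
    · intro β hβ h
      have := ge_of_ne hℓ (S.Q_ne hβ) fun j hj => S.Q_wt hℓ hκ hβ hj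
      linarith
  · refine cs_upTo (fy_mem (cf_memU S _ _ fun β hβ h j hj => ?_)) _
    have h2 := factor_le' hℓ (fun j hj => S.Q_wt (κ := κ) hℓ hκ hβ hj) hj
    obtain ⟨b, rfl | rfl, h1, -⟩ := S.Q_var hβ hj
    · exact hT b h1 (by linarith)
    · exact hX b h1 (by linarith)
  · exact cs_upTo (fy_memQ _) _

/-- The `x`-side. -/
theorem xS_P (hℓ : 0 < ℓ) (hκ : ℓ ≤ κ) (S' : Side K X) {W : ℝ} {b : ℕ}
    (U : Subalgebra ℝ (Y → ℝ))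
    (hT : ∀ c, 1 ≤ len c → len c < b → wtl κ ℓ (inl c) ≤ W → S'.v (inl c) ∈ V) (c : ℕ × ℕ) :
    (len c < b → xS κ ℓ S' (S'.P c) ∈ ((fil U V).up W).A0) ∧
      xS κ ℓ S' (S'.P c) ∈ ((fil U V).up W).AP := by
  have h0 : ∀ w < 0, (xS κ ℓ S' (S'.P c) : AddMonoidAlgebra (Y × X → ℝ) ℝ).coeff w = 0 := by
    intro w hw
    rw [xS_coeff, cf_eq_zero, map_zero]
    intro β hβ h
    have := ge_of_ne hℓ (S'.P_ne hβ) fun j hj => S'.P_wt hℓ hκ hβ hj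
    linarith
  refine ⟨fun hc => ⟨h0, fun w hw => ?_⟩, ⟨h0, fun w _ => ?_⟩⟩
  · rw [xS_coeff]
    refine fx_mem (cf_memU S' _ _ fun β hβ h j hj => ?_)
    have h2 := factor_le' hℓ (fun j hj => S'.P_wt (κ := κ) hℓ hκ hβ hj) hj
    obtain ⟨b, rfl, h1, h3⟩ := S'.P_var hβ hj
    exact hT b h1 (by omega) (by linarith)
  · rw [xS_coeff]; exact fx_memP _

theorem xS_Q (hℓ : 0 < ℓ) (hκ : ℓ ≤ κ) (S' : Side K X) {W : ℝ} {b : ℕ}
    (U : Subalgebra ℝ (Y → ℝ))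
    (hT : ∀ c, 1 ≤ len c → len c < b → wtl κ ℓ (inl c) ≤ W → S'.v (inl c) ∈ V)
    (hX : ∀ c, 1 ≤ len c → len c < b → wtl κ ℓ (inr c) ≤ W → S'.v (inr c) ∈ V) (c : ℕ × ℕ) :
    (len c < b → xS κ ℓ S' (S'.Q c) ∈ ((fil U V).up W).A0) ∧
      xS κ ℓ S' (S'.Q c) ∈ ((fil U V).up W).AP := by
  have h0 : ∀ w < 0, (xS κ ℓ S' (S'.Q c) : AddMonoidAlgebra (Y × X → ℝ) ℝ).coeff w = 0 := by
    intro w hw
    rw [xS_coeff, cf_eq_zero, map_zero]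
    intro β hβ h
    have := ge_of_ne hℓ (S'.Q_ne hβ) fun j hj => S'.Q_wt hℓ hκ hβ hj
    linarith
  refine ⟨fun hc => ⟨h0, fun w hw => ?_⟩, ⟨h0, fun w _ => ?_⟩⟩
  · rw [xS_coeff]
    refine fx_mem (cf_memU S' _ _ fun β hβ h j hj => ?_)
    have h2 := factor_le' hℓ (fun j hj => S'.Q_wt (κ := κ) hℓ hκ hβ hj) hj
    obtain ⟨b, rfl | rfl, h1, h3⟩ := S'.Q_var hβ hj
    · exact hT b h1 (by omega) (by linarith)
    · exact hX b h1 (by omega) (by linarith)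
  · rw [xS_coeff]; exact fx_memP _

/-- The hypotheses of the formal theorem for the two sides. -/
theorem hyp_of_sides (hℓ : 0 < ℓ) (hκ : ℓ ≤ κ) {S : Side K Y} {S' : Side K X} {α W : ℝ}
    {b : ℕ} (hα : 2 * ℓ ≤ α) (hb : 2 ≤ b)
    (hT : ∀ c, 1 ≤ len c → wtl κ ℓ (inl c) < α → S.v (inl c) ∈ U)
    (hX : ∀ c, 1 ≤ len c → wtl κ ℓ (inr c) < α → S.v (inr c) ∈ U)
    (hT' : ∀ c, 1 ≤ len c → len c < b → wtl κ ℓ (inl c) ≤ W → S'.v (inl c) ∈ V)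
    (hX' : ∀ c, 1 ≤ len c → len c < b → wtl κ ℓ (inr c) ≤ W → S'.v (inr c) ∈ V) :
    Hyp ((fil U V).up W) ℓ α α b b (fun a => yS κ ℓ S (S.P a)) (fun a => yS κ ℓ S (S.Q a))
      (fun c => xS κ ℓ S' (S'.P c)) (fun c => xS κ ℓ S' (S'.Q c)) where
  hℓ := hℓ
  hα := hα
  hb := hb
  T1 a := CY_P hℓ hκ S V hT a
  T2 _ ha := CY_P2 hℓ hκ S V hT ha
  X1 a := CY_Q hℓ hκ S V hT hX a
  T0' c hc := (xS_P hℓ hκ S' U hT' c).1 hc
  TP' c := (xS_P hℓ hκ S' U hT' c).2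
  X0' c hc := (xS_Q hℓ hκ S' U hT' hX' c).1 hc
  XP' c := (xS_Q hℓ hκ S' U hT' hX' c).2

end Vale.Agent.P207.N3.H254
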