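import Mathlib
import Vale.Agent.P207.N3.H254.Cls

/-!
# P207, line N3, package P10: the critical coefficient for two sides
-/

open AddMonoidAlgebra Finset Sum

set_option linter.unusedSectionVars false

namespace Vale.Agent.P207.N3.H254

variable {Y X : Type*} {K : ℕ} {κ ℓ : ℝ}

theorem Side.P_e (S : Side K Y) (hK : 1 ≤ K) (i : Fin 2) :
    S.P (e i) = MvPolynomial.X (inl (e i)) := by
  classical
  ext α
  rw [MvPolynomial.coeff_X]
  split_ifs with h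
  · rw [← h]
    exact S.P_one _ (by rw [len_e]) (by rw [len_e]; exact hK)
  · by_contra hne
    have hα : α ∈ (S.P (e i)).support := MvPolynomial.mem_support_iff.2 hne
    rcases S.P_supp _ α hα with h1 | h1
    · exact h h1.symm
    · obtain ⟨j, hj⟩ := Finsupp.support_nonempty_iff.2 (S.P_ne hα)
      obtain ⟨b, -, h2, h3⟩ := h1.2 j hj
      rw [len_e] at h3
      omega

theorem yS_X (S : Side K Y) (j : Lb) :
    (yS κ ℓ S (MvPolynomial.X j) : AddMonoidAlgebra (AddMonoidAlgebra (Y × X → ℝ) ℝ) ℝ)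
      = single (wtl κ ℓ j) (cs (fy (S.v j))) := by
  unfold yS sr
  rw [MvPolynomial.aeval_X]
  rfl

theorem xS_X (S' : Side K X) (j : Lb) :
    (xS κ ℓ S' (MvPolynomial.X j) : AddMonoidAlgebra (Y × X → ℝ) ℝ)
      = single (wtl κ ℓ j) (fx (S'.v j)) := by
  unfold xS sr
  rw [MvPolynomial.aeval_X]

theorem coeff_single_self {A : Type*} [CommRing A] (w : ℝ) (a : A) :
    (single w a : AddMonoidAlgebra A ℝ).coeff w = a := by
  classical
  rw [AddMonoidAlgebra.coeff_single, Finsupp.single_apply, if_pos rfl]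

theorem coeff_single_ne {A : Type*} [CommRing A] {w w' : ℝ} (a : A) (h : w ≠ w') :
    (single w a : AddMonoidAlgebra A ℝ).coeff w' = 0 := by
  classical
  rw [AddMonoidAlgebra.coeff_single, Finsupp.single_apply, if_neg h]

theorem single_mul_coeff {A : Type*} [CommRing A] [Algebra ℝ A] (s : ℝ) (a : A)
    (g : AddMonoidAlgebra A ℝ) (w : ℝ) :
    ((single s a : AddMonoidAlgebra A ℝ) * g).coeff w = a * g.coeff (w - s) := by
  have h := coeff_mul_sub_mem (⊥ : Submodule ℝ A) (single s a) g w s (by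
    intro u hu
    rw [coeff_single_ne a hu.symm, zero_mul]
    exact zero_mem _)
  rw [Submodule.mem_bot] at h
  rw [sub_eq_zero.1 h, coeff_single_self]

/-- The part of weight `n ℓ` of `P d`, `|d| ≥ 2`. -/
theorem cfP (hℓ : 0 < ℓ) (hκ : ℓ ≤ κ) (S : Side K Y) {U : Subalgebra ℝ (Y → ℝ)} {n : ℕ}
    (hn : n * ℓ < κ + ℓ) {d : ℕ × ℕ} (hd : 2 ≤ len d)
    (hT : ∀ c, 1 ≤ len c → len c < len d → wtl κ ℓ (inl c) < n * ℓ → S.v (inl c) ∈ U)
    (hdK : len d ≤ K) :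
    (d = (0, n) → cf (wtl κ ℓ) S.v (S.P d) (n * ℓ) - S.v (inl d) ∈ U) ∧
      (d ≠ (0, n) → cf (wtl κ ℓ) S.v (S.P d) (n * ℓ) ∈ U) := by
  classical
  have hprod : ∀ β ∈ (S.P d).support, wm (wtl κ ℓ) β = n * ℓ → β ≠ Finsupp.single (inl d) 1 →
      (vm S.v β : Y → ℝ) ∈ U := by
    intro β hβ hw hne
    rcases S.P_supp d β hβ with h | h
    · exact absurd h hne
    · refine vm_mem (Subalgebra.toSubmodule U) U.one_mem (fun _ ha _ hb => U.mul_mem ha hb) _ _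
        fun j hj => ?_
      obtain ⟨b, rfl, h1, h2⟩ := h.2 j hj
      refine hT b h1 h2 ?_
      have := S.P_factor hℓ hκ hβ h.1 hj
      linarith
  have hsingle : wtl κ ℓ (inl d) = n * ℓ → d = (0, n) := by
    intro h
    rw [wtl_inl] at h
    by_cases h1 : d.1 = 0
    · rw [h1, Nat.cast_zero, mul_zero, zero_add, mul_comm] at h
      have h2 : (d.2 : ℝ) = n := mul_right_cancel₀ hℓ.ne' h
      exact Prod.ext h1 (by exact_mod_cast h2)
    · have := wtl_ge3 hℓ hκ hd h1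
      linarith
  constructor
  · intro hdn
    have hmem : Finsupp.single (inl d) 1 ∈
        (S.P d).support.filter (fun β => wm (wtl κ ℓ) β = n * ℓ) := by
      rw [Finset.mem_filter, MvPolynomial.mem_support_iff, S.P_one d (by omega) hdK, wm_single,
        wtl_inl, hdn]
      refine ⟨one_ne_zero, ?_⟩
      push_cast
      ring
    unfold cf
    rw [← Finset.add_sum_erase _ _ hmem, S.P_one d (by omega) hdK, one_smul, vm_single,
      add_sub_cancel_left]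
    refine U.sum_mem fun β hβ => U.smul_mem ?_ _
    rw [Finset.mem_erase, Finset.mem_filter] at hβ
    exact hprod β hβ.2.1 hβ.2.2 hβ.1
  · intro hdn
    unfold cf
    refine U.sum_mem fun β hβ => U.smul_mem ?_ _
    rw [Finset.mem_filter] at hβ
    refine hprod β hβ.1 hβ.2 ?_
    rintro rfl
    rw [wm_single] at hβ
    exact hdn (hsingle hβ.2)

theorem mon_zero_left {R : Type*} [CommRing R] (π : Fin 2 → R) (h : π 0 = 0) {a : ℕ × ℕ}
    (ha : a.1 ≠ 0) : mon π a = 0 := by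
  unfold mon
  rw [h, zero_pow ha, zero_mul]

theorem mon_snd {R : Type*} [CommRing R] (π : Fin 2 → R) (m : ℕ) : mon π (0, m) = π 1 ^ m := by
  unfold mon; simp

section

variable {U : Subalgebra ℝ (Y → ℝ)} {V : Subalgebra ℝ (X → ℝ)} {S : Side K Y} {S' : Side K X}

theorem cs_add {A : Type*} [CommRing A] [Algebra ℝ A] (a b : A) : cs (a + b) = cs a + cs b := by
  rw [← cs_eq, ← cs_eq, ← cs_eq, map_add]

theorem cs_sub {A : Type*} [CommRing A] [Algebra ℝ A] (a b : A) : cs (a - b) = cs a - cs b := by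
  rw [← cs_eq, ← cs_eq, ← cs_eq, map_sub]

theorem cs_mul {A : Type*} [CommRing A] [Algebra ℝ A] (a b : A) : cs (a * b) = cs a * cs b := by
  rw [← cs_eq, ← cs_eq, ← cs_eq, map_mul]

theorem cs_pow {A : Type*} [CommRing A] [Algebra ℝ A] (a : A) (n : ℕ) :
    cs (a ^ n) = cs a ^ n := by
  rw [← cs_eq, ← cs_eq, map_pow]

/-- The leading coefficient `μ`. -/
theorem mu_side (hℓ : 0 < ℓ) (hκ : ℓ ≤ κ) {n : ℕ} (hn2 : 2 ≤ n) (hnK : n ≤ K)
    (hn : n * ℓ < κ + ℓ) {W : ℝ}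
    (hT : ∀ c, 1 ≤ len c → wtl κ ℓ (inl c) < n * ℓ → S.v (inl c) ∈ U)
    {t : Fin 2 → AddMonoidAlgebra (Y × X → ℝ) ℝ} (ht : ∀ i, t i ∈ ((fil U V).up W).A0)
    {c : ℕ × ℕ} (hc : len c = 2) :
    (c ≠ (0, 2) → mu K (n * ℓ) (fun a => yS κ ℓ S (S.P a)) t c ∈ ((fil U V).up W).A0) ∧
    (c = (0, 2) → mu K (n * ℓ) (fun a => yS κ ℓ S (S.P a)) t c
      - fac (0, n - 2) • (cs (fy (S.v (inl (0, n)))) * t 1 ^ (n - 2)) ∈
        ((fil U V).up W).A0) := by
  classical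
  have hterm : ∀ a ∈ tri (K - 2), a + c ≠ (0, n) →
      fac a • ((yS κ ℓ S (S.P (a + c)) :
        AddMonoidAlgebra (AddMonoidAlgebra (Y × X → ℝ) ℝ) ℝ).coeff (n * ℓ) * mon t a) ∈
        ((fil U V).up W).A0 := by
    intro a ha hne
    rw [mem_tri] at ha
    refine Submodule.smul_mem _ _ (((fil U V).up W).mul0 _ ?_ _ (A0_mon _ ht a))
    rw [yS_coeff]
    have hla : len (a + c) = a.1 + a.2 + 2 := by rw [len_add, hc]; rfl
    refine cs_upTo (fy_mem ((cfP (K := K) hℓ hκ S hn (d := a + c) (by omega)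
      (fun b h1 _ h2 => hT b h1 h2) ?_).2 hne)) _
    by_cases hK2 : 2 ≤ K
    · omega
    · omega
  constructor
  · intro hc2
    unfold mu
    refine Submodule.sum_mem _ fun a ha => hterm a ha ?_
    intro h
    apply hc2
    have h1 := congrArg Prod.fst h
    have h2 := congrArg Prod.snd h
    simp only [Prod.fst_add, Prod.snd_add] at h1 h2
    unfold len at hc
    exact Prod.ext (by simp; omega) (by simp; omega)
  · rintro rfl
    have hmem : (0, n - 2) ∈ tri (K - 2) := mem_tri.2 (by simp; omega)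
    unfold mu
    rw [← Finset.add_sum_erase _ _ hmem, add_sub_right_comm]
    refine add_mem ?_ (Submodule.sum_mem _ fun a ha => ?_)
    · rw [← smul_sub]
      refine Submodule.smul_mem _ _ ?_
      rw [mon_snd, ← sub_mul]
      refine ((fil U V).up W).mul0 _ ?_ _ ?_
      · rw [yS_coeff, ← cs_sub, ← map_sub]
        have e1 : ((0, n - 2) : ℕ × ℕ) + (0, 2) = (0, n) := by
          ext <;> simp; omega
        rw [e1]
        exact cs_upTo (fy_mem ((cfP hℓ hκ S hn (d := (0, n)) (by show 2 ≤ 0 + n; omega)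
          (fun b h1 _ h2 => hT b h1 h2) (by show 0 + n ≤ K; omega)).1 rfl)) _
      · have := A0_mon (F := (fil U V).up W) t ht (0, n - 2)
        rwa [mon_snd] at this
    · rw [Finset.mem_erase] at ha
      refine hterm a ha.2 ?_
      intro h
      apply ha.1
      have h1 := congrArg Prod.fst h
      have h2 := congrArg Prod.snd h
      simp only [Prod.fst_add, Prod.snd_add] at h1 h2
      exact Prod.ext (by simp; omega) (by simp; omega)

/-- `π₀ = 0`, `π₁ = y₂`. -/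
theorem pi_side (hκ : ℓ < κ) (hK : 1 ≤ K) :
    ((yS κ ℓ S (S.P (e 0)) : AddMonoidAlgebra (AddMonoidAlgebra (Y × X → ℝ) ℝ) ℝ).coeff ℓ = 0) ∧
    ((yS κ ℓ S (S.P (e 1)) : AddMonoidAlgebra (AddMonoidAlgebra (Y × X → ℝ) ℝ) ℝ).coeff ℓ
      = cs (fy (S.v (inl (0, 1))))) := by
  rw [S.P_e hK, S.P_e hK, yS_X, yS_X, wtl_inl, wtl_inl, e_zero, e_one]
  constructor
  · rw [coeff_single_ne]
    push_cast
    intro h
    linarith
  · have : κ * ((0, 1) : ℕ × ℕ).1 + ℓ * ((0, 1) : ℕ × ℕ).2 = ℓ := by push_cast; ring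
    rw [this, coeff_single_self]

/-- The leading coefficient `μ'`. -/
theorem mu'_side (hκ : ℓ < κ) (hK : 1 ≤ K) {b : ℕ} (hb : 2 ≤ b) (hbK : b ≤ K)
    (T' : ℕ × ℕ → AddMonoidAlgebra (Y × X → ℝ) ℝ) (c : ℕ × ℕ) :
    mu' K b T' (fun i => (yS κ ℓ S (S.P (e i)) :
      AddMonoidAlgebra (AddMonoidAlgebra (Y × X → ℝ) ℝ) ℝ).coeff ℓ) c
      = fac (0, b - 2) • (T' ((0, b - 2) + c) * cs (fy (S.v (inl (0, 1)) ^ (b - 2)))) := by
  classical
  have hpi := pi_side (Y := Y) (X := X) (S := S) hκ hK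
  have hmem : (0, b - 2) ∈ (tri (K - 2)).filter (fun a => len a + 2 = b) := by
    rw [Finset.mem_filter]
    refine ⟨mem_tri.2 (by simp; omega), ?_⟩
    show 0 + (b - 2) + 2 = b
    omega
  unfold mu'
  rw [Finset.sum_eq_single_of_mem _ hmem]
  · rw [mon_snd, hpi.2, map_pow, cs_pow]
  · intro a ha hne
    rw [Finset.mem_filter] at ha
    have h1 : a.1 ≠ 0 := by
      intro h
      apply hne
      have := ha.2
      unfold len at this
      exact Prod.ext (by simp; omega) (by simp; omega)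
    rw [mon_zero_left _ hpi.1 h1, mul_zero, smul_zero]

end

/-- **The critical coefficient for two sides.** -/
theorem crit {n b m : ℕ} (hℓ : 0 < ℓ) (hκ : ℓ < κ) {S : Side (m + 1) Y} {S' : Side (m + 1) X}
    {U : Subalgebra ℝ (Y → ℝ)} {V : Subalgebra ℝ (X → ℝ)} (h : ℝ)
    (hn2 : 2 ≤ n) (hb : 2 ≤ b) (hnK : n ≤ m + 1) (hbK : b ≤ m + 1)
    (hnκ : n * ℓ < κ + ℓ) (hbκ : b * ℓ < κ + ℓ)
    (hx : ∀ i, S'.v (inl (e i)) ∈ V)
    (hT : ∀ c, 1 ≤ len c → wtl κ ℓ (inl c) < n * ℓ → S.v (inl c) ∈ U)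
    (hX : ∀ c, 1 ≤ len c → wtl κ ℓ (inr c) < n * ℓ → S.v (inr c) ∈ U)
    (hT' : ∀ c, 1 ≤ len c → len c < b → wtl κ ℓ (inl c) ≤ (n + b - 2) * ℓ → S'.v (inl c) ∈ V)
    (hX' : ∀ c, 1 ≤ len c → len c < b → wtl κ ℓ (inr c) ≤ (n + b - 2) * ℓ →
      S'.v (inr c) ∈ V) :
    ((EN κ ℓ S S' h).coeff ((n + b - 2) * ℓ)).coeff ((n + b - 2) * ℓ)
      - (fac (0, n - 2) * fac (0, b - 2)) • tn (S.v (inl (0, n)) * S.v (inl (0, 1)) ^ (b - 2))
          (S'.v (inl (0, 1)) ^ (n - 2) * S'.v (inl (0, b))) ∈ (fil U V).AP ⊔ (fil U V).AQ := by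
  have hnR : (2 : ℝ) ≤ n := by exact_mod_cast hn2
  have hbR : (2 : ℝ) ≤ b := by exact_mod_cast hb
  set W : ℝ := (n + b - 2) * ℓ with hW
  have H := hyp_of_sides (W := W) (b := b) hℓ hκ.le (S := S) (S' := S') (U := U) (V := V)
    (α := n * ℓ) (by nlinarith) hb hT hX hT' hX'
  have h1 := form_eq H (by linarith) le_rfl h m
  have e0 : (n : ℝ) * ℓ + (b - 2) * ℓ = W := by rw [hW]; ring
  rw [e0] at h1
  set F := (fil U V).up W with hF
  -- the total product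
  have ht : ∀ i, xS κ ℓ S' (S'.P (e i)) ∈ F.A0 := fun i => H.T0' (e i) (by rw [len_e]; omega)
  have hmu : ∀ c, len c = 2 → c ≠ (0, 2) → mu (m + 1) (n * ℓ) (fun a => yS κ ℓ S (S.P a))
      (fun i => xS κ ℓ S' (S'.P (e i))) c ∈ F.A0 := fun c hc hne =>
    (mu_side hℓ hκ.le hn2 hnK hnκ hT ht hc).1 hne
  have hmu2 := (mu_side (S := S) (U := U) (V := V) (K := m + 1) (W := W) hℓ hκ.le hn2 hnK hnκ hT
    ht (c := (0, 2)) rfl).2 rfl
  have hmu' : ∀ c, mu' (m + 1) b (fun c => xS κ ℓ S' (S'.P c)) (fun i => (yS κ ℓ S (S.P (e i)) :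
      AddMonoidAlgebra (AddMonoidAlgebra (Y × X → ℝ) ℝ) ℝ).coeff ℓ) c ∈ F.AP := fun c =>
    mu'_mem H c
  have hmu'2 := mu'_side (X := X) (S := S) (κ := κ) (ℓ := ℓ) (K := m + 1) hκ (by omega) hb hbK
    (fun c => xS κ ℓ S' (S'.P c)) (0, 2)
  have hAP : ∀ f g, f ∈ F.A0 → g ∈ F.AP → f * g ∈ F.AP := fun f g hf hg =>
    F.mulP _ (F.leP hf) _ hg
  have e02 : ((0, b - 2) : ℕ × ℕ) + (0, 2) = (0, b) := by ext <;> simp; omega
  rw [e02] at hmu'2
  have e11 : e 1 + e 1 = (0, 2) := rfl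
  have htot : tot (m + 1) b ℓ (n * ℓ) (fun a => yS κ ℓ S (S.P a)) (fun c => xS κ ℓ S' (S'.P c))
      - (fac (0, n - 2) • (cs (fy (S.v (inl (0, n)))) *
          (xS κ ℓ S' (S'.P (e 1))) ^ (n - 2))) *
        (fac (0, b - 2) • (xS κ ℓ S' (S'.P (0, b)) * cs (fy (S.v (inl (0, 1)) ^ (b - 2)))))
        ∈ F.AP := by
    unfold tot
    rw [e11, ← hmu'2, add_sub_assoc, ← sub_mul]
    refine add_mem (add_mem (add_mem (hAP _ _ (hmu _ rfl (by decide)) (hmu' _))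
      (hAP _ _ (hmu _ rfl (by decide)) (hmu' _))) (hAP _ _ (hmu _ rfl (by decide)) (hmu' _))) ?_
    exact hAP _ _ hmu2 (hmu' _)
  have h2 := add_mem h1 (Submodule.mem_sup_left (T := F.AQ) htot)
  rw [sub_add_sub_cancel] at h2
  have h3 := up_sup le_rfl h2
  rw [coeff_sub'] at h3
  -- the coefficient of the main product
  have hx1 : xS κ ℓ S' (S'.P (e 1)) = (single ℓ (fx (S'.v (inl (0, 1)))) :
      AddMonoidAlgebra (Y × X → ℝ) ℝ) := by
    rw [S'.P_e (by omega), xS_X, wtl_inl, e_one]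
    congr 1
    push_cast
    ring
  have e3 : ((fac (0, n - 2) • (cs (fy (S.v (inl (0, n)))) *
          (xS κ ℓ S' (S'.P (e 1))) ^ (n - 2))) *
        (fac (0, b - 2) • (xS κ ℓ S' (S'.P (0, b)) * cs (fy (S.v (inl (0, 1)) ^ (b - 2)))))
        : AddMonoidAlgebra (Y × X → ℝ) ℝ)
      = (fac (0, n - 2) * fac (0, b - 2)) • (cs (fy (S.v (inl (0, n)) *
          S.v (inl (0, 1)) ^ (b - 2))) * (single (((n - 2 : ℕ) : ℝ) * ℓ)
            (fx (S'.v (inl (0, 1)) ^ (n - 2))) * xS κ ℓ S' (S'.P (0, b)))) := by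
    rw [hx1, AddMonoidAlgebra.single_pow, nsmul_eq_mul, ← map_pow, map_mul fy, cs_mul,
      smul_mul_smul_comm]
    congr 1
    ring
  rw [e3, coeff_smul', cs_mul_coeff, single_mul_coeff] at h3
  have e4 : W - ((n - 2 : ℕ) : ℝ) * ℓ = b * ℓ := by
    rw [hW, Nat.cast_sub hn2]
    push_cast
    ring
  rw [e4, xS_coeff] at h3
  have h4 : cf (wtl κ ℓ) S'.v (S'.P (0, b)) (b * ℓ) - S'.v (inl (0, b)) ∈ V :=
    (cfP (K := m + 1) hℓ hκ.le S' hbκ (d := (0, b)) (by show 2 ≤ 0 + b; omega)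
      (fun c h1 h2 h3 => hT' c h1 (by simpa [len] using h2) (by
        have : (b : ℝ) * ℓ ≤ W := by rw [hW]; nlinarith
        linarith)) (by show 0 + b ≤ m + 1; omega)).1 rfl
  have h5 : (fac (0, n - 2) * fac (0, b - 2)) • ((fy (S.v (inl (0, n)) *
      S.v (inl (0, 1)) ^ (b - 2)) : Y × X → ℝ) * (fx (S'.v (inl (0, 1)) ^ (n - 2)) *
        fx (cf (wtl κ ℓ) S'.v (S'.P (0, b)) (b * ℓ))))
      - (fac (0, n - 2) * fac (0, b - 2)) • tn (S.v (inl (0, n)) * S.v (inl (0, 1)) ^ (b - 2))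
          (S'.v (inl (0, 1)) ^ (n - 2) * S'.v (inl (0, b))) ∈ (fil U V).AQ := by
    rw [← smul_sub]
    refine Submodule.smul_mem _ _ ?_
    have e5 : (fy (S.v (inl (0, n)) * S.v (inl (0, 1)) ^ (b - 2)) : Y × X → ℝ) *
        (fx (S'.v (inl (0, 1)) ^ (n - 2)) * fx (cf (wtl κ ℓ) S'.v (S'.P (0, b)) (b * ℓ)))
        - tn (S.v (inl (0, n)) * S.v (inl (0, 1)) ^ (b - 2))
          (S'.v (inl (0, 1)) ^ (n - 2) * S'.v (inl (0, b)))
        = tn (S.v (inl (0, n)) * S.v (inl (0, 1)) ^ (b - 2)) (S'.v (inl (0, 1)) ^ (n - 2) *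
          (cf (wtl κ ℓ) S'.v (S'.P (0, b)) (b * ℓ) - S'.v (inl (0, b)))) := by
      funext z
      show (S.v (inl (0, n)) * S.v (inl (0, 1)) ^ (b - 2)) z.1 * ((S'.v (inl (0, 1)) ^ (n - 2)) z.2
        * (cf (wtl κ ℓ) S'.v (S'.P (0, b)) (b * ℓ)) z.2) - (S.v (inl (0, n)) *
          S.v (inl (0, 1)) ^ (b - 2)) z.1 * (S'.v (inl (0, 1)) ^ (n - 2) * S'.v (inl (0, b))) z.2
        = (S.v (inl (0, n)) * S.v (inl (0, 1)) ^ (b - 2)) z.1 * (S'.v (inl (0, 1)) ^ (n - 2) *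
          (cf (wtl κ ℓ) S'.v (S'.P (0, b)) (b * ℓ) - S'.v (inl (0, b)))) z.2
      simp only [Pi.mul_apply, Pi.sub_apply]
      ring
    rw [e5]
    exact tn_mem Submodule.mem_top (V.mul_mem (V.pow_mem (hx 1) _) h4)
  have h6 := add_mem h3 (Submodule.mem_sup_right (S := (fil U V).AP) h5)
  rw [sub_add_sub_cancel] at h6
  exact h6

/-- Below the critical coefficient. -/
theorem below {n b m : ℕ} (hℓ : 0 < ℓ) (hκ : ℓ < κ) {S : Side (m + 1) Y} {S' : Side (m + 1) X}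
    {U : Subalgebra ℝ (Y → ℝ)} {V : Subalgebra ℝ (X → ℝ)} (h : ℝ) {W : ℝ}
    (hn2 : 2 ≤ n) (hb : 2 ≤ b)
    (hT : ∀ c, 1 ≤ len c → wtl κ ℓ (inl c) < n * ℓ → S.v (inl c) ∈ U)
    (hX : ∀ c, 1 ≤ len c → wtl κ ℓ (inr c) < n * ℓ → S.v (inr c) ∈ U)
    (hT' : ∀ c, 1 ≤ len c → len c < b → wtl κ ℓ (inl c) ≤ W → S'.v (inl c) ∈ V)
    (hX' : ∀ c, 1 ≤ len c → len c < b → wtl κ ℓ (inr c) ≤ W → S'.v (inr c) ∈ V)
    {w w' : ℝ} (hw : w < (n + b - 2) * ℓ) (hw' : w' ≤ W) :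
    ((EN κ ℓ S S' h).coeff w).coeff w' ∈ (fil U V).AP ⊔ (fil U V).AQ := by
  have hnR : (2 : ℝ) ≤ n := by exact_mod_cast hn2
  have H := hyp_of_sides (W := W) (b := b) hℓ hκ.le (S := S) (S' := S') (U := U) (V := V)
    (α := n * ℓ) (by nlinarith) hb hT hX hT' hX'
  have h1 := form_lt H (by linarith) le_rfl h m (w := w) (by nlinarith)
  exact up_sup hw' h1

end Vale.Agent.P207.N3.H254
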