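import Mathlib
import Vale.Agent.P207.N3.H254.Crit

/-!
# P207, line N3, package P10: removing the jet `X^_1` of the `x`-side

`S'.kill` is the side `S'` with `X^_{(1,0)}` replaced by `0`. The coefficients of the product
formula at `ε'`-exponents `≤ κ` change only by `D_w(y) X^_{(1,0)}(x)` at the exponent `κ`.
-/

open AddMonoidAlgebra Finset Sum

set_option linter.unusedSectionVars false

namespace Vale.Agent.P207.N3.H254

variable {Y X : Type*} {K : ℕ} {κ ℓ : ℝ}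

theorem eq_single_of_degree {J : Type*} {β : J →₀ ℕ} (h : β.degree = 1) {j : J}
    (hj : j ∈ β.support) : β = Finsupp.single j 1 := by
  classical
  rw [Finsupp.degree_apply, ← Finset.add_sum_erase _ _ hj] at h
  have h1 : β j ≠ 0 := Finsupp.mem_support_iff.1 hj
  have h2 : ∑ x ∈ β.support.erase j, β x = 0 := by omega
  have h3 : β j = 1 := by omega
  ext i
  by_cases hi : i = j
  · rw [hi, Finsupp.single_eq_same, h3]
  · rw [Finsupp.single_eq_of_ne hi]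
    by_contra h4
    have h5 := (Finset.sum_eq_zero_iff.1 h2) i
      (Finset.mem_erase.2 ⟨hi, Finsupp.mem_support_iff.2 h4⟩)
    exact h4 h5

/-- Replace `X^_{(1,0)}` by `0`. -/
noncomputable def Side.kill (S : Side K X) : Side K X :=
  { S with v := fun j => by classical exact if j = inr (1, 0) then 0 else S.v j }

theorem Side.kill_v (S : Side K X) {j : Lb} (hj : j ≠ inr (1, 0)) : S.kill.v j = S.v j := by
  unfold Side.kill
  exact if_neg hj

theorem Side.kill_v0 (S : Side K X) : S.kill.v (inr (1, 0)) = 0 := by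
  unfold Side.kill
  simp

theorem Side.kill_inl (S : Side K X) (a : ℕ × ℕ) : S.kill.v (inl a) = S.v (inl a) :=
  S.kill_v (by simp)

/-! ### Exponents of `ε'` -/

/-- All the coefficients have `ε'`-exponents `≥ o`. -/
def Gx {A : Type*} [CommRing A] [Algebra ℝ A] (o : ℝ) :
    Submodule ℝ (AddMonoidAlgebra (AddMonoidAlgebra A ℝ) ℝ) where
  carrier := {f | ∀ w, Ge o (f.coeff w)}
  add_mem' := by
    intro f g hf hg w w' hw
    rw [coeff_add', coeff_add', hf w w' hw, hg w w' hw, add_zero]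
  zero_mem' := by
    intro w w' _
    rw [AddMonoidAlgebra.coeff_zero, Finsupp.zero_apply, AddMonoidAlgebra.coeff_zero,
      Finsupp.zero_apply]
  smul_mem' := by
    intro c f hf w w' hw
    rw [coeff_smul', coeff_smul', hf w w' hw, smul_zero]

section

variable {A : Type*} [CommRing A] [Algebra ℝ A]

theorem Gx_mul {o o' : ℝ} {f g : AddMonoidAlgebra (AddMonoidAlgebra A ℝ) ℝ} (hf : f ∈ Gx o)
    (hg : g ∈ Gx o') : f * g ∈ Gx (o + o') := by
  intro w w' hw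
  rw [coeff_mul_eq]
  have key : ∀ s : Finset ℝ, (∑ u ∈ s, f.coeff u * g.coeff (w - u)).coeff w' = 0 := by
    classical
    intro s
    induction s using Finset.induction_on with
    | empty => simp
    | insert a s ha ih =>
      rw [Finset.sum_insert ha, coeff_add', ih, add_zero]
      exact Ge.mul (hf a) (hg (w - a)) w' hw
  exact key _

theorem Gx_mono {o o' : ℝ} (h : o' ≤ o) : (Gx o : Submodule ℝ
    (AddMonoidAlgebra (AddMonoidAlgebra A ℝ) ℝ)) ≤ Gx o' :=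
  fun _ hf w => (hf w).mono h

theorem Gx_one : (1 : AddMonoidAlgebra (AddMonoidAlgebra A ℝ) ℝ) ∈ Gx 0 := by
  intro w
  by_cases hw : w = 0
  · rw [hw, coeff_one_zero]; exact Ge.one
  · rw [coeff_one_ne hw]
    intro w' _
    rw [AddMonoidAlgebra.coeff_zero, Finsupp.zero_apply]

theorem Gx_single {o w : ℝ} {f : AddMonoidAlgebra A ℝ} (hf : Ge o f) :
    (single w f : AddMonoidAlgebra (AddMonoidAlgebra A ℝ) ℝ) ∈ Gx o := by
  intro u
  by_cases h : w = u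
  · rw [h, coeff_single_self]; exact hf
  · rw [coeff_single_ne _ h]
    intro w' _
    rw [AddMonoidAlgebra.coeff_zero, Finsupp.zero_apply]

theorem Gx_pow0 {f : AddMonoidAlgebra (AddMonoidAlgebra A ℝ) ℝ} (hf : f ∈ Gx 0) (n : ℕ) :
    f ^ n ∈ Gx 0 := by
  induction n with
  | zero => rw [pow_zero]; exact Gx_one
  | succ n ih =>
    rw [pow_succ]
    have := Gx_mul ih hf
    rwa [add_zero] at this

theorem Gx_mon0 {q : Fin 2 → AddMonoidAlgebra (AddMonoidAlgebra A ℝ) ℝ} (hq : ∀ i, q i ∈ Gx 0)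
    (a : ℕ × ℕ) : mon q a ∈ Gx 0 := by
  have := Gx_mul (Gx_pow0 (hq 0) a.1) (Gx_pow0 (hq 1) a.2)
  rwa [add_zero] at this

theorem Gx_mon {o : ℝ} (ho : 0 ≤ o) {q : Fin 2 → AddMonoidAlgebra (AddMonoidAlgebra A ℝ) ℝ}
    (hq : ∀ i, q i ∈ Gx o) {a : ℕ × ℕ} (ha : a ≠ (0, 0)) : mon q a ∈ Gx o := by
  have hq0 : ∀ i, q i ∈ Gx 0 := fun i => Gx_mono ho (hq i)
  have h1 : a.1 ≠ 0 ∨ a.2 ≠ 0 := by
    by_contra hc
    push Not at hc
    exact ha (Prod.ext hc.1 hc.2)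
  unfold mon
  rcases h1 with h | h
  · obtain ⟨n, hn⟩ := Nat.exists_eq_succ_of_ne_zero h
    rw [hn, pow_succ]
    have h2 := Gx_mul (Gx_mul (Gx_pow0 (hq0 0) n) (hq 0)) (Gx_pow0 (hq0 1) a.2)
    rwa [zero_add, add_zero] at h2
  · obtain ⟨n, hn⟩ := Nat.exists_eq_succ_of_ne_zero h
    rw [hn, pow_succ]
    have h2 := Gx_mul (Gx_pow0 (hq0 0) a.1) (Gx_mul (Gx_pow0 (hq0 1) n) (hq 1))
    rwa [zero_add, zero_add] at h2

theorem Gx_pow_sub {o : ℝ} {f g : AddMonoidAlgebra (AddMonoidAlgebra A ℝ) ℝ} (hf : f ∈ Gx 0)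
    (hg : g ∈ Gx 0) (h : f - g ∈ Gx o) (n : ℕ) : f ^ n - g ^ n ∈ Gx o := by
  induction n with
  | zero => rw [pow_zero, pow_zero, sub_self]; exact zero_mem _
  | succ n ih =>
    have e1 : f ^ (n + 1) - g ^ (n + 1) = f ^ n * (f - g) + (f ^ n - g ^ n) * g := by ring
    rw [e1]
    have h1 := Gx_mul (Gx_pow0 hf n) h
    have h2 := Gx_mul ih hg
    rw [zero_add] at h1
    rw [add_zero] at h2
    exact add_mem h1 h2

theorem Gx_mon_sub {o : ℝ} {q r : Fin 2 → AddMonoidAlgebra (AddMonoidAlgebra A ℝ) ℝ}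
    (hq : ∀ i, q i ∈ Gx 0) (hr : ∀ i, r i ∈ Gx 0) (h : ∀ i, q i - r i ∈ Gx o) (a : ℕ × ℕ) :
    mon q a - mon r a ∈ Gx o := by
  have e1 : mon q a - mon r a = q 0 ^ a.1 * (q 1 ^ a.2 - r 1 ^ a.2)
      + (q 0 ^ a.1 - r 0 ^ a.1) * r 1 ^ a.2 := by
    unfold mon; ring
  rw [e1]
  have h1 := Gx_mul (Gx_pow0 (hq 0) a.1) (Gx_pow_sub (hq 1) (hr 1) (h 1) a.2)
  have h2 := Gx_mul (Gx_pow_sub (hq 0) (hr 0) (h 0) a.1) (Gx_pow0 (hr 1) a.2)
  rw [zero_add] at h1
  rw [add_zero] at h2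
  exact add_mem h1 h2

end

/-! ### The jets of the two sides -/

section

variable {S : Side K Y} {S' : Side K X}

theorem yS_Gx (p : MvPolynomial Lb ℝ) :
    (yS κ ℓ S p : AddMonoidAlgebra (AddMonoidAlgebra (Y × X → ℝ) ℝ) ℝ) ∈ Gx 0 := by
  intro w
  rw [yS_coeff]
  exact cs_ge _

theorem xS_Ge {o : ℝ} (p : MvPolynomial Lb ℝ) (h : ∀ α ∈ p.support, o ≤ wm (wtl κ ℓ) α) :
    Ge o (xS κ ℓ S' p : AddMonoidAlgebra (Y × X → ℝ) ℝ) := by
  intro w hw
  rw [xS_coeff, cf_eq_zero, map_zero]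
  intro α hα h'
  have := h α hα
  linarith

theorem cs_Gx {o : ℝ} {f : AddMonoidAlgebra (Y × X → ℝ) ℝ} (hf : Ge o f) :
    (cs f : AddMonoidAlgebra (AddMonoidAlgebra (Y × X → ℝ) ℝ) ℝ) ∈ Gx o := Gx_single hf

theorem xP_Gx (hℓ : 0 < ℓ) (hκ : ℓ ≤ κ) (c : ℕ × ℕ) :
    (cs (xS κ ℓ S' (S'.P c)) : AddMonoidAlgebra (AddMonoidAlgebra (Y × X → ℝ) ℝ) ℝ) ∈ Gx ℓ :=
  cs_Gx (xS_Ge _ fun _ hα => ge_of_ne hℓ (S'.P_ne hα) fun _ hj => S'.P_wt hℓ hκ hα hj)

/-- The iterates: `q ∈ Gx ℓ`, `p ≡ (T_e)` modulo `Gx ℓ`. -/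
theorem it_Gx (hℓ : 0 < ℓ) (hκ : ℓ ≤ κ) (n : ℕ) :
    (∀ i, (it K (fun a => yS κ ℓ S (S.P a)) (fun c => (cs (xS κ ℓ S' (S'.P c)) :
      AddMonoidAlgebra (AddMonoidAlgebra (Y × X → ℝ) ℝ) ℝ)) n).2 i ∈ Gx ℓ) ∧
    (∀ i, (it K (fun a => yS κ ℓ S (S.P a)) (fun c => (cs (xS κ ℓ S' (S'.P c)) :
      AddMonoidAlgebra (AddMonoidAlgebra (Y × X → ℝ) ℝ) ℝ)) (n + 1)).1 i
      - yS κ ℓ S (S.P (e i)) ∈ Gx ℓ) := by
  have step : ∀ q : Fin 2 → AddMonoidAlgebra (AddMonoidAlgebra (Y × X → ℝ) ℝ) ℝ,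
      (∀ i, q i ∈ Gx ℓ) → ∀ i, gr K (fun a => yS κ ℓ S (S.P a)) q i
        - yS κ ℓ S (S.P (e i)) ∈ Gx ℓ := by
    intro q hq i
    classical
    unfold gr ev
    have hmem : ((0, 0) : ℕ × ℕ) ∈ tri (K - 1) := mem_tri.2 (by simp)
    rw [← Finset.add_sum_erase _ _ hmem]
    have e1 : fac (0, 0) • (sh (fun a => yS κ ℓ S (S.P a)) (e i) (0, 0) * mon q (0, 0))
        = (yS κ ℓ S (S.P (e i)) : AddMonoidAlgebra (AddMonoidAlgebra (Y × X → ℝ) ℝ) ℝ) := by
      rw [mon_zero, mul_one]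
      have h1 : fac (0, 0) = 1 := by unfold fac; simp
      rw [h1, one_smul]
      unfold sh
      rw [show ((0, 0) : ℕ × ℕ) = 0 from rfl, zero_add]
    have e5 : ∀ a b : AddMonoidAlgebra (AddMonoidAlgebra (Y × X → ℝ) ℝ) ℝ, a + b - a = b :=
      fun a b => by ring
    rw [e1, e5]
    refine Submodule.sum_mem _ fun a ha => Submodule.smul_mem _ _ ?_
    rw [Finset.mem_erase] at ha
    have h2 := Gx_mul (yS_Gx (κ := κ) (ℓ := ℓ) (S := S) (X := X) (S.P (a + e i)))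
      (Gx_mon hℓ.le hq ha.1)
    rw [zero_add] at h2
    exact h2
  have step' : ∀ p : Fin 2 → AddMonoidAlgebra (AddMonoidAlgebra (Y × X → ℝ) ℝ) ℝ,
      (∀ i, p i ∈ Gx 0) → ∀ i, gr K (fun c => (cs (xS κ ℓ S' (S'.P c)) :
        AddMonoidAlgebra (AddMonoidAlgebra (Y × X → ℝ) ℝ) ℝ)) p i ∈ Gx ℓ := by
    intro p hp i
    unfold gr ev
    refine Submodule.sum_mem _ fun a _ => Submodule.smul_mem _ _ ?_
    have h2 := Gx_mul (xP_Gx (Y := Y) (S' := S') hℓ hκ (a + e i)) (Gx_mon0 hp a)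
    rw [add_zero] at h2
    exact h2
  have hp0 : ∀ q : Fin 2 → AddMonoidAlgebra (AddMonoidAlgebra (Y × X → ℝ) ℝ) ℝ,
      (∀ i, q i ∈ Gx ℓ) → ∀ i, gr K (fun a => yS κ ℓ S (S.P a)) q i ∈ Gx 0 := by
    intro q hq i
    have h1 := step q hq i
    have h2 := add_mem (Gx_mono hℓ.le h1) (yS_Gx (κ := κ) (ℓ := ℓ) (S := S) (X := X) (S.P (e i)))
    rwa [sub_add_cancel] at h2
  induction n with
  | zero =>
    have h0 : ∀ i, ((0 : Fin 2 → AddMonoidAlgebra (AddMonoidAlgebra (Y × X → ℝ) ℝ) ℝ)) i ∈ Gx ℓ :=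
      fun i => zero_mem _
    exact ⟨h0, step _ h0⟩
  | succ n ih =>
    have h1 : ∀ i, (it K (fun a => yS κ ℓ S (S.P a)) (fun c => (cs (xS κ ℓ S' (S'.P c)) :
      AddMonoidAlgebra (AddMonoidAlgebra (Y × X → ℝ) ℝ) ℝ)) (n + 1)).2 i ∈ Gx ℓ := by
      intro i
      rw [it_succ_snd]
      refine step' _ (fun i => ?_) i
      rw [it_succ_fst]
      exact hp0 _ ih.1 i
    exact ⟨h1, step _ h1⟩

/-- The coefficient of the monomial `X^_{(1,0)}` in `X_c`. -/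
noncomputable def mX (S' : Side K X) (c : ℕ × ℕ) : ℝ :=
  (S'.Q c).coeff (Finsupp.single (inr (1, 0)) 1)

/-- The difference of the `X`-jets of `S'` and `S'.kill`. -/
theorem kill_diff (hℓ : 0 < ℓ) (hκ : ℓ ≤ κ) (c : ℕ × ℕ) {w : ℝ} (hw : w ≤ κ) :
    ((xS κ ℓ S' (S'.Q c) - xS κ ℓ S'.kill (S'.kill.Q c) :
      AddMonoidAlgebra (Y × X → ℝ) ℝ)).coeff w
      = if w = κ then mX S' c • fx (S'.v (inr (1, 0))) else 0 := by
  classical
  rw [coeff_sub', xS_coeff, xS_coeff, ← map_sub]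
  have hQ : S'.kill.Q = S'.Q := rfl
  rw [hQ]
  unfold cf
  rw [← Finset.sum_sub_distrib]
  have key : ∀ β ∈ (S'.Q c).support, wm (wtl κ ℓ) β = w → β ≠ Finsupp.single (inr (1, 0)) 1 →
      (S'.Q c).coeff β • (vm S'.v β : X → ℝ) - (S'.Q c).coeff β • vm S'.kill.v β = 0 := by
    intro β hβ hwβ hne
    rw [← smul_sub]
    have : (vm S'.v β : X → ℝ) = vm S'.kill.v β := by
      unfold vm
      refine Finset.prod_congr rfl fun j hj => ?_
      rw [S'.kill_v]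
      rintro rfl
      have h1 := factor_le hℓ (fun j hj => S'.Q_wt (κ := κ) hℓ hκ hβ hj) hj
      have h2 : β.degree ≠ 0 := by
        rw [Ne, Finsupp.degree_eq_zero_iff]; exact S'.Q_ne hβ
      have h3 : wtl κ ℓ (inr (1, 0)) = κ := by
        rw [wtl_inr]; push_cast; ring
      rw [h3, hwβ] at h1
      have h4 : β.degree = 1 := by
        by_contra h5
        have h6 : (2 : ℝ) ≤ β.degree := by
          have : 2 ≤ β.degree := by omega
          exact_mod_cast this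
        nlinarith
      exact hne (eq_single_of_degree h4 hj)
    rw [this, sub_self, smul_zero]
  by_cases hwκ : w = κ
  · rw [if_pos hwκ]
    by_cases hm : Finsupp.single (inr (1, 0)) 1 ∈ (S'.Q c).support
    · have hmem : Finsupp.single (inr (1, 0)) 1 ∈
          (S'.Q c).support.filter (fun β => wm (wtl κ ℓ) β = w) := by
        rw [Finset.mem_filter, wm_single, wtl_inr, hwκ]
        exact ⟨hm, by push_cast; ring⟩
      rw [Finset.sum_eq_single_of_mem _ hmem]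
      · rw [vm_single, vm_single, S'.kill_v0, smul_zero, sub_zero, map_smul]
        rfl
      · intro β hβ hne
        rw [Finset.mem_filter] at hβ
        exact key β hβ.1 hβ.2 hne
    · have hm' : mX S' c = 0 := MvPolynomial.notMem_support_iff.1 hm
      rw [hm', zero_smul, Finset.sum_eq_zero, map_zero]
      intro β hβ
      rw [Finset.mem_filter] at hβ
      exact key β hβ.1 hβ.2 fun h => hm (h ▸ hβ.1)
  · rw [if_neg hwκ, Finset.sum_eq_zero, map_zero]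
    intro β hβ
    rw [Finset.mem_filter] at hβ
    refine key β hβ.1 hβ.2 ?_
    rintro rfl
    have h3 : wtl κ ℓ (inr (1, 0)) = κ := by
      rw [wtl_inr]; push_cast; ring
    rw [wm_single, h3] at hβ
    exact hwκ hβ.2.symm

/-- `D_w(y)`: the factor of `X^_{(1,0)}(x)`. -/
noncomputable def DD (κ ℓ : ℝ) (S : Side K Y) (S' : Side K X) (w : ℝ) : Y → ℝ := by
  classical exact ∑ c ∈ tri K, (fac c * mX S' c) •
    (if κ * c.1 + ℓ * c.2 = w then mon (fun i => S.v (inl (e i))) c else 0)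

theorem mon_yS (hK : 1 ≤ K) (c : ℕ × ℕ) :
    mon (fun i => (yS κ ℓ S (S.P (e i)) :
      AddMonoidAlgebra (AddMonoidAlgebra (Y × X → ℝ) ℝ) ℝ)) c
      = single (κ * c.1 + ℓ * c.2) (cs (fy (mon (fun i => S.v (inl (e i))) c))) := by
  have e0 : (yS κ ℓ S (S.P (e 0)) : AddMonoidAlgebra (AddMonoidAlgebra (Y × X → ℝ) ℝ) ℝ)
      = single κ (cs (fy (S.v (inl (e 0))))) := by
    rw [S.P_e hK, yS_X, wtl_inl, e_zero]
    congr 1
    push_cast; ring
  have e1 : (yS κ ℓ S (S.P (e 1)) : AddMonoidAlgebra (AddMonoidAlgebra (Y × X → ℝ) ℝ) ℝ)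
      = single ℓ (cs (fy (S.v (inl (e 1))))) := by
    rw [S.P_e hK, yS_X, wtl_inl, e_one]
    congr 1
    push_cast; ring
  show (yS κ ℓ S (S.P (e 0))) ^ c.1 * (yS κ ℓ S (S.P (e 1))) ^ c.2 = _
  rw [e0, e1, AddMonoidAlgebra.single_pow, AddMonoidAlgebra.single_pow,
    AddMonoidAlgebra.single_mul_single, nsmul_eq_mul, nsmul_eq_mul, ← cs_pow, ← cs_pow,
    ← cs_mul, ← map_pow, ← map_pow, ← map_mul]
  congr 1
  ring

/-- **The difference of the product formulas.** -/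
theorem EN_kill (hℓ : 0 < ℓ) (hκ : ℓ ≤ κ) (hK : 1 ≤ K) (h : ℝ) (w : ℝ) {w' : ℝ} (hw' : w' ≤ κ) :
    ((EN κ ℓ S S' h).coeff w).coeff w' - ((EN κ ℓ S S'.kill h).coeff w).coeff w'
      = if w' = κ then tn (DD κ ℓ S S' w) (S'.v (inr (1, 0))) else 0 := by
  classical
  have hP : ∀ c, (xS κ ℓ S'.kill (S'.kill.P c) : AddMonoidAlgebra (Y × X → ℝ) ℝ)
      = xS κ ℓ S' (S'.P c) := by
    intro c
    have hPP : S'.kill.P = S'.P := rfl
    rw [hPP]
    apply AddMonoidAlgebra.ext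
    apply Finsupp.ext
    intro u
    rw [xS_coeff, xS_coeff]
    congr 1
    unfold cf
    refine Finset.sum_congr rfl fun β hβ => ?_
    rw [Finset.mem_filter] at hβ
    congr 1
    unfold vm
    refine Finset.prod_congr rfl fun j hj => ?_
    obtain ⟨b, rfl, -⟩ := S'.P_var hβ.1 hj
    rw [S'.kill_inl]
  obtain ⟨n, rfl⟩ : ∃ n, K = n + 1 := ⟨K - 1, by omega⟩
  obtain ⟨-, hp⟩ := it_Gx (S := S) (S' := S') hℓ hκ n
  set p := (it (n + 1) (fun a => yS κ ℓ S (S.P a)) (fun c => (cs (xS κ ℓ S' (S'.P c)) :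
      AddMonoidAlgebra (AddMonoidAlgebra (Y × X → ℝ) ℝ) ℝ)) (n + 1)).1 with hpdef
  have hp0 : ∀ i, p i ∈ Gx 0 := fun i => by
    have := add_mem (Gx_mono hℓ.le (hp i))
      (yS_Gx (κ := κ) (ℓ := ℓ) (S := S) (X := X) (S.P (e i)))
    rwa [sub_add_cancel] at this
  have e1 : EN κ ℓ S S' h - EN κ ℓ S S'.kill h
      = ∑ c ∈ tri (n + 1), fac c • (cs (xS κ ℓ S' (S'.Q c) - xS κ ℓ S'.kill (S'.kill.Q c))
        * mon p c) := by
    unfold EN EK FK
    simp only [hP]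
    rw [← hpdef]
    have e2 : ev (n + 1) (fun a => cs (xS κ ℓ S' (S'.Q a))) p
        - ev (n + 1) (fun a => cs (xS κ ℓ S'.kill (S'.kill.Q a))) p
        = ∑ c ∈ tri (n + 1), fac c • (cs (xS κ ℓ S' (S'.Q c)
          - xS κ ℓ S'.kill (S'.kill.Q c)) * mon p c) := by
      unfold ev
      rw [← Finset.sum_sub_distrib]
      refine Finset.sum_congr rfl fun c _ => ?_
      rw [← smul_sub, cs_sub, sub_mul]
    rw [← e2]
    ring
  rw [← coeff_sub', ← coeff_sub', e1, coeff_sum_smul]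
  have e3 : ∀ c ∈ tri (n + 1), ((cs (xS κ ℓ S' (S'.Q c) - xS κ ℓ S'.kill (S'.kill.Q c))
        * mon p c : AddMonoidAlgebra (AddMonoidAlgebra (Y × X → ℝ) ℝ) ℝ).coeff w).coeff w'
      = if w' = κ then (mX S' c) • (fx (S'.v (inr (1, 0))) *
        (if κ * c.1 + ℓ * c.2 = w then fy (mon (fun i => S.v (inl (e i))) c) else 0))
        else 0 := by
    intro c _
    set Δ : AddMonoidAlgebra (Y × X → ℝ) ℝ := xS κ ℓ S' (S'.Q c)
      - xS κ ℓ S'.kill (S'.kill.Q c) with hΔ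
    have hΔG : Ge κ Δ := by
      intro u hu
      have := kill_diff (Y := Y) (S' := S') hℓ hκ c (w := u) hu.le
      rw [← hΔ] at this
      rw [this, if_neg hu.ne]
    have h1 : mon p c - mon (fun i => (yS κ ℓ S (S.P (e i)) :
        AddMonoidAlgebra (AddMonoidAlgebra (Y × X → ℝ) ℝ) ℝ)) c ∈ Gx ℓ :=
      Gx_mon_sub hp0 (fun i => yS_Gx _) hp c
    have h2 := Gx_mul (cs_Gx hΔG) h1
    have h3 := h2 w w' (by linarith)
    rw [mul_sub, coeff_sub', coeff_sub', sub_eq_zero] at h3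
    rw [h3, mon_yS hK, cs_mul_coeff]
    by_cases hc : κ * c.1 + ℓ * c.2 = w
    · rw [if_pos hc, ← hc, coeff_single_self, mul_comm, cs_mul_coeff, kill_diff hℓ hκ c hw']
      split_ifs
      · rw [mul_smul_comm, mul_comm]
      · rw [mul_zero]
    · rw [if_neg hc, coeff_single_ne _ hc, mul_zero, mul_zero, smul_zero,
        AddMonoidAlgebra.coeff_zero, Finsupp.zero_apply]
      split_ifs <;> rfl
  have e4 : ∀ s : Finset (ℕ × ℕ), ∀ f : ℕ × ℕ → AddMonoidAlgebra (Y × X → ℝ) ℝ,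
      (∑ c ∈ s, fac c • f c).coeff w' = ∑ c ∈ s, fac c • (f c).coeff w' := by
    intro s f
    exact coeff_sum_smul s _ f w'
  rw [e4, Finset.sum_congr rfl fun c hc => by rw [e3 c hc]]
  by_cases hwκ : w' = κ
  · rw [if_pos hwκ]
    unfold DD
    funext z
    rw [Finset.sum_apply]
    show _ = (∑ c ∈ tri (n + 1), (fac c * mX S' c) •
      (if κ * c.1 + ℓ * c.2 = w then mon (fun i => S.v (inl (e i))) c else 0) : Y → ℝ) z.1
        * S'.v (inr (1, 0)) z.2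
    rw [Finset.sum_apply, Finset.sum_mul]
    refine Finset.sum_congr rfl fun c _ => ?_
    rw [if_pos hwκ]
    split_ifs
    · show fac c * (mX S' c * (S'.v (inr (1, 0)) z.2 * (mon (fun i => S.v (inl (e i))) c) z.1))
        = (fac c * mX S' c) * (mon (fun i => S.v (inl (e i))) c) z.1 * S'.v (inr (1, 0)) z.2
      ring
    · show fac c * (mX S' c * (S'.v (inr (1, 0)) z.2 * 0))
        = (fac c * mX S' c) * 0 * S'.v (inr (1, 0)) z.2
      ring
  · rw [if_neg hwκ]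
    refine Finset.sum_eq_zero fun c _ => ?_
    rw [if_neg hwκ, smul_zero]

end

end Vale.Agent.P207.N3.H254
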