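import Mathlib
import Vale.Agent.P207.N3.H254.Diff

/-!
# P207, line N3, package P10: regularity of the `X`-jets from regular `T`-jets
-/

open AddMonoidAlgebra Finset Sum

set_option linter.unusedSectionVars false

namespace Vale.Agent.P207.N3.H254

/-! ### Membership in a subalgebra -/

section mem

variable {R : Type*} [CommRing R] [Algebra ℝ R] (𝒮 : Subalgebra ℝ R)

theorem mon_memS {q : Fin 2 → R} (hq : ∀ i, q i ∈ 𝒮) (a : ℕ × ℕ) : mon q a ∈ 𝒮 :=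
  𝒮.mul_mem (𝒮.pow_mem (hq 0) _) (𝒮.pow_mem (hq 1) _)

theorem ev_memS {K : ℕ} {T : ℕ × ℕ → R} (hT : ∀ a, T a ∈ 𝒮) {q : Fin 2 → R}
    (hq : ∀ i, q i ∈ 𝒮) : ev K T q ∈ 𝒮 :=
  𝒮.sum_mem fun a _ => 𝒮.smul_mem (𝒮.mul_mem (hT a) (mon_memS 𝒮 hq a)) _

theorem gr_memS {K : ℕ} {T : ℕ × ℕ → R} (hT : ∀ a, T a ∈ 𝒮) {q : Fin 2 → R}
    (hq : ∀ i, q i ∈ 𝒮) (i : Fin 2) : gr K T q i ∈ 𝒮 := ev_memS 𝒮 (fun _ => hT _) hq

theorem he_memS {K : ℕ} {T : ℕ × ℕ → R} (hT : ∀ a, T a ∈ 𝒮) {q : Fin 2 → R}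
    (hq : ∀ i, q i ∈ 𝒮) (i j : Fin 2) : he K T q i j ∈ 𝒮 := ev_memS 𝒮 (fun _ => hT _) hq

theorem it_memS {K : ℕ} {T T' : ℕ × ℕ → R} (hT : ∀ a, T a ∈ 𝒮) (hT' : ∀ a, T' a ∈ 𝒮) (n : ℕ) :
    (∀ i, (it K T T' n).1 i ∈ 𝒮) ∧ ∀ i, (it K T T' n).2 i ∈ 𝒮 := by
  induction n with
  | zero => exact ⟨fun i => 𝒮.zero_mem, fun i => 𝒮.zero_mem⟩
  | succ n ih =>
    have h1 : ∀ i, (it K T T' (n + 1)).1 i ∈ 𝒮 := fun i => gr_memS 𝒮 hT ih.2 i
    exact ⟨h1, fun i => gr_memS 𝒮 hT' h1 i⟩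

theorem lo_memS {M M' : Fin 2 → Fin 2 → R} (hM : ∀ i j, M i j ∈ 𝒮) (hM' : ∀ i j, M' i j ∈ 𝒮) :
    lo M M' ∈ 𝒮 := by
  unfold lo
  exact 𝒮.sub_mem (𝒮.add_mem (𝒮.add_mem (𝒮.add_mem (𝒮.mul_mem (hM _ _) (hM' _ _))
    (𝒮.mul_mem (hM _ _) (hM' _ _))) (𝒮.mul_mem (hM _ _) (hM' _ _)))
    (𝒮.mul_mem (hM _ _) (hM' _ _)))
    (𝒮.mul_mem (𝒮.sub_mem (𝒮.mul_mem (hM _ _) (hM _ _)) (𝒮.mul_mem (hM _ _) (hM _ _)))
      (𝒮.sub_mem (𝒮.mul_mem (hM' _ _) (hM' _ _)) (𝒮.mul_mem (hM' _ _) (hM' _ _))))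

theorem ml_memS {K : ℕ} {L : R} (hL : L ∈ 𝒮) : ml K L ∈ 𝒮 :=
  𝒮.sum_mem fun _ _ => 𝒮.smul_mem (𝒮.pow_mem hL _) _

/-- Everything but the term with the `X`-jets of the first side. -/
theorem EK_sub_memS {K : ℕ} (h : ℝ) {T X T' X' : ℕ × ℕ → R} (hT : ∀ a, T a ∈ 𝒮)
    (hT' : ∀ a, T' a ∈ 𝒮) (hX' : ∀ a, X' a ∈ 𝒮) :
    EK K h T X T' X' - ev K X (it K T T' K).2 ∈ 𝒮 := by
  obtain ⟨hp, hq⟩ := it_memS 𝒮 (K := K) hT hT' K
  have e1 : EK K h T X T' X' - ev K X (it K T T' K).2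
      = ev K X' (it K T T' K).1 - h • (ev K T (it K T T' K).2 + ev K T' (it K T T' K).1
        - ((it K T T' K).1 0 * (it K T T' K).2 0 + (it K T T' K).1 1 * (it K T T' K).2 1))
        + ml K (lo (he K T (it K T T' K).2) (he K T' (it K T T' K).1)) := by
    unfold EK FK; ring
  rw [e1]
  exact 𝒮.add_mem (𝒮.sub_mem (ev_memS 𝒮 hX' hp) (𝒮.smul_mem (𝒮.sub_mem (𝒮.add_mem
    (ev_memS 𝒮 hT hq) (ev_memS 𝒮 hT' hp)) (𝒮.add_mem (𝒮.mul_mem (hp 0) (hq 0))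
      (𝒮.mul_mem (hp 1) (hq 1)))) _)) (ml_memS 𝒮 (lo_memS 𝒮 (he_memS 𝒮 hT hq)
        (he_memS 𝒮 hT' hp)))

theorem EK_memS {K : ℕ} (h : ℝ) {T X T' X' : ℕ × ℕ → R} (hT : ∀ a, T a ∈ 𝒮)
    (hX : ∀ a, X a ∈ 𝒮) (hT' : ∀ a, T' a ∈ 𝒮) (hX' : ∀ a, X' a ∈ 𝒮) :
    EK K h T X T' X' ∈ 𝒮 := by
  have h1 := EK_sub_memS 𝒮 (K := K) h (X := X) hT hT' hX'
  have h2 := ev_memS 𝒮 (K := K) hX (it_memS 𝒮 (K := K) hT hT' K).2
  have := 𝒮.add_mem h1 h2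
  rwa [sub_add_cancel] at this

end mem

variable {Y X : Type*} {K : ℕ} {κ ℓ : ℝ}

/-- A submodule `upTo M W` as a subalgebra. -/
noncomputable def upAlg {A : Type*} [CommRing A] [Algebra ℝ A] (M : Submodule ℝ A)
    (h1 : (1 : A) ∈ M) (hmul : ∀ a ∈ M, ∀ b ∈ M, a * b ∈ M) (W : ℝ) :
    Subalgebra ℝ (AddMonoidAlgebra A ℝ) :=
  (upTo M W).toSubalgebra (upTo_one h1 W) fun _ _ ha hb => upTo_mul hmul ha hb

theorem mem_upAlg {A : Type*} [CommRing A] [Algebra ℝ A] {M : Submodule ℝ A}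
    {h1 : (1 : A) ∈ M} {hmul : ∀ a ∈ M, ∀ b ∈ M, a * b ∈ M} {W : ℝ}
    {f : AddMonoidAlgebra A ℝ} : f ∈ upAlg M h1 hmul W ↔ f ∈ upTo M W := Iff.rfl

section

variable {S : Side K Y} {S' : Side K X} {U : Subalgebra ℝ (Y → ℝ)}

/-- **(XY)** Regularity of the `X`-jets, series form. -/
theorem xy_series (hℓ : 0 < ℓ) (hκ : ℓ ≤ κ) (hK : 1 ≤ K) (h : ℝ) {w w' : ℝ}
    (hT : ∀ c, 1 ≤ len c → wtl κ ℓ (inl c) ≤ w → S.v (inl c) ∈ U)
    (hX : ∀ c, 1 ≤ len c → wtl κ ℓ (inr c) < w → S.v (inr c) ∈ U) :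
    ((EN κ ℓ S S' h).coeff w).coeff w'
      - ∑ a ∈ (tri K).filter (fun a => κ * a.1 + ℓ * a.2 = w'),
        fac a • tn (cf (wtl κ ℓ) S.v (S.Q a) w) (mon (fun i => S'.v (inl (e i))) a)
        ∈ sp (Subalgebra.toSubmodule U) (⊤ : Submodule ℝ (X → ℝ)) := by
  classical
  obtain ⟨n, rfl⟩ : ∃ n, K = n + 1 := ⟨K - 1, by omega⟩
  set F := (fil U (⊤ : Subalgebra ℝ (X → ℝ))).up w' with hF
  set 𝒮 := upAlg F.AP (F.leP F.one) F.mulP w with h𝒮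
  have hFP : ∀ f : AddMonoidAlgebra (Y × X → ℝ) ℝ, f ∈ F.AP → (cs f) ∈ 𝒮 := fun f hf =>
    mem_upAlg.2 (cs_upTo hf w)
  have hVP := fun c => (xS_P (V := ⊤) (Y := Y) (W := w') (b := 0) (κ := κ) hℓ hκ S' U
    (fun _ _ h => absurd h (by omega)) c).2
  have hVQ := fun c => (xS_Q (V := ⊤) (Y := Y) (W := w') (b := 0) (κ := κ) hℓ hκ S' U
    (fun _ _ h => absurd h (by omega)) (fun _ _ h => absurd h (by omega)) c).2
  have mT' : ∀ c, cs (xS κ ℓ S' (S'.P c)) ∈ 𝒮 := fun c => hFP _ (hVP c)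
  have mX' : ∀ c, cs (xS κ ℓ S' (S'.Q c)) ∈ 𝒮 := fun c => hFP _ (hVQ c)
  have mT : ∀ a, (yS κ ℓ S (S.P a) : AddMonoidAlgebra (AddMonoidAlgebra (Y × X → ℝ) ℝ) ℝ)
      ∈ 𝒮 := by
    intro a
    refine mem_upAlg.2 ⟨fun u hu => ?_, fun u hu => ?_⟩
    · rw [yS_coeff, cf_eq_zero, map_zero]
      · exact AddMonoidAlgebra.single_zero _
      · intro β hβ h
        have := ge_of_ne hℓ (S.P_ne hβ) fun j hj => S.P_wt hℓ hκ hβ hj
        linarith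
    · rw [yS_coeff]
      refine cs_upTo ((fil U ⊤).leP (fy_mem (cf_memU S _ _ fun β hβ h j hj => ?_))) _
      obtain ⟨b, rfl, h1, -⟩ := S.P_var hβ hj
      refine hT b h1 ?_
      have := factor_le' hℓ (fun j hj => S.P_wt (κ := κ) hℓ hκ hβ hj) hj
      linarith
  have hit := it_memS 𝒮 (K := n + 1) mT mT' (n + 1)
  have h1 := EK_sub_memS 𝒮 (K := n + 1) h (X := fun a => yS κ ℓ S (S.Q a)) mT mT' mX'
  -- the coefficient of the remaining term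
  set q := (it (n + 1) (fun a => yS κ ℓ S (S.P a)) (fun c => (cs (xS κ ℓ S' (S'.P c)) :
      AddMonoidAlgebra (AddMonoidAlgebra (Y × X → ℝ) ℝ) ℝ)) (n + 1)).2 with hqdef
  have H := hyp_of_sides (W := w') (b := 2) (α := 2 * ℓ) (U := (⊤ : Subalgebra ℝ (Y → ℝ)))
    (V := (⊤ : Subalgebra ℝ (X → ℝ))) (κ := κ) hℓ hκ (S := S) (S' := S') le_rfl le_rfl
    (fun _ _ _ => trivial) (fun _ _ _ => trivial) (fun _ _ _ _ => trivial)
    (fun _ _ _ _ => trivial)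
  have hq0 : ∀ i, (q i).coeff 0 = xS κ ℓ S' (S'.P (e i)) := by
    intro i
    rw [hqdef]
    exact it_q_zero H n i
  have hqge : ∀ i, Ge 0 (q i) := fun i => (mem_upAlg.1 (hit.2 i)).1
  have h2 : (ev (n + 1) (fun a => yS κ ℓ S (S.Q a)) q).coeff w
      - ∑ a ∈ tri (n + 1), fac a • ((yS κ ℓ S (S.Q a) :
        AddMonoidAlgebra (AddMonoidAlgebra (Y × X → ℝ) ℝ) ℝ).coeff w *
          mon (fun i => xS κ ℓ S' (S'.P (e i))) a) ∈ F.AP := by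
    unfold ev
    rw [coeff_sum_smul, ← Finset.sum_sub_distrib]
    refine Submodule.sum_mem _ fun a _ => ?_
    rw [← smul_sub]
    refine Submodule.smul_mem _ _ ?_
    have e1 : mon (fun i => xS κ ℓ S' (S'.P (e i))) a = (mon q a).coeff 0 := by
      rw [mon_coeff_zero hqge]
      congr 1
      funext i
      exact (hq0 i).symm
    rw [e1]
    have hmon := mem_upAlg.1 (mon_memS 𝒮 hit.2 a)
    have := coeff_mul_sub_mem F.AP (yS κ ℓ S (S.Q a)) (mon q a) w w (by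
      intro u hu
      by_cases h3 : u < 0
      · have : (yS κ ℓ S (S.Q a) :
          AddMonoidAlgebra (AddMonoidAlgebra (Y × X → ℝ) ℝ) ℝ).coeff u = 0 := by
          rw [yS_coeff, cf_eq_zero, map_zero]
          · exact AddMonoidAlgebra.single_zero _
          · intro β hβ h
            have := ge_of_ne hℓ (S.Q_ne hβ) fun j hj => S.Q_wt hℓ hκ hβ hj
            linarith
        rw [this, zero_mul]; exact zero_mem _
      rcases lt_or_gt_of_ne hu with h4 | h4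
      · refine F.mulP _ ?_ _ (hmon.2 _ (by linarith))
        rw [yS_coeff]
        refine cs_upTo ((fil U ⊤).leP (fy_mem (cf_memU S _ _ fun β hβ h j hj => ?_))) _
        have h5 := factor_le' hℓ (fun j hj => S.Q_wt (κ := κ) hℓ hκ hβ hj) hj
        obtain ⟨b, rfl | rfl, h1, -⟩ := S.Q_var hβ hj
        · exact hT b h1 (by linarith)
        · exact hX b h1 (by linarith)
      · rw [hmon.1 _ (by linarith), mul_zero]; exact zero_mem _)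
    rwa [sub_self] at this
  have h3 : (EN κ ℓ S S' h).coeff w - ∑ a ∈ tri (n + 1), fac a • ((yS κ ℓ S (S.Q a) :
        AddMonoidAlgebra (AddMonoidAlgebra (Y × X → ℝ) ℝ) ℝ).coeff w *
          mon (fun i => xS κ ℓ S' (S'.P (e i))) a) ∈ F.AP := by
    have h4 := (mem_upAlg.1 h1).2 w le_rfl
    rw [coeff_sub'] at h4
    have h5 := add_mem h4 h2
    rw [sub_add_sub_cancel] at h5
    exact h5
  have h4 := h3.2 w' le_rfl
  rw [coeff_sub', coeff_sum_smul] at h4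
  have e2 : ∑ a ∈ tri (n + 1), fac a • ((yS κ ℓ S (S.Q a) :
        AddMonoidAlgebra (AddMonoidAlgebra (Y × X → ℝ) ℝ) ℝ).coeff w *
          mon (fun i => xS κ ℓ S' (S'.P (e i))) a).coeff w'
      = ∑ a ∈ (tri (n + 1)).filter (fun a => κ * a.1 + ℓ * a.2 = w'),
        fac a • tn (cf (wtl κ ℓ) S.v (S.Q a) w) (mon (fun i => S'.v (inl (e i))) a) := by
    rw [Finset.sum_filter]
    refine Finset.sum_congr rfl fun a _ => ?_
    have e3 : mon (fun i => xS κ ℓ S' (S'.P (e i))) a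
        = (single (κ * a.1 + ℓ * a.2) (fx (mon (fun i => S'.v (inl (e i))) a)) :
          AddMonoidAlgebra (Y × X → ℝ) ℝ) := by
      have e0 : (xS κ ℓ S' (S'.P (e 0)) : AddMonoidAlgebra (Y × X → ℝ) ℝ)
          = single κ (fx (S'.v (inl (e 0)))) := by
        rw [S'.P_e hK, xS_X, wtl_inl, e_zero]
        congr 1
        push_cast; ring
      have e1 : (xS κ ℓ S' (S'.P (e 1)) : AddMonoidAlgebra (Y × X → ℝ) ℝ)
          = single ℓ (fx (S'.v (inl (e 1)))) := by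
        rw [S'.P_e hK, xS_X, wtl_inl, e_one]
        congr 1
        push_cast; ring
      show (xS κ ℓ S' (S'.P (e 0))) ^ a.1 * (xS κ ℓ S' (S'.P (e 1))) ^ a.2 = _
      rw [e0, e1, AddMonoidAlgebra.single_pow, AddMonoidAlgebra.single_pow,
        AddMonoidAlgebra.single_mul_single, nsmul_eq_mul, nsmul_eq_mul, ← map_pow, ← map_pow,
        ← map_mul]
      congr 1
      ring
    rw [yS_coeff, e3, cs_mul_coeff]
    by_cases ha : κ * a.1 + ℓ * a.2 = w'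
    · rw [if_pos ha, ha, coeff_single_self]
      rfl
    · rw [if_neg ha, coeff_single_ne _ ha, mul_zero, smul_zero]
  rw [e2] at h4
  exact h4

end

end Vale.Agent.P207.N3.H254
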