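import Mathlib
import Vale.Agent.P207.N3.H254.XY
import Vale.Agent.P207.N3.H254.Bil

/-!
# P207, line N3, package P10: (R0), the bi-weight identities of indecomposable weight
-/

open Finset Sum

set_option linter.unusedSectionVars false

namespace Vale.Agent.P207.N3.H254

/-! ### Dual numbers in two variables -/

/-- `δ² = δ'² = 0`, `cd` = the coefficient of `δ δ'`. -/
structure IsD {D : Type*} [CommRing D] [Algebra ℝ D] (δ δ' : D) (cd : D →ₗ[ℝ] ℝ) : Prop where
  sq : δ * δ = 0
  sq' : δ' * δ' = 0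
  one_one : cd (δ * δ') = 1
  left : cd δ = 0
  right : cd δ' = 0
  zero : cd 1 = 0

theorem exists_D : ∃ (D : Type) (_ : CommRing D) (_ : Algebra ℝ D) (δ δ' : D)
    (cd : D →ₗ[ℝ] ℝ), IsD δ δ' cd := by
  refine ⟨DualNumber (DualNumber ℝ), inferInstance, inferInstance,
    TrivSqZeroExt.inl DualNumber.eps, DualNumber.eps,
    { toFun := fun z => z.snd.snd, map_add' := fun _ _ => rfl, map_smul' := fun _ _ => rfl },
    ?_, ?_, ?_, ?_, ?_, ?_⟩
  · rw [← TrivSqZeroExt.inl_mul, DualNumber.eps_mul_eps, TrivSqZeroExt.inl_zero]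
  · exact DualNumber.eps_mul_eps
  · show (TrivSqZeroExt.inl DualNumber.eps * DualNumber.eps :
      DualNumber (DualNumber ℝ)).snd.snd = 1
    rw [TrivSqZeroExt.snd_mul, TrivSqZeroExt.snd_inl, smul_zero, add_zero,
      TrivSqZeroExt.fst_inl, DualNumber.snd_eps, smul_eq_mul, mul_one, DualNumber.snd_eps]
  · rfl
  · rfl
  · rfl

section dual

variable {D : Type*} [CommRing D] [Algebra ℝ D] {δ δ' : D} {cd : D →ₗ[ℝ] ℝ}

theorem sq_pow {δ : D} (hδ : δ * δ = 0) {m : ℕ} (h : 2 ≤ m) : δ ^ m = 0 := by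
  obtain ⟨k, rfl⟩ := Nat.exists_eq_add_of_le h
  rw [pow_add, pow_two, hδ, zero_mul]

theorem IsD.cd_pow (H : IsD δ δ' cd) (m n : ℕ) :
    cd (δ ^ m * δ' ^ n) = if m = 1 ∧ n = 1 then 1 else 0 := by
  by_cases hm : 2 ≤ m
  · rw [sq_pow H.sq hm, zero_mul, map_zero, if_neg (by omega)]
  by_cases hn : 2 ≤ n
  · rw [sq_pow H.sq' hn, mul_zero, map_zero, if_neg (by omega)]
  have hm' : m = 0 ∨ m = 1 := by omega
  have hn' : n = 0 ∨ n = 1 := by omega
  rcases hm' with rfl | rfl <;> rcases hn' with rfl | rfl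
  · simp [H.zero]
  · simp [H.right]
  · simp [H.left]
  · simp [H.one_one]

theorem IsD.cd_mul (H : IsD δ δ' cd) (r : ℝ) : cd (δ * δ' * algebraMap ℝ D r) = r := by
  rw [mul_comm, ← Algebra.smul_def, map_smul, H.one_one, smul_eq_mul, mul_one]

/-! ### The substitution -/

/-- The number of `y`-factors. -/
def dg (α : (Lb ⊕ Lb) →₀ ℕ) : ℕ := ∑ j ∈ α.support, α j * Sum.elim (fun _ => 1) (fun _ => 0) j

/-- The number of `x`-factors. -/
def dg' (α : (Lb ⊕ Lb) →₀ ℕ) : ℕ := ∑ j ∈ α.support, α j * Sum.elim (fun _ => 0) (fun _ => 1) j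

variable (δ δ')

noncomputable def th (c c' : Lb → ℝ) : MvPolynomial (Lb ⊕ Lb) ℝ →ₐ[ℝ] D :=
  MvPolynomial.aeval (Sum.elim (fun j => c j • δ) fun j => c' j • δ')

theorem th_eq (c c' : Lb → ℝ) (p : MvPolynomial (Lb ⊕ Lb) ℝ) :
    th δ δ' c c' p
      = ∑ α ∈ p.support, p.coeff α • (vm (Sum.elim c c') α • (δ ^ dg α * δ' ^ dg' α)) := by
  classical
  unfold th
  rw [MvPolynomial.aeval_def, MvPolynomial.eval₂_eq]
  refine Finset.sum_congr rfl fun α _ => ?_
  rw [← Algebra.smul_def]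
  congr 1
  unfold vm dg dg'
  have key : ∀ s : Finset (Lb ⊕ Lb), ∏ i ∈ s,
      (Sum.elim (fun j => c j • δ) (fun j => c' j • δ') i) ^ α i
      = (∏ i ∈ s, (Sum.elim c c' i) ^ α i) •
        (δ ^ (∑ j ∈ s, α j * Sum.elim (fun _ => 1) (fun _ => 0) j) *
          δ' ^ (∑ j ∈ s, α j * Sum.elim (fun _ => 0) (fun _ => 1) j)) := by
    intro s
    induction s using Finset.induction_on with
    | empty => simp
    | insert a s ha ih =>
      rw [Finset.prod_insert ha, Finset.prod_insert ha, Finset.sum_insert ha,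
        Finset.sum_insert ha, ih]
      rcases a with a | a
      · simp only [Sum.elim_inl, mul_one, mul_zero, zero_add, pow_add, Algebra.smul_def,
          map_mul, map_pow, mul_pow]
        ring
      · simp only [Sum.elim_inr, mul_one, mul_zero, zero_add, pow_add, Algebra.smul_def,
          map_mul, map_pow, mul_pow]
        ring
  exact key _

variable {δ δ'}

theorem IsD.cd_th (H : IsD δ δ' cd) (c c' : Lb → ℝ) (p : MvPolynomial (Lb ⊕ Lb) ℝ) :
    cd (th δ δ' c c' p) = ∑ α ∈ p.support,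
      p.coeff α * (if dg α = 1 ∧ dg' α = 1 then vm (Sum.elim c c') α else 0) := by
  rw [th_eq, map_sum]
  refine Finset.sum_congr rfl fun α _ => ?_
  rw [map_smul, map_smul, H.cd_pow, smul_eq_mul, smul_eq_mul]
  split_ifs <;> ring

/-- The linear part. -/
noncomputable def lin (c : Lb → ℝ) (p : MvPolynomial Lb ℝ) : ℝ :=
  ∑ β ∈ p.support.filter (fun β => β.degree = 1), p.coeff β * vm c β

theorem aeval_smul_dl (c : Lb → ℝ) {δ : D} (hδ : δ * δ = 0) (p : MvPolynomial Lb ℝ)
    (hp : ∀ β ∈ p.support, β ≠ 0) :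
    MvPolynomial.aeval (fun j => c j • δ) p = δ * algebraMap ℝ D (lin c p) := by
  classical
  unfold lin
  rw [MvPolynomial.aeval_def, MvPolynomial.eval₂_eq, Finset.sum_filter, map_sum, Finset.mul_sum]
  refine Finset.sum_congr rfl fun β hβ => ?_
  have key : ∀ s : Finset Lb, ∏ i ∈ s, (c i • δ) ^ β i
      = (∏ i ∈ s, (c i) ^ β i) • δ ^ (∑ i ∈ s, β i) := by
    intro s
    induction s using Finset.induction_on with
    | empty => simp
    | insert a s ha ih =>
      rw [Finset.prod_insert ha, Finset.prod_insert ha, Finset.sum_insert ha, ih]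
      simp only [pow_add, Algebra.smul_def, map_mul, map_pow, mul_pow]
      ring
  rw [key, ← Finsupp.degree_apply]
  by_cases h1 : β.degree = 1
  · rw [if_pos h1, h1, pow_one, map_mul, Algebra.smul_def]
    unfold vm
    ring
  · have h2 : β.degree ≠ 0 := by
      rw [Ne, Finsupp.degree_eq_zero_iff]; exact hp β hβ
    rw [if_neg h1, sq_pow hδ (by omega), smul_zero, mul_zero, map_zero, mul_zero]

theorem IsD.th_inl (H : IsD δ δ' cd) (c c' : Lb → ℝ) (p : MvPolynomial Lb ℝ)
    (hp : ∀ β ∈ p.support, β ≠ 0) :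
    th δ δ' c c' (MvPolynomial.rename inl p) = δ * algebraMap ℝ D (lin c p) := by
  unfold th
  rw [MvPolynomial.aeval_rename, ← aeval_smul_dl c H.sq p hp]
  rfl

theorem IsD.th_inr (H : IsD δ δ' cd) (c c' : Lb → ℝ) (p : MvPolynomial Lb ℝ)
    (hp : ∀ β ∈ p.support, β ≠ 0) :
    th δ δ' c c' (MvPolynomial.rename inr p) = δ' * algebraMap ℝ D (lin c' p) := by
  unfold th
  rw [MvPolynomial.aeval_rename, ← aeval_smul_dl c' H.sq' p hp]
  rfl

end dual

variable {Y X : Type*} {K : ℕ} {κ ℓ : ℝ}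

theorem lin_zero (c : Lb → ℝ) : lin c 0 = 0 := by unfold lin; simp

theorem lin_P (S : Side K Y) (c : Lb → ℝ) {a : ℕ × ℕ} (h1 : 1 ≤ len a) (h2 : len a ≤ K) :
    lin c (S.P a) = c (inl a) := by
  classical
  have hmem : Finsupp.single (inl a) 1 ∈ (S.P a).support.filter (fun β => β.degree = 1) := by
    rw [Finset.mem_filter, MvPolynomial.mem_support_iff, S.P_one a h1 h2, Finsupp.degree_single]
    exact ⟨one_ne_zero, rfl⟩
  unfold lin
  rw [Finset.sum_eq_single_of_mem _ hmem, S.P_one a h1 h2, one_mul, vm_single]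
  intro β hβ hne
  rw [Finset.mem_filter] at hβ
  rcases S.P_supp a β hβ.1 with h | h
  · exact absurd h hne
  · omega

/-! ### Labels in the support -/

/-- The length of a label. -/
def ll : Lb → ℕ := Sum.elim len len

theorem pK_supp (h : ℝ) (S : Side K Y) (S' : Side K X) {α : (Lb ⊕ Lb) →₀ ℕ}
    (hα : α ∈ (pK h S S').support) {j : Lb ⊕ Lb} (hj : j ∈ α.support) :
    1 ≤ Sum.elim ll ll j := by
  classical
  set s : Set (Lb ⊕ Lb) := {j | 1 ≤ Sum.elim ll ll j} with hs
  have key : ∀ (f : Lb → Lb ⊕ Lb) (p : MvPolynomial Lb ℝ), (∀ j, ll j = Sum.elim ll ll (f j)) →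
      (∀ β ∈ p.support, ∀ j ∈ β.support, 1 ≤ ll j) →
      MvPolynomial.rename f p ∈ MvPolynomial.supported ℝ s := by
    intro f p hf hp
    rw [MvPolynomial.mem_supported]
    intro j hj
    have h1 := MvPolynomial.vars_rename f p hj
    rw [Finset.mem_image] at h1
    obtain ⟨i, hi, rfl⟩ := h1
    rw [MvPolynomial.mem_vars_iff_mem_support] at hi
    obtain ⟨β, hβ, hi⟩ := hi
    show 1 ≤ Sum.elim ll ll (f i)
    rw [← hf]
    exact hp β hβ i hi
  have hm : pK h S S' ∈ MvPolynomial.supported ℝ s := by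
    unfold pK
    exact EK_memS _ h
      (fun a => key _ _ (fun _ => rfl) fun β hβ j hj => by
        obtain ⟨b, rfl, h1, -⟩ := S.P_var hβ hj
        exact h1)
      (fun a => key _ _ (fun _ => rfl) fun β hβ j hj => by
        obtain ⟨b, rfl | rfl, h1, -⟩ := S.Q_var hβ hj
        · exact h1
        · exact h1)
      (fun a => key _ _ (fun _ => rfl) fun β hβ j hj => by
        obtain ⟨b, rfl, h1, -⟩ := S'.P_var hβ hj
        exact h1)
      (fun a => key _ _ (fun _ => rfl) fun β hβ j hj => by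
        obtain ⟨b, rfl | rfl, h1, -⟩ := S'.Q_var hβ hj
        · exact h1
        · exact h1)
  rw [MvPolynomial.mem_supported] at hm
  exact hm ((MvPolynomial.mem_vars_iff_mem_support j).2 ⟨α, hα, hj⟩)

/-- Indecomposable weights. -/
def Ind (κ ℓ w : ℝ) : Prop := ∀ A B : ℕ, (A : ℝ) * κ + B * ℓ = w → A + B = 1

theorem dg_of_ind {w : ℝ} (hw : Ind κ ℓ w) {α : (Lb ⊕ Lb) →₀ ℕ}
    (hα : ∀ j ∈ α.support, 1 ≤ Sum.elim ll ll j)
    (h : wm (Sum.elim (wtl κ ℓ) 0) α = w) : dg α = 1 := by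
  classical
  set n1 : Lb ⊕ Lb → ℕ := Sum.elim (Sum.elim Prod.fst Prod.fst) (fun _ => 0) with hn1
  set n2 : Lb ⊕ Lb → ℕ := Sum.elim (Sum.elim Prod.snd Prod.snd) (fun _ => 0) with hn2
  have e1 : ∀ j, (Sum.elim (wtl κ ℓ) 0 : Lb ⊕ Lb → ℝ) j = κ * n1 j + ℓ * n2 j := by
    rintro ((j | j) | j)
    · rfl
    · rfl
    · show (0 : ℝ) = κ * ((0 : ℕ) : ℝ) + ℓ * ((0 : ℕ) : ℝ)
      push_cast; ring
  have h2 := hw (∑ j ∈ α.support, α j * n1 j) (∑ j ∈ α.support, α j * n2 j) (by
    rw [← h]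
    unfold wm
    push_cast
    rw [Finset.sum_mul, Finset.sum_mul, ← Finset.sum_add_distrib]
    refine Finset.sum_congr rfl fun j _ => ?_
    rw [e1]
    ring)
  rw [← Finset.sum_add_distrib] at h2
  have h3 : dg α ≤ 1 := by
    rw [← h2]
    unfold dg
    refine Finset.sum_le_sum fun j hj => ?_
    rw [← mul_add]
    refine Nat.mul_le_mul_left _ ?_
    have h4 := hα j hj
    rcases j with (j | j) | j
    · exact h4
    · exact h4
    · exact Nat.zero_le _
  have h5 : dg α ≠ 0 := by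
    intro h0
    unfold dg at h0
    rw [Finset.sum_eq_zero_iff] at h0
    rw [Finset.sum_eq_zero] at h2
    · omega
    · intro j hj
      have h6 := h0 j hj
      rcases j with j | j
      · simp only [Sum.elim_inl, mul_one] at h6
        exact absurd h6 (Finsupp.mem_support_iff.1 hj)
      · rfl
  omega

theorem dg'_of_ind {w : ℝ} (hw : Ind κ ℓ w) {α : (Lb ⊕ Lb) →₀ ℕ}
    (hα : ∀ j ∈ α.support, 1 ≤ Sum.elim ll ll j)
    (h : wm (Sum.elim 0 (wtl κ ℓ)) α = w) : dg' α = 1 := by
  classical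
  set n1 : Lb ⊕ Lb → ℕ := Sum.elim (fun _ => 0) (Sum.elim Prod.fst Prod.fst) with hn1
  set n2 : Lb ⊕ Lb → ℕ := Sum.elim (fun _ => 0) (Sum.elim Prod.snd Prod.snd) with hn2
  have e1 : ∀ j, (Sum.elim 0 (wtl κ ℓ) : Lb ⊕ Lb → ℝ) j = κ * n1 j + ℓ * n2 j := by
    rintro (j | (j | j))
    · show (0 : ℝ) = κ * ((0 : ℕ) : ℝ) + ℓ * ((0 : ℕ) : ℝ)
      push_cast; ring
    · rfl
    · rfl
  have h2 := hw (∑ j ∈ α.support, α j * n1 j) (∑ j ∈ α.support, α j * n2 j) (by
    rw [← h]
    unfold wm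
    push_cast
    rw [Finset.sum_mul, Finset.sum_mul, ← Finset.sum_add_distrib]
    refine Finset.sum_congr rfl fun j _ => ?_
    rw [e1]
    ring)
  rw [← Finset.sum_add_distrib] at h2
  have h3 : dg' α ≤ 1 := by
    rw [← h2]
    unfold dg'
    refine Finset.sum_le_sum fun j hj => ?_
    rw [← mul_add]
    refine Nat.mul_le_mul_left _ ?_
    have h4 := hα j hj
    rcases j with j | (j | j)
    · exact Nat.zero_le _
    · exact h4
    · exact h4
  have h5 : dg' α ≠ 0 := by
    intro h0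
    unfold dg' at h0
    rw [Finset.sum_eq_zero_iff] at h0
    rw [Finset.sum_eq_zero] at h2
    · omega
    · intro j hj
      have h6 := h0 j hj
      rcases j with j | j
      · rfl
      · simp only [Sum.elim_inr, mul_one] at h6
        exact absurd h6 (Finsupp.mem_support_iff.1 hj)
  omega

/-- A monomial with one `y`-factor and one `x`-factor. -/
theorem dg_one_one {α : (Lb ⊕ Lb) →₀ ℕ} (h : dg α = 1) (h' : dg' α = 1) :
    ∃ i j : Lb, α = Finsupp.single (inl i) 1 + Finsupp.single (inr j) 1 := by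
  classical
  have hs : α.degree = 2 := by
    rw [Finsupp.degree_apply]
    have : ∑ j ∈ α.support, α j = dg α + dg' α := by
      unfold dg dg'
      rw [← Finset.sum_add_distrib]
      refine Finset.sum_congr rfl fun j _ => ?_
      rcases j with j | j <;> simp
    rw [this, h, h']
  have h1 : ∃ i, inl i ∈ α.support := by
    by_contra hc
    push Not at hc
    have : dg α = 0 := by
      unfold dg
      refine Finset.sum_eq_zero fun j hj => ?_
      rcases j with j | j
      · exact absurd hj (hc j)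
      · rfl
    omega
  have h2 : ∃ j, inr j ∈ α.support := by
    by_contra hc
    push Not at hc
    have : dg' α = 0 := by
      unfold dg'
      refine Finset.sum_eq_zero fun j hj => ?_
      rcases j with j | j
      · rfl
      · exact absurd hj (hc j)
    omega
  obtain ⟨i, hi⟩ := h1
  obtain ⟨j, hj⟩ := h2
  refine ⟨i, j, ?_⟩
  have h3 : Finsupp.single (inl i) 1 + Finsupp.single (inr j) 1 ≤ α := by
    intro k
    rw [Finsupp.add_apply, Finsupp.single_apply, Finsupp.single_apply]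
    by_cases h4 : inl i = k
    · rw [if_pos h4, if_neg (by rw [← h4]; simp), ← h4]
      exact Nat.one_le_iff_ne_zero.2 (Finsupp.mem_support_iff.1 hi)
    · rw [if_neg h4, zero_add]
      split_ifs with h5
      · rw [← h5]
        exact Nat.one_le_iff_ne_zero.2 (Finsupp.mem_support_iff.1 hj)
      · exact Nat.zero_le _
  obtain ⟨γ, hγ⟩ := exists_add_of_le h3
  have h6 : γ.degree = 0 := by
    have := congrArg Finsupp.degree hγ
    rw [map_add, map_add, Finsupp.degree_single, Finsupp.degree_single, hs] at this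
    omega
  rw [Finsupp.degree_eq_zero_iff] at h6
  rw [hγ, h6, add_zero]

/-- The two sums agree. -/
theorem term_eq {w w' : ℝ} (hw : Ind κ ℓ w) (hw' : Ind κ ℓ w') (v v' : Lb → ℝ)
    {α : (Lb ⊕ Lb) →₀ ℕ} (hα : ∀ j ∈ α.support, 1 ≤ Sum.elim ll ll j) :
    (if dg α = 1 ∧ dg' α = 1 then
      vm (Sum.elim (fun j => if wtl κ ℓ j = w then v j else 0)
        (fun j => if wtl κ ℓ j = w' then v' j else 0)) α else 0)
      = if wm (Sum.elim (wtl κ ℓ) 0) α = w ∧ wm (Sum.elim 0 (wtl κ ℓ)) α = w' then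
        vm (Sum.elim v v') α else 0 := by
  classical
  by_cases h : dg α = 1 ∧ dg' α = 1
  · rw [if_pos h]
    obtain ⟨i, j, rfl⟩ := dg_one_one h.1 h.2
    have hsupp : (Finsupp.single (inl i : Lb ⊕ Lb) 1 + Finsupp.single (inr j) 1 :
        (Lb ⊕ Lb) →₀ ℕ).support = {inl i, inr j} := by
      ext k
      simp only [Finsupp.mem_support_iff, Finsupp.add_apply, Finsupp.single_apply,
        Finset.mem_insert, Finset.mem_singleton]
      constructor
      · intro h1
        by_contra h2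
        push Not at h2
        rw [if_neg (Ne.symm h2.1), if_neg (Ne.symm h2.2)] at h1
        exact h1 rfl
      · rintro (rfl | rfl) <;> simp
    have e1 : (Finsupp.single (inl i : Lb ⊕ Lb) 1 + Finsupp.single (inr j) 1 :
        (Lb ⊕ Lb) →₀ ℕ) (inl i) = 1 := by simp
    have e2 : (Finsupp.single (inl i : Lb ⊕ Lb) 1 + Finsupp.single (inr j) 1 :
        (Lb ⊕ Lb) →₀ ℕ) (inr j) = 1 := by simp
    have hne : (inl i : Lb ⊕ Lb) ∉ ({inr j} : Finset (Lb ⊕ Lb)) := by simp
    unfold wm vm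
    rw [hsupp, Finset.sum_insert hne, Finset.sum_singleton, Finset.sum_insert hne,
      Finset.sum_singleton, Finset.prod_insert hne, Finset.prod_singleton,
      Finset.prod_insert hne, Finset.prod_singleton, e1, e2]
    simp only [Sum.elim_inl, Sum.elim_inr, Nat.cast_one, one_mul, pow_one, Pi.zero_apply,
      add_zero, zero_add]
    split_ifs <;> simp_all
  · rw [if_neg h, if_neg]
    rintro ⟨h1, h2⟩
    exact h ⟨dg_of_ind hw hα h1, dg'_of_ind hw' hα h2⟩

end Vale.Agent.P207.N3.H254
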