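import Mathlib
import Vale.Agent.P207.N3.H254.Lin

/-!
# P207, line N3, package P10: (R0)
-/

open Finset Sum

set_option linter.unusedSectionVars false

namespace Vale.Agent.P207.N3.H254

variable {Y X : Type*} {K : ℕ} {κ ℓ : ℝ} {S : Side K Y} {S' : Side K X}

/-- The linear part at an indecomposable weight. -/
noncomputable def cw (κ ℓ w : ℝ) (v : Lb → ℝ) : Lb → ℝ :=
  fun j => if wtl κ ℓ j = w then v j else 0

/-- **The bilinear identity at an indecomposable weight.** -/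
theorem bil_id (hK : 2 ≤ K) {h W w : ℝ} (H : TwoId κ ℓ h W S S') (hW : w + w < W)
    (hw : Ind κ ℓ w) (h2 : ∀ a, len a = 2 → wtl κ ℓ (inl a) ≠ w) (y : Y) (x : X) :
    lin (cw κ ℓ w fun j => S.v j y) (S.Q (1, 0)) * cw κ ℓ w (fun j => S'.v j x) (inl (1, 0))
      + lin (cw κ ℓ w fun j => S.v j y) (S.Q (0, 1)) * cw κ ℓ w (fun j => S'.v j x) (inl (0, 1))
      + lin (cw κ ℓ w fun j => S'.v j x) (S'.Q (1, 0)) * cw κ ℓ w (fun j => S.v j y) (inl (1, 0))
      + lin (cw κ ℓ w fun j => S'.v j x) (S'.Q (0, 1)) * cw κ ℓ w (fun j => S.v j y) (inl (0, 1))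
      - h * (cw κ ℓ w (fun j => S.v j y) (inl (1, 0)) *
          cw κ ℓ w (fun j => S'.v j x) (inl (1, 0))
        + cw κ ℓ w (fun j => S.v j y) (inl (0, 1)) *
          cw κ ℓ w (fun j => S'.v j x) (inl (0, 1))) = 0 := by
  classical
  obtain ⟨D, _, _, δ, δ', cd, HD⟩ := exists_D
  set c := cw κ ℓ w fun j => S.v j y with hc
  set c' := cw κ ℓ w fun j => S'.v j x with hc'
  -- the identity as a value of `cd`
  have h1 : cd (th δ δ' c c' (pK h S S')) = 0 := by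
    have hH := H w w hW y x
    rw [Finset.sum_filter] at hH
    rw [HD.cd_th]
    refine Eq.trans (Finset.sum_congr rfl fun α hα => ?_) hH
    have := term_eq (κ := κ) (ℓ := ℓ) hw hw (fun j => S.v j y) (fun j => S'.v j x)
      (fun j hj => pK_supp h S S' hα hj)
    have e1 : (Sum.elim c c') = Sum.elim (fun j => if wtl κ ℓ j = w then S.v j y else 0)
        (fun j => if wtl κ ℓ j = w then S'.v j x else 0) := rfl
    rw [e1, this]
    split_ifs <;> ring
  -- the same by the bilinear formula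
  have eP : ∀ a, th δ δ' c c' (MvPolynomial.rename inl (S.P a))
      = δ * algebraMap ℝ D (lin c (S.P a)) := fun a => HD.th_inl c c' _ fun β hβ => S.P_ne hβ
  have eQ : ∀ a, th δ δ' c c' (MvPolynomial.rename inl (S.Q a))
      = δ * algebraMap ℝ D (lin c (S.Q a)) := fun a => HD.th_inl c c' _ fun β hβ => S.Q_ne hβ
  have eP' : ∀ a, th δ δ' c c' (MvPolynomial.rename inr (S'.P a))
      = δ' * algebraMap ℝ D (lin c' (S'.P a)) := fun a => HD.th_inr c c' _ fun β hβ => S'.P_ne hβ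
  have eQ' : ∀ a, th δ δ' c c' (MvPolynomial.rename inr (S'.Q a))
      = δ' * algebraMap ℝ D (lin c' (S'.Q a)) := fun a => HD.th_inr c c' _ fun β hβ => S'.Q_ne hβ
  have h3 := EK_map (R := MvPolynomial (Lb ⊕ Lb) ℝ) (R' := D) (th δ δ' c c') K h
    (fun a => MvPolynomial.rename inl (S.P a)) (fun a => MvPolynomial.rename inl (S.Q a))
    (fun a => MvPolynomial.rename inr (S'.P a)) fun a => MvPolynomial.rename inr (S'.Q a)
  simp only [eP, eQ, eP', eQ'] at h3
  have h4 := EK_bil (δ := δ) (δ' := δ') (t := fun a => algebraMap ℝ D (lin c (S.P a)))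
    (x := fun a => algebraMap ℝ D (lin c (S.Q a)))
    (t' := fun a => algebraMap ℝ D (lin c' (S'.P a)))
    (x' := fun a => algebraMap ℝ D (lin c' (S'.Q a))) HD.sq HD.sq' hK h
    (by show algebraMap ℝ D (lin c (S.P (0, 0))) = 0; rw [S.P_zero, lin_zero, map_zero])
    (by show algebraMap ℝ D (lin c (S.Q (0, 0))) = 0; rw [S.Q_zero, lin_zero, map_zero])
    (by show algebraMap ℝ D (lin c' (S'.P (0, 0))) = 0; rw [S'.P_zero, lin_zero, map_zero])
    (by show algebraMap ℝ D (lin c' (S'.Q (0, 0))) = 0; rw [S'.Q_zero, lin_zero, map_zero])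
  have hP2 : ∀ a, len a = 2 → lin c (S.P a) = 0 := by
    intro a ha
    rw [lin_P S c (by omega) (by omega)]
    exact if_neg (h2 a ha)
  have h5 : cd (th δ δ' c c' (pK h S S'))
      = lin c (S.Q (1, 0)) * lin c' (S'.P (1, 0)) + lin c (S.Q (0, 1)) * lin c' (S'.P (0, 1))
      + lin c' (S'.Q (1, 0)) * lin c (S.P (1, 0)) + lin c' (S'.Q (0, 1)) * lin c (S.P (0, 1))
      - h * (lin c (S.P (1, 0)) * lin c' (S'.P (1, 0))
        + lin c (S.P (0, 1)) * lin c' (S'.P (0, 1))) := by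
    unfold pK
    rw [h3, h4]
    simp only [← map_mul, ← map_add, Algebra.smul_def, ← map_sub]
    rw [HD.cd_mul, hP2 (2, 0) rfl, hP2 (1, 1) rfl, hP2 (0, 2) rfl]
    simp
  rw [h1, lin_P S c (a := (1, 0)) le_rfl (by show 1 ≤ K; omega),
    lin_P S c (a := (0, 1)) le_rfl (by show 1 ≤ K; omega),
    lin_P S' c' (a := (1, 0)) le_rfl (by show 1 ≤ K; omega),
    lin_P S' c' (a := (0, 1)) le_rfl (by show 1 ≤ K; omega)] at h5
  exact h5.symm

/-- The linear part of `X_i` on the `x`-side. -/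
theorem lin_Q_mem {V : Subalgebra ℝ (X → ℝ)} (hK : 1 ≤ K) (hx : ∀ i, S'.v (inl (e i)) ∈ V)
    (w : ℝ) (i : Fin 2) :
    (fun x => lin (cw κ ℓ w fun j => S'.v j x) (S'.Q (e i))
      - cw κ ℓ w (fun j => S'.v j x) (inr (e i))) ∈ V := by
  classical
  have hmem : Finsupp.single (inr (e i)) 1 ∈
      (S'.Q (e i)).support.filter (fun β => β.degree = 1) := by
    rw [Finset.mem_filter, MvPolynomial.mem_support_iff,
      S'.Q_one (e i) (by rw [len_e]) (by rw [len_e]; exact hK), Finsupp.degree_single]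
    exact ⟨one_ne_zero, rfl⟩
  have e1 : (fun x => lin (cw κ ℓ w fun j => S'.v j x) (S'.Q (e i))
      - cw κ ℓ w (fun j => S'.v j x) (inr (e i)))
      = ∑ β ∈ ((S'.Q (e i)).support.filter (fun β => β.degree = 1)).erase
          (Finsupp.single (inr (e i)) 1),
        (S'.Q (e i)).coeff β • fun x => vm (cw κ ℓ w fun j => S'.v j x) β := by
    funext x
    unfold lin
    rw [← Finset.add_sum_erase _ _ hmem, S'.Q_one (e i) (by rw [len_e]) (by rw [len_e]; exact hK),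
      one_mul, vm_single, add_sub_cancel_left, Finset.sum_apply]
    rfl
  rw [e1]
  refine V.sum_mem fun β hβ => V.smul_mem ?_ _
  rw [Finset.mem_erase, Finset.mem_filter] at hβ
  rcases S'.Q_supp _ β hβ.2.1 with h | h
  · exact absurd h hβ.1
  obtain ⟨j, hj⟩ := Finsupp.support_nonempty_iff.2 h.1
  have h1 := eq_single_of_degree hβ.2.2 hj
  rw [h1]
  simp only [vm_single]
  rcases h.2 j hj with ⟨b, rfl, h2, h3⟩ | ⟨b, rfl, h2, h3⟩
  · rw [len_e] at h3
    have hb : ∃ i, b = e i := by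
      unfold len at h2 h3
      by_cases h4 : b.1 = 0
      · exact ⟨1, by rw [e_one]; exact Prod.ext h4 (by simp; omega)⟩
      · exact ⟨0, by rw [e_zero]; exact Prod.ext (by simp; omega) (by simp; omega)⟩
    obtain ⟨i', rfl⟩ := hb
    unfold cw
    by_cases h4 : wtl κ ℓ (inl (e i')) = w
    · simp only [if_pos h4]; exact hx i'
    · simp only [if_neg h4]; exact V.zero_mem
  · rw [len_e] at h3
    omega

/-- **(R0), general form.** -/
theorem r0gen {V : Subalgebra ℝ (X → ℝ)} (hK : 2 ≤ K) {h W w : ℝ} (H : TwoId κ ℓ h W S S')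
    (hW : w + w < W) (hw : Ind κ ℓ w) (h2 : ∀ a, len a = 2 → wtl κ ℓ (inl a) ≠ w)
    (hx : ∀ i, S'.v (inl (e i)) ∈ V) (y : Y) :
    (fun x => cw κ ℓ w (fun j => S.v j y) (inl (1, 0)) *
        cw κ ℓ w (fun j => S'.v j x) (inr (1, 0))
      + cw κ ℓ w (fun j => S.v j y) (inl (0, 1)) *
        cw κ ℓ w (fun j => S'.v j x) (inr (0, 1))) ∈ V := by
  have hcx : ∀ i, (fun x => cw κ ℓ w (fun j => S'.v j x) (inl (e i))) ∈ V := by
    intro i
    unfold cw
    by_cases h4 : wtl κ ℓ (inl (e i)) = w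
    · simp only [if_pos h4]; exact hx i
    · simp only [if_neg h4]; exact V.zero_mem
  have hl0 := lin_Q_mem (κ := κ) (ℓ := ℓ) (S' := S') (by omega : 1 ≤ K) hx w 0
  have hl1 := lin_Q_mem (κ := κ) (ℓ := ℓ) (S' := S') (by omega : 1 ≤ K) hx w 1
  have hc0 := hcx 0
  have hc1 := hcx 1
  rw [e_zero] at hl0 hc0
  rw [e_one] at hl1 hc1
  set a0 := lin (cw κ ℓ w fun j => S.v j y) (S.Q (1, 0)) with ha0
  set a1 := lin (cw κ ℓ w fun j => S.v j y) (S.Q (0, 1)) with ha1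
  set y0 := cw κ ℓ w (fun j => S.v j y) (inl (1, 0)) with hy0
  set y1 := cw κ ℓ w (fun j => S.v j y) (inl (0, 1)) with hy1
  have e1 : (fun x => y0 * cw κ ℓ w (fun j => S'.v j x) (inr (1, 0))
      + y1 * cw κ ℓ w (fun j => S'.v j x) (inr (0, 1)))
      = (h * y0 - a0) • (fun x => cw κ ℓ w (fun j => S'.v j x) (inl (1, 0)))
        + (h * y1 - a1) • (fun x => cw κ ℓ w (fun j => S'.v j x) (inl (0, 1)))
        - (y0 • (fun x => lin (cw κ ℓ w fun j => S'.v j x) (S'.Q (1, 0))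
            - cw κ ℓ w (fun j => S'.v j x) (inr (1, 0)))
          + y1 • (fun x => lin (cw κ ℓ w fun j => S'.v j x) (S'.Q (0, 1))
            - cw κ ℓ w (fun j => S'.v j x) (inr (0, 1)))) := by
    funext x
    have h3 := bil_id hK H hW hw h2 y x
    rw [← ha0, ← ha1, ← hy0, ← hy1] at h3
    simp only [Pi.add_apply, Pi.sub_apply, Pi.smul_apply, smul_eq_mul]
    linarith
  rw [e1]
  exact V.sub_mem (V.add_mem (V.smul_mem hc0 _) (V.smul_mem hc1 _))
    (V.add_mem (V.smul_mem hl0 _) (V.smul_mem hl1 _))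

/-- **(R0)**, `r > 1`: `X'_2` is regular. -/
theorem r0_split {V : Subalgebra ℝ (X → ℝ)} (hK : 2 ≤ K) (hℓ : 0 < ℓ) (hκ : ℓ < κ) {h W : ℝ}
    (H : TwoId κ ℓ h W S S') (hW : 2 * ℓ < W) (hx : ∀ i, S'.v (inl (e i)) ∈ V) {y : Y}
    (hy : S.v (inl (0, 1)) y ≠ 0) : S'.v (inr (0, 1)) ∈ V := by
  have hind : Ind κ ℓ ℓ := by
    intro A B hAB
    have hA : A = 0 := by
      by_contra h0
      have : (1 : ℝ) ≤ A := by exact_mod_cast Nat.one_le_iff_ne_zero.2 h0
      have h1 : (0 : ℝ) ≤ B := Nat.cast_nonneg _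
      nlinarith
    subst hA
    rw [Nat.cast_zero, zero_mul, zero_add] at hAB
    have : (B : ℝ) = 1 := mul_right_cancel₀ hℓ.ne' (by rw [hAB, one_mul])
    have : B = 1 := by exact_mod_cast this
    omega
  have h1 := r0gen hK H (by linarith) hind (fun a ha h => by
    have h3 := len_le_wtl hκ.le a
    rw [ha] at h3
    rw [wtl_inl] at h
    push_cast at h3
    linarith) hx y
  have e0 : wtl κ ℓ (inl (1, 0)) ≠ ℓ := by rw [wtl_inl]; push_cast; intro h; linarith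
  have e1 : wtl κ ℓ (inl (0, 1)) = ℓ := by rw [wtl_inl]; push_cast; ring
  have e2 : wtl κ ℓ (inr (0, 1)) = ℓ := by rw [wtl_inr]; push_cast; ring
  have e3 : (fun x => cw κ ℓ ℓ (fun j => S.v j y) (inl (1, 0)) *
        cw κ ℓ ℓ (fun j => S'.v j x) (inr (1, 0))
      + cw κ ℓ ℓ (fun j => S.v j y) (inl (0, 1)) *
        cw κ ℓ ℓ (fun j => S'.v j x) (inr (0, 1)))
      = (S.v (inl (0, 1)) y) • S'.v (inr (0, 1)) := by
    funext x
    unfold cw
    rw [if_neg e0, if_pos e1, if_pos e2]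
    simp
  rw [e3] at h1
  have h2 := V.smul_mem h1 (S.v (inl (0, 1)) y)⁻¹
  rwa [smul_smul, inv_mul_cancel₀ hy, one_smul] at h2

/-- **(R0)**, `λ₁ ∉ ℕ λ₂`: `X'_1` is regular. -/
theorem r0_frac {V : Subalgebra ℝ (X → ℝ)} (hK : 2 ≤ K) (hℓ : 0 < ℓ) (hκ : ℓ < κ) {h W : ℝ}
    (H : TwoId κ ℓ h W S S') (hW : 2 * κ < W) (hx : ∀ i, S'.v (inl (e i)) ∈ V)
    (hfr : ∀ n : ℕ, (n : ℝ) * ℓ ≠ κ) {y : Y}
    (hy : S.v (inl (1, 0)) y ≠ 0) : S'.v (inr (1, 0)) ∈ V := by
  have hind : Ind κ ℓ κ := by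
    intro A B hAB
    have hA0 : A ≠ 0 := by
      rintro rfl
      rw [Nat.cast_zero, zero_mul, zero_add] at hAB
      exact hfr B hAB
    have hA1 : (1 : ℝ) ≤ A := by exact_mod_cast Nat.one_le_iff_ne_zero.2 hA0
    have hB : (0 : ℝ) ≤ B := Nat.cast_nonneg _
    have h2 : (A : ℝ) = 1 := by
      by_contra h3
      have h4 : 2 ≤ A := by
        have : A ≠ 1 := fun h => h3 (by rw [h]; norm_num)
        omega
      have h5 : (2 : ℝ) ≤ A := by exact_mod_cast h4
      nlinarith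
    have h3 : A = 1 := by exact_mod_cast h2
    rw [h2, one_mul] at hAB
    have h4 : (B : ℝ) * ℓ = 0 := by linarith
    have h5 : (B : ℝ) = 0 := by
      rcases mul_eq_zero.1 h4 with h | h
      · exact h
      · exact absurd h hℓ.ne'
    have h6 : B = 0 := by exact_mod_cast h5
    omega
  have h1 := r0gen hK H (by linarith) hind (fun a ha h => by
    rw [wtl_inl] at h
    by_cases h3 : a.1 = 0
    · rw [h3, Nat.cast_zero, mul_zero, zero_add, mul_comm] at h
      exact hfr a.2 h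
    · have := wtl_ge3 hℓ hκ.le (a := a) (by omega) h3
      linarith) hx y
  have e0 : wtl κ ℓ (inl (1, 0)) = κ := by rw [wtl_inl]; push_cast; ring
  have e1 : wtl κ ℓ (inl (0, 1)) ≠ κ := by rw [wtl_inl]; push_cast; intro h; linarith
  have e2 : wtl κ ℓ (inr (1, 0)) = κ := by rw [wtl_inr]; push_cast; ring
  have e3 : (fun x => cw κ ℓ κ (fun j => S.v j y) (inl (1, 0)) *
        cw κ ℓ κ (fun j => S'.v j x) (inr (1, 0))
      + cw κ ℓ κ (fun j => S.v j y) (inl (0, 1)) *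
        cw κ ℓ κ (fun j => S'.v j x) (inr (0, 1)))
      = (S.v (inl (1, 0)) y) • S'.v (inr (1, 0)) := by
    funext x
    unfold cw
    rw [if_pos e0, if_neg e1, if_pos e2]
    simp
  rw [e3] at h1
  have h2 := V.smul_mem h1 (S.v (inl (1, 0)) y)⁻¹
  rwa [smul_smul, inv_mul_cancel₀ hy, one_smul] at h2

/-- **(R0)**, `r = 1`: `X'_1`, `X'_2` are regular. -/
theorem r0_one {V : Subalgebra ℝ (X → ℝ)} (hK : 2 ≤ K) (hℓ : 0 < ℓ) {h W : ℝ}
    (H : TwoId ℓ ℓ h W S S') (hW : 2 * ℓ < W) (hx : ∀ i, S'.v (inl (e i)) ∈ V) {y y' : Y}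
    (hy : S.v (inl (1, 0)) y * S.v (inl (0, 1)) y' - S.v (inl (1, 0)) y' * S.v (inl (0, 1)) y
      ≠ 0) : ∀ i, S'.v (inr (e i)) ∈ V := by
  have hind : Ind ℓ ℓ ℓ := by
    intro A B hAB
    have h1 : ((A + B : ℕ) : ℝ) * ℓ = 1 * ℓ := by push_cast; linarith
    have h2 := mul_right_cancel₀ hℓ.ne' h1
    exact_mod_cast h2
  have key : ∀ y : Y, (S.v (inl (1, 0)) y) • S'.v (inr (1, 0))
      + (S.v (inl (0, 1)) y) • S'.v (inr (0, 1)) ∈ V := by
    intro y
    have h1 := r0gen hK H (by linarith) hind (fun a ha h => by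
      have h3 := len_le_wtl (le_refl ℓ) a
      rw [ha] at h3
      rw [wtl_inl] at h
      push_cast at h3
      linarith) hx y
    have e0 : wtl ℓ ℓ (inl (1, 0)) = ℓ := by rw [wtl_inl]; push_cast; ring
    have e1 : wtl ℓ ℓ (inl (0, 1)) = ℓ := by rw [wtl_inl]; push_cast; ring
    have e2 : wtl ℓ ℓ (inr (1, 0)) = ℓ := by rw [wtl_inr]; push_cast; ring
    have e3 : wtl ℓ ℓ (inr (0, 1)) = ℓ := by rw [wtl_inr]; push_cast; ring
    have e4 : (fun x => cw ℓ ℓ ℓ (fun j => S.v j y) (inl (1, 0)) *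
          cw ℓ ℓ ℓ (fun j => S'.v j x) (inr (1, 0))
        + cw ℓ ℓ ℓ (fun j => S.v j y) (inl (0, 1)) *
          cw ℓ ℓ ℓ (fun j => S'.v j x) (inr (0, 1)))
        = (S.v (inl (1, 0)) y) • S'.v (inr (1, 0))
          + (S.v (inl (0, 1)) y) • S'.v (inr (0, 1)) := by
      funext x
      unfold cw
      rw [if_pos e0, if_pos e1, if_pos e2, if_pos e3]
      rfl
    rwa [e4] at h1
  have h1 := key y
  have h2 := key y'
  have k0 := V.sub_mem (V.smul_mem h1 (S.v (inl (0, 1)) y')) (V.smul_mem h2 (S.v (inl (0, 1)) y))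
  have k1 := V.sub_mem (V.smul_mem h2 (S.v (inl (1, 0)) y)) (V.smul_mem h1 (S.v (inl (1, 0)) y'))
  have c0 : (S.v (inl (0, 1)) y') • ((S.v (inl (1, 0)) y) • S'.v (inr (1, 0))
      + (S.v (inl (0, 1)) y) • S'.v (inr (0, 1)))
      - (S.v (inl (0, 1)) y) • ((S.v (inl (1, 0)) y') • S'.v (inr (1, 0))
      + (S.v (inl (0, 1)) y') • S'.v (inr (0, 1)))
      = (S.v (inl (1, 0)) y * S.v (inl (0, 1)) y' - S.v (inl (1, 0)) y' * S.v (inl (0, 1)) y)
        • S'.v (inr (1, 0)) := by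
    funext x
    simp only [Pi.add_apply, Pi.sub_apply, Pi.smul_apply, smul_eq_mul]
    ring
  have c1 : (S.v (inl (1, 0)) y) • ((S.v (inl (1, 0)) y') • S'.v (inr (1, 0))
      + (S.v (inl (0, 1)) y') • S'.v (inr (0, 1)))
      - (S.v (inl (1, 0)) y') • ((S.v (inl (1, 0)) y) • S'.v (inr (1, 0))
      + (S.v (inl (0, 1)) y) • S'.v (inr (0, 1)))
      = (S.v (inl (1, 0)) y * S.v (inl (0, 1)) y' - S.v (inl (1, 0)) y' * S.v (inl (0, 1)) y)
        • S'.v (inr (0, 1)) := by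
    funext x
    simp only [Pi.add_apply, Pi.sub_apply, Pi.smul_apply, smul_eq_mul]
    ring
  rw [c0] at k0
  rw [c1] at k1
  intro i
  fin_cases i
  · show S'.v (inr (1, 0)) ∈ V
    have := V.smul_mem k0 (S.v (inl (1, 0)) y * S.v (inl (0, 1)) y'
      - S.v (inl (1, 0)) y' * S.v (inl (0, 1)) y)⁻¹
    rwa [smul_smul, inv_mul_cancel₀ hy, one_smul] at this
  · show S'.v (inr (0, 1)) ∈ V
    have := V.smul_mem k1 (S.v (inl (1, 0)) y * S.v (inl (0, 1)) y'
      - S.v (inl (1, 0)) y' * S.v (inl (0, 1)) y)⁻¹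
    rwa [smul_smul, inv_mul_cancel₀ hy, one_smul] at this

end Vale.Agent.P207.N3.H254
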