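import Mathlib
import Vale.Agent.P207.N3.H254.R0

/-!
# P207, line N3, package P10: (R1), (R2)
-/

open Finset Sum

set_option linter.unusedSectionVars false

namespace Vale.Agent.P207.N3.H254

variable {Y X : Type*} {K : ℕ} {κ ℓ : ℝ}

/-! ### Labels of small weight -/

theorem e_cases {a : ℕ × ℕ} (h : len a = 1) : a = (1, 0) ∨ a = (0, 1) := by
  unfold len at h
  by_cases h1 : a.1 = 0
  · exact Or.inr (Prod.ext h1 (by simp; omega))
  · exact Or.inl (Prod.ext (by simp; omega) (by simp; omega))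

/-- Labels of weight `< κ`. -/
theorem lab_lt (hℓ : 0 < ℓ) (hκ : 0 < κ) {a : ℕ × ℕ} (h : κ * a.1 + ℓ * a.2 < κ) : a.1 = 0 := by
  by_contra h1
  have h2 : (1 : ℝ) ≤ a.1 := by exact_mod_cast Nat.one_le_iff_ne_zero.2 h1
  have h3 : (0 : ℝ) ≤ a.2 := Nat.cast_nonneg _
  nlinarith

/-- Labels of weight `≤ κ`. -/
theorem lab_le (hℓ : 0 < ℓ) (hκ : ℓ ≤ κ) {a : ℕ × ℕ} (h : κ * a.1 + ℓ * a.2 ≤ κ) :
    a.1 = 0 ∨ a = (1, 0) := by
  by_cases h1 : a.1 = 0
  · exact Or.inl h1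
  · right
    have h2 : len a < 2 := by
      by_contra h3
      have := wtl_ge3 hℓ hκ (a := a) (by omega) h1
      linarith
    unfold len at h2
    exact Prod.ext (by simp; omega) (by simp; omega)

theorem eq_zero_pair {a : ℕ × ℕ} (h : a.1 = 0) : a = (0, a.2) := Prod.ext h rfl

theorem wt_zero_pair (n : ℕ) : κ * ((0, n) : ℕ × ℕ).1 + ℓ * ((0, n) : ℕ × ℕ).2 = ℓ * n := by
  push_cast; ring

/-! ### The `X`-jets -/

section

variable {S : Side K Y} {S' : Side K X} {U : Subalgebra ℝ (Y → ℝ)}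

/-- The part of `Q a` of the weight of `a`. -/
theorem cfQ (hℓ : 0 < ℓ) (hκ : ℓ ≤ κ) {a : ℕ × ℕ} {w : ℝ} (ha1 : 1 ≤ len a) (haK : len a ≤ K)
    (hw : wtl κ ℓ (inr a) = w)
    (hT : ∀ b, 1 ≤ len b → len b ≤ len a → wtl κ ℓ (inl b) ≤ w → S.v (inl b) ∈ U)
    (hX : ∀ b, 1 ≤ len b → len b < len a → wtl κ ℓ (inr b) ≤ w → S.v (inr b) ∈ U) :
    cf (wtl κ ℓ) S.v (S.Q a) w - S.v (inr a) ∈ U := by
  classical
  have hmem : Finsupp.single (inr a) 1 ∈
      (S.Q a).support.filter (fun β => wm (wtl κ ℓ) β = w) := by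
    rw [Finset.mem_filter, MvPolynomial.mem_support_iff, S.Q_one a ha1 haK, wm_single]
    exact ⟨one_ne_zero, hw⟩
  unfold cf
  rw [← Finset.add_sum_erase _ _ hmem, S.Q_one a ha1 haK, one_smul, vm_single,
    add_sub_cancel_left]
  refine U.sum_mem fun β hβ => U.smul_mem ?_ _
  rw [Finset.mem_erase, Finset.mem_filter] at hβ
  rcases S.Q_supp a β hβ.2.1 with h | h
  · exact absurd h hβ.1
  refine vm_mem (Subalgebra.toSubmodule U) U.one_mem (fun _ ha _ hb => U.mul_mem ha hb) _ _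
    fun j hj => ?_
  have h2 := factor_le' hℓ (fun j hj => S.Q_wt (κ := κ) hℓ hκ hβ.2.1 hj) hj
  rw [hβ.2.2] at h2
  rcases h.2 j hj with ⟨b, rfl, h3, h4⟩ | ⟨b, rfl, h3, h4⟩
  · exact hT b h3 h4 h2
  · exact hX b h3 h4 h2

/-- **(XY)** at the weights `i ℓ < κ`. -/
theorem xy_low (hK : 1 ≤ K) (hℓ : 0 < ℓ) (hκ : ℓ < κ) {h W : ℝ} (H : TwoId κ ℓ h W S S')
    {i : ℕ} (hi1 : 1 ≤ i) (hiK : i ≤ K) (hiκ : i * ℓ < κ) (hW : 2 * (i * ℓ) < W)
    (hT : ∀ c, 1 ≤ len c → wtl κ ℓ (inl c) ≤ i * ℓ → S.v (inl c) ∈ U)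
    (hX : ∀ c, 1 ≤ len c → wtl κ ℓ (inr c) < i * ℓ → S.v (inr c) ∈ U) {x : X}
    (hx : S'.v (inl (0, 1)) x ≠ 0) : S.v (inr (0, i)) ∈ U := by
  classical
  have h1 := xy_series (S' := S') hℓ hκ.le hK h (w := i * ℓ) (w' := i * ℓ) hT hX
  rw [H.coeff (by linarith), zero_sub] at h1
  have hmem : (0, i) ∈ (tri K).filter (fun a => κ * a.1 + ℓ * a.2 = i * ℓ) := by
    rw [Finset.mem_filter, mem_tri]
    exact ⟨by simp; omega, by push_cast; ring⟩
  rw [Finset.sum_eq_single_of_mem _ hmem] at h1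
  · have h2 := neg_mem h1
    rw [neg_neg, mon_snd] at h2
    have hf : fac (0, i) ≠ 0 := by
      unfold fac
      exact inv_ne_zero (mul_ne_zero (Nat.cast_ne_zero.2 (Nat.factorial_ne_zero _))
        (Nat.cast_ne_zero.2 (Nat.factorial_ne_zero _)))
    have h3 := Submodule.smul_mem _ (fac (0, i))⁻¹ h2
    rw [smul_smul, inv_mul_cancel₀ hf, one_smul] at h3
    have h4 := left_mem h3 (x := x) (by
      show S'.v (inl (e 1)) x ^ i ≠ 0
      exact pow_ne_zero _ hx)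
    have h5 := cfQ (S := S) (U := U) hℓ hκ.le (a := (0, i)) (w := i * ℓ)
      (by show 1 ≤ 0 + i; omega) (by show 0 + i ≤ K; omega)
      (by rw [wtl_inr]; push_cast; ring) (fun b h1 _ h2 => hT b h1 h2)
      (fun b h1 h2 h3 => hX b h1 (lt_of_le_of_ne h3 fun h4 => by
        rw [wtl_inr] at h4
        have h5 := lab_lt (a := b) hℓ (hℓ.trans hκ) (by linarith)
        rw [h5, Nat.cast_zero, mul_zero, zero_add, mul_comm] at h4
        have h6 : (b.2 : ℝ) = i := mul_right_cancel₀ hℓ.ne' h4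
        have h7 : b.2 = i := by exact_mod_cast h6
        unfold len at h2
        simp only at h2
        omega))
    have h6 := U.sub_mem (show cf (wtl κ ℓ) S.v (S.Q (0, i)) (i * ℓ) ∈ U from h4) h5
    rwa [sub_sub_cancel] at h6
  · intro a ha hne
    exfalso
    apply hne
    rw [Finset.mem_filter] at ha
    have h5 := lab_lt (a := a) hℓ (hℓ.trans hκ) (by linarith [ha.2])
    have h4 := ha.2
    rw [h5, Nat.cast_zero, mul_zero, zero_add, mul_comm] at h4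
    have h6 : (a.2 : ℝ) = i := mul_right_cancel₀ hℓ.ne' h4
    exact Prod.ext h5 (by exact_mod_cast h6)

/-- **(XY)** at the weight `κ = k ℓ`. -/
theorem xy_top (hK : 1 ≤ K) (hℓ : 0 < ℓ) (hκ : ℓ < κ) {h W : ℝ} (H : TwoId κ ℓ h W S S')
    {k : ℕ} (hk : κ = k * ℓ) (hW : 2 * κ < W)
    (hT : ∀ c, 1 ≤ len c → wtl κ ℓ (inl c) ≤ κ → S.v (inl c) ∈ U)
    (hX : ∀ c, 1 ≤ len c → wtl κ ℓ (inr c) < κ → S.v (inr c) ∈ U) {x : X}
    (hx : S'.v (inl (1, 0)) x ≠ 0) (hx' : S'.v (inl (0, 1)) x = 0) :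
    S.v (inr (1, 0)) ∈ U := by
  classical
  have hk0 : k ≠ 0 := by
    rintro rfl
    rw [Nat.cast_zero, zero_mul] at hk
    linarith
  have h1 := xy_series (S' := S') hℓ hκ.le hK h (w := κ) (w' := κ) hT hX
  rw [H.coeff (by linarith), zero_sub] at h1
  have h2 := appX_mem (LinearMap.proj x : (X → ℝ) →ₗ[ℝ] ℝ) (neg_mem h1)
  rw [neg_neg, map_sum] at h2
  have hmem : (1, 0) ∈ (tri K).filter (fun a => κ * a.1 + ℓ * a.2 = κ) := by
    rw [Finset.mem_filter, mem_tri]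
    exact ⟨by simp; omega, by push_cast; ring⟩
  rw [Finset.sum_eq_single_of_mem _ hmem] at h2
  · rw [map_smul, appX_tn, LinearMap.proj_apply] at h2
    have hf : fac (1, 0) ≠ 0 := by unfold fac; simp
    have hm : mon (fun i => S'.v (inl (e i))) (1, 0) x ≠ 0 := by
      show (S'.v (inl (e 0)) ^ 1 * S'.v (inl (e 1)) ^ 0) x ≠ 0
      rw [pow_one, pow_zero, mul_one]
      exact hx
    rw [smul_smul] at h2
    have h3 := (Subalgebra.toSubmodule U).smul_mem
      (fac (1, 0) * mon (fun i => S'.v (inl (e i))) (1, 0) x)⁻¹ h2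
    rw [smul_smul, inv_mul_cancel₀ (mul_ne_zero hf hm), one_smul] at h3
    have h5 := cfQ (S := S) (U := U) hℓ hκ.le (a := (1, 0)) (w := κ) le_rfl
      (by show 1 ≤ K; exact hK) (by rw [wtl_inr]; push_cast; ring)
      (fun b h1 _ h2 => hT b h1 h2) (fun b h1 h2 _ => by
        have : len ((1, 0) : ℕ × ℕ) = 1 := rfl
        omega)
    have h6 := U.sub_mem (show cf (wtl κ ℓ) S.v (S.Q (1, 0)) κ ∈ U from h3) h5
    rwa [sub_sub_cancel] at h6
  · intro a ha hne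
    rw [Finset.mem_filter] at ha
    have h3 : a.1 = 0 := by
      rcases lab_le hℓ hκ.le ha.2.le with h | h
      · exact h
      · exact absurd h hne
    have h4 : a.2 ≠ 0 := by
      intro h5
      have := ha.2
      rw [h3, h5] at this
      simp at this
      linarith
    rw [map_smul, appX_tn, LinearMap.proj_apply]
    have hm : mon (fun i => S'.v (inl (e i))) a x = 0 := by
      show (S'.v (inl (e 0)) ^ a.1 * S'.v (inl (e 1)) ^ a.2) x = 0
      rw [Pi.mul_apply, Pi.pow_apply, Pi.pow_apply, e_one, hx', zero_pow h4, mul_zero]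
    rw [hm, zero_smul, smul_zero]

/-- All `X`-jets `X^_{(0,i)}`, `i ≤ n`, `n ℓ < κ`. -/
theorem xy_all (hK : 1 ≤ K) (hℓ : 0 < ℓ) (hκ : ℓ < κ) {h W : ℝ} (H : TwoId κ ℓ h W S S')
    {n : ℕ} (hnK : n ≤ K) (hnκ : n * ℓ < κ) (hW : 2 * (n * ℓ) < W)
    (hT : ∀ c, 1 ≤ len c → wtl κ ℓ (inl c) ≤ n * ℓ → S.v (inl c) ∈ U) {x : X}
    (hx : S'.v (inl (0, 1)) x ≠ 0) : ∀ i, 1 ≤ i → i ≤ n → S.v (inr (0, i)) ∈ U := by
  intro i
  induction i using Nat.strong_induction_on with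
  | _ i ih =>
    intro hi1 hin
    have hle : (i : ℝ) * ℓ ≤ n * ℓ := by
      have : (i : ℝ) ≤ n := by exact_mod_cast hin
      nlinarith
    refine xy_low hK hℓ hκ H hi1 (by omega) (by linarith) (by linarith)
      (fun c h1 h2 => hT c h1 (h2.trans hle)) (fun c h1 h2 => ?_) hx
    rw [wtl_inr] at h2
    have h3 := lab_lt (a := c) hℓ (hℓ.trans hκ) (by linarith)
    have h4 : c.2 < i := by
      rw [h3, Nat.cast_zero, mul_zero, zero_add, mul_comm] at h2
      have := lt_of_mul_lt_mul_right h2 hℓ.le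
      exact_mod_cast this
    rw [eq_zero_pair h3]
    refine ih c.2 h4 ?_ (by omega)
    unfold len at h1
    omega

end

/-! ### The critical coefficient with the jet `X^_1` removed -/

section

variable {m : ℕ} {S : Side (m + 1) Y} {S' : Side (m + 1) X} {U : Subalgebra ℝ (Y → ℝ)}
  {V : Subalgebra ℝ (X → ℝ)}

theorem DD_mem {S : Side K Y} {S' : Side K X} (hy : ∀ i, S.v (inl (e i)) ∈ U) (w : ℝ) :
    DD κ ℓ S S' w ∈ U := by
  classical
  unfold DD
  refine U.sum_mem fun c _ => U.smul_mem ?_ _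
  split_ifs
  · exact mon_memS U hy c
  · exact U.zero_mem

theorem fac_ne (a : ℕ × ℕ) : fac a ≠ 0 := by
  unfold fac
  exact inv_ne_zero (mul_ne_zero (Nat.cast_ne_zero.2 (Nat.factorial_ne_zero _))
    (Nat.cast_ne_zero.2 (Nat.factorial_ne_zero _)))

theorem crit_plain {n b : ℕ} (hℓ : 0 < ℓ) (hκ : ℓ < κ) {h W : ℝ}
    (H : TwoId κ ℓ h W S S') (hW : 2 * ((n + b - 2) * ℓ) < W)
    (hn2 : 2 ≤ n) (hb : 2 ≤ b) (hnK : n ≤ m + 1) (hbK : b ≤ m + 1)
    (hnκ : n * ℓ < κ + ℓ) (hbκ : b * ℓ < κ + ℓ) (hx : ∀ i, S'.v (inl (e i)) ∈ V)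
    (hT : ∀ c, 1 ≤ len c → wtl κ ℓ (inl c) < n * ℓ → S.v (inl c) ∈ U)
    (hX : ∀ c, 1 ≤ len c → wtl κ ℓ (inr c) < n * ℓ → S.v (inr c) ∈ U)
    (hT' : ∀ c, 1 ≤ len c → len c < b → wtl κ ℓ (inl c) ≤ (n + b - 2) * ℓ → S'.v (inl c) ∈ V)
    (hX' : ∀ c, 1 ≤ len c → len c < b → wtl κ ℓ (inr c) ≤ (n + b - 2) * ℓ →
      S'.v (inr c) ∈ V) :
    S.v (inl (0, n)) * S.v (inl (0, 1)) ^ (b - 2) ∈ U ∨
      S'.v (inl (0, 1)) ^ (n - 2) * S'.v (inl (0, b)) ∈ V := by
  have h1 := crit (m := m) hℓ hκ h hn2 hb hnK hbK hnκ hbκ hx hT hX hT' hX'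
  rw [H.coeff (by linarith), zero_sub] at h1
  have h2 := neg_mem h1
  rw [neg_neg] at h2
  have h3 := Submodule.smul_mem _ (fac (0, n - 2) * fac (0, b - 2))⁻¹ h2
  rw [smul_smul, inv_mul_cancel₀ (mul_ne_zero (fac_ne _) (fac_ne _)), one_smul] at h3
  exact tensor_rule h3

theorem crit_kill {n b : ℕ} (hℓ : 0 < ℓ) (hκ : ℓ < κ) {h W : ℝ}
    (H : TwoId κ ℓ h W S S') (hW : 2 * ((n + b - 2) * ℓ) < W) (hle : (n + b - 2) * ℓ ≤ κ)
    (hn2 : 2 ≤ n) (hb : 2 ≤ b) (hnK : n ≤ m + 1) (hbK : b ≤ m + 1)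
    (hnκ : n * ℓ < κ + ℓ) (hbκ : b * ℓ < κ + ℓ) (hy : ∀ i, S.v (inl (e i)) ∈ U)
    (hx : ∀ i, S'.v (inl (e i)) ∈ V)
    (hT : ∀ c, 1 ≤ len c → wtl κ ℓ (inl c) < n * ℓ → S.v (inl c) ∈ U)
    (hX : ∀ c, 1 ≤ len c → wtl κ ℓ (inr c) < n * ℓ → S.v (inr c) ∈ U)
    (hT' : ∀ c, 1 ≤ len c → len c < b → wtl κ ℓ (inl c) ≤ (n + b - 2) * ℓ → S'.v (inl c) ∈ V)
    (hX' : ∀ c, 1 ≤ len c → len c < b → wtl κ ℓ (inr c) ≤ (n + b - 2) * ℓ → c ≠ (1, 0) →
      S'.v (inr c) ∈ V) :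
    S.v (inl (0, n)) * S.v (inl (0, 1)) ^ (b - 2) ∈ U ∨
      S'.v (inl (0, 1)) ^ (n - 2) * S'.v (inl (0, b)) ∈ V := by
  have h1 := crit (m := m) (S' := S'.kill) (U := U) (V := V) hℓ hκ h hn2 hb hnK hbK hnκ hbκ
    (fun i => by rw [S'.kill_inl]; exact hx i) hT hX
    (fun c a1 a2 a3 => by rw [S'.kill_inl]; exact hT' c a1 a2 a3)
    (fun c a1 a2 a3 => by
      by_cases hc : c = (1, 0)
      · rw [hc, S'.kill_v0]; exact V.zero_mem
      · rw [S'.kill_v (by simpa using hc)]; exact hX' c a1 a2 a3 hc)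
  have h2 := EN_kill (S := S) (S' := S') hℓ hκ.le (by omega : 1 ≤ m + 1) h ((n + b - 2) * ℓ) hle
  rw [H.coeff (by linarith), zero_sub] at h2
  have h3 : ((EN κ ℓ S S'.kill h).coeff ((n + b - 2) * ℓ)).coeff ((n + b - 2) * ℓ) ∈
      (fil U V).AP ⊔ (fil U V).AQ := by
    rw [← neg_neg (((EN κ ℓ S S'.kill h).coeff ((n + b - 2) * ℓ)).coeff ((n + b - 2) * ℓ)), h2]
    refine neg_mem (Submodule.mem_sup_left ?_)
    split_ifs
    · exact tn_mem (DD_mem hy _) Submodule.mem_top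
    · exact zero_mem _
  have h4 := sub_mem h3 h1
  rw [sub_sub_cancel, S'.kill_inl, S'.kill_inl] at h4
  have h5 := Submodule.smul_mem _ (fac (0, n - 2) * fac (0, b - 2))⁻¹ h4
  rw [smul_smul, inv_mul_cancel₀ (mul_ne_zero (fac_ne _) (fac_ne _)), one_smul] at h5
  exact tensor_rule h5

/-- **(R1)**. -/
theorem r1 (hm : 1 ≤ m) (hℓ : 0 < ℓ) (hκ : ℓ < κ) {h W : ℝ} (H : TwoId κ ℓ h W S S')
    (H' : TwoId κ ℓ h W S' S) (hW : 2 * κ < W) (hW2 : 4 * ℓ < W)
    (hy : ∀ i, S.v (inl (e i)) ∈ U)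
    (hx : ∀ i, S'.v (inl (e i)) ∈ V) {y₁ y₂ : Y} {x₁ x₂ : X}
    (hy1 : S.v (inl (1, 0)) y₁ ≠ 0) (hy2 : S.v (inl (0, 1)) y₂ ≠ 0)
    (hx1 : S'.v (inl (1, 0)) x₁ ≠ 0) (hx2 : S'.v (inl (0, 1)) x₂ ≠ 0) :
    S.v (inl (0, 2)) ∈ U ∨ S'.v (inl (0, 2)) ∈ V := by
  have hX2 : S.v (inr (0, 1)) ∈ U := r0_split (by omega) hℓ hκ H' (by linarith) hy hx2
  have hX2' : S'.v (inr (0, 1)) ∈ V := r0_split (by omega) hℓ hκ H (by linarith) hx hy2
  have hfr : κ < 2 * ℓ → ∀ n : ℕ, (n : ℝ) * ℓ ≠ κ := by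
    intro h1 n hn
    have h2 : (1 : ℝ) < n := by
      by_contra h3
      push Not at h3
      nlinarith
    have h3 : 2 ≤ n := by
      have : 1 < n := by exact_mod_cast h2
      omega
    have h4 : (2 : ℝ) ≤ n := by exact_mod_cast h3
    nlinarith
  have hlen : ∀ c : ℕ × ℕ, 1 ≤ len c → κ * c.1 + ℓ * c.2 < 2 * ℓ → c = (1, 0) ∨ c = (0, 1) := by
    intro c h1 h2
    apply e_cases
    by_contra h3
    have := wtl_ge2 hℓ hκ.le (a := c) (by omega)
    linarith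
  have hT : ∀ c, 1 ≤ len c → wtl κ ℓ (inl c) < ((2 : ℕ) : ℝ) * ℓ → S.v (inl c) ∈ U := by
    intro c h1 h2
    rw [wtl_inl] at h2
    rcases hlen c h1 (by push_cast at h2; linarith) with rfl | rfl
    · exact hy 0
    · exact hy 1
  have hX : ∀ c, 1 ≤ len c → wtl κ ℓ (inr c) < ((2 : ℕ) : ℝ) * ℓ → S.v (inr c) ∈ U := by
    intro c h1 h2
    rw [wtl_inr] at h2
    rcases hlen c h1 (by push_cast at h2; linarith) with rfl | rfl
    · have h3 : κ < 2 * ℓ := by push_cast at h2; linarith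
      exact r0_frac (by omega) hℓ hκ H' hW hy (hfr h3) hx1
    · exact hX2
  have hT' : ∀ c, 1 ≤ len c → len c < 2 → S'.v (inl c) ∈ V := by
    intro c h1 h2
    rcases e_cases (a := c) (by omega) with rfl | rfl
    · exact hx 0
    · exact hx 1
  have e0 : ((2 : ℕ) : ℝ) + ((2 : ℕ) : ℝ) - 2 = 2 := by norm_num
  have key : S.v (inl (0, 2)) * S.v (inl (0, 1)) ^ (2 - 2) ∈ U ∨
      S'.v (inl (0, 1)) ^ (2 - 2) * S'.v (inl (0, 2)) ∈ V := by
    by_cases hc : κ < 2 * ℓ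
    · refine crit_plain (m := m) hℓ hκ H (by rw [e0]; linarith) le_rfl le_rfl (by omega)
        (by omega) (by push_cast; linarith) (by push_cast; linarith) hx hT hX
        (fun c a1 a2 _ => hT' c a1 a2) (fun c a1 a2 _ => ?_)
      rcases e_cases (a := c) (by omega) with rfl | rfl
      · exact r0_frac (by omega) hℓ hκ H hW hx (hfr hc) hy1
      · exact hX2'
    · push Not at hc
      refine crit_kill (m := m) hℓ hκ H (by rw [e0]; linarith) (by rw [e0]; exact hc) le_rfl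
        le_rfl (by omega)
        (by omega) (by push_cast; linarith) (by push_cast; linarith) hy hx hT hX
        (fun c a1 a2 _ => hT' c a1 a2) (fun c a1 a2 _ a3 => ?_)
      rcases e_cases (a := c) (by omega) with rfl | rfl
      · exact absurd rfl a3
      · exact hX2'
  simpa using key

/-- Functions of `y₂`. -/
def fun2 (c : Y → ℝ) : Subalgebra ℝ (Y → ℝ) where
  carrier := {u | ∀ y y', c y = c y' → u y = u y'}
  mul_mem' := by
    intro a b ha hb y y' h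
    rw [Pi.mul_apply, Pi.mul_apply, ha y y' h, hb y y' h]
  add_mem' := by
    intro a b ha hb y y' h
    rw [Pi.add_apply, Pi.add_apply, ha y y' h, hb y y' h]
  algebraMap_mem' := by
    intro r y y' _
    rfl

/-- **(R2)**, `λ₁ = k λ₂`. -/
theorem r2 {k : ℕ} (hℓ : 0 < ℓ) (hk : κ = k * ℓ) (hk2 : 2 ≤ k) (hkm : k ≤ m + 1) {h W : ℝ}
    (H : TwoId κ ℓ h W S S') (H' : TwoId κ ℓ h W S' S) (hW : 2 * κ < W)
    (hy : ∀ i, S.v (inl (e i)) ∈ U) (hx : ∀ i, S'.v (inl (e i)) ∈ V)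
    {ρ : ℝ} (hρ : 0 < ρ)
    (hpy : ∀ s t : ℝ, |s| < ρ → |t| < ρ → ∃ y, S.v (inl (1, 0)) y = s ∧ S.v (inl (0, 1)) y = t)
    (hpx : ∀ s t : ℝ, |s| < ρ → |t| < ρ → ∃ x, S'.v (inl (1, 0)) x = s ∧ S'.v (inl (0, 1)) x = t)
    (hdiv : ∀ n j, S.v (inl (0, n)) * S.v (inl (0, 1)) ^ j ∈ U → S.v (inl (0, n)) ∈ U)
    (hdiv' : ∀ n j, S'.v (inl (0, 1)) ^ j * S'.v (inl (0, n)) ∈ V → S'.v (inl (0, n)) ∈ V)
    (hhom : ∀ i, 2 ≤ i → i < k → S.v (inl (0, i)) ∈ U →
      ∃ c : ℝ, ∀ y, S.v (inl (0, i)) y = c * S.v (inl (0, 1)) y ^ i)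
    (h22 : S'.v (inl (0, 2)) ∈ V) : S'.v (inr (1, 0)) ∈ V := by
  classical
  have hkR : (2 : ℝ) ≤ k := by exact_mod_cast hk2
  have hκ : ℓ < κ := by rw [hk]; nlinarith
  have hρ2 : |ρ / 2| < ρ := by rw [abs_of_pos (by positivity)]; linarith
  have h0ρ : |(0 : ℝ)| < ρ := by rw [abs_zero]; exact hρ
  obtain ⟨y₂, -, hy₂⟩ := hpy 0 (ρ / 2) h0ρ hρ2
  obtain ⟨x₂, -, hx₂⟩ := hpx 0 (ρ / 2) h0ρ hρ2
  have hy2 : S.v (inl (0, 1)) y₂ ≠ 0 := by rw [hy₂]; positivity
  have hx2 : S'.v (inl (0, 1)) x₂ ≠ 0 := by rw [hx₂]; positivity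
  obtain ⟨y₁, hy₁, hy₁'⟩ := hpy (ρ / 2) 0 hρ2 h0ρ
  have hy1 : S.v (inl (1, 0)) y₁ ≠ 0 := by rw [hy₁]; positivity
  -- labels
  have hlt : ∀ (n : ℕ) (c : ℕ × ℕ), κ * c.1 + ℓ * c.2 < n * ℓ → n ≤ k → c.1 = 0 ∧ c.2 < n := by
    intro n c h1 h2
    have h3 : (n : ℝ) * ℓ ≤ κ := by
      rw [hk]
      have : (n : ℝ) ≤ k := by exact_mod_cast h2
      nlinarith
    have h4 := lab_lt (a := c) hℓ (hℓ.trans hκ) (by linarith)
    refine ⟨h4, ?_⟩
    rw [h4, Nat.cast_zero, mul_zero, zero_add, mul_comm] at h1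
    exact_mod_cast lt_of_mul_lt_mul_right h1 hℓ.le
  have hle : ∀ (n : ℕ) (c : ℕ × ℕ), κ * c.1 + ℓ * c.2 ≤ n * ℓ → n ≤ k →
      (c.1 = 0 ∧ c.2 ≤ n) ∨ c = (1, 0) := by
    intro n c h1 h2
    have h3 : (n : ℝ) * ℓ ≤ κ := by
      rw [hk]
      have : (n : ℝ) ≤ k := by exact_mod_cast h2
      nlinarith
    rcases lab_le hℓ hκ.le (a := c) (by linarith) with h4 | h4
    · left
      refine ⟨h4, ?_⟩
      rw [h4, Nat.cast_zero, mul_zero, zero_add, mul_comm] at h1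
      exact_mod_cast le_of_mul_le_mul_right h1 hℓ
    · exact Or.inr h4
  have hnκ : ∀ n : ℕ, n < k → (n : ℝ) * ℓ < κ := by
    intro n hn
    rw [hk]
    have : (n : ℝ) < k := by exact_mod_cast hn
    nlinarith
  by_cases hA : ∀ j, 2 ≤ j → j ≤ k → S'.v (inl (0, j)) ∈ V
  · -- all `T'^_{(0,j)}` regular
    have hT : ∀ c, 1 ≤ len c → wtl κ ℓ (inl c) ≤ κ → S'.v (inl c) ∈ V := by
      intro c h1 h2
      rw [wtl_inl] at h2
      rcases hle k c (by rw [← hk]; exact h2) le_rfl with ⟨h3, h4⟩ | rfl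
      · rw [eq_zero_pair h3]
        by_cases h5 : 2 ≤ c.2
        · exact hA c.2 h5 h4
        · have h6 : c.2 = 1 := by unfold len at h1; omega
          rw [h6]; exact hx 1
      · exact hx 0
    obtain ⟨n, hn⟩ : ∃ n, k = n + 1 := ⟨k - 1, by omega⟩
    have hX : ∀ i, 1 ≤ i → i ≤ n → S'.v (inr (0, i)) ∈ V :=
      xy_all (by omega) hℓ hκ H' (n := n) (by omega) (hnκ n (by omega))
        (by have := hnκ n (by omega); linarith)
        (fun c h1 h2 => hT c h1 (h2.trans (hnκ n (by omega)).le)) hy2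
    refine xy_top (by omega) hℓ hκ H' hk hW hT (fun c h1 h2 => ?_) hy1 hy₁'
    rw [wtl_inr] at h2
    obtain ⟨h3, h4⟩ := hlt k c (by rw [← hk]; exact h2) le_rfl
    rw [eq_zero_pair h3]
    refine hX c.2 ?_ (by omega)
    unfold len at h1
    omega
  · -- the first rough `T'^_{(0,b)}`
    have hex : ∃ j, 2 ≤ j ∧ j ≤ k ∧ S'.v (inl (0, j)) ∉ V := by
      push Not at hA
      exact hA
    set b := Nat.find hex with hb
    obtain ⟨hb2, hbk, hbV⟩ := Nat.find_spec hex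
    rw [← hb] at hb2 hbk hbV
    have hbmin : ∀ j, 2 ≤ j → j < b → S'.v (inl (0, j)) ∈ V := by
      intro j h1 h2
      by_contra h3
      exact Nat.find_min hex h2 ⟨h1, by omega, h3⟩
    have hb3 : 3 ≤ b := by
      by_contra h1
      have h2 : b = 2 := by omega
      rw [h2] at hbV
      exact hbV h22
    have hTb : ∀ (n : ℕ) (c : ℕ × ℕ), 1 ≤ len c → len c < b → n ≤ k →
        wtl κ ℓ (inl c) ≤ n * ℓ → S'.v (inl c) ∈ V := by
      intro n c h1 h2 hn h3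
      rw [wtl_inl] at h3
      rcases hle n c h3 hn with ⟨h4, h5⟩ | rfl
      · rw [eq_zero_pair h4]
        by_cases h6 : 2 ≤ c.2
        · exact hbmin c.2 h6 (by unfold len at h2; omega)
        · have h6 : c.2 = 1 := by unfold len at h1; omega
          rw [h6]; exact hx 1
      · exact hx 0
    have hXb0 : ∀ i, 1 ≤ i → i ≤ b - 1 → S'.v (inr (0, i)) ∈ V :=
      xy_all (by omega) hℓ hκ H' (n := b - 1) (by omega) (hnκ _ (by omega))
        (by have := hnκ (b - 1) (by omega); linarith)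
        (fun c h1 h2 => by
          rw [wtl_inl] at h2
          rcases hle (b - 1) c h2 (by omega) with ⟨h4, h5⟩ | rfl
          · rw [eq_zero_pair h4]
            by_cases h6 : 2 ≤ c.2
            · exact hbmin c.2 h6 (by omega)
            · have h6 : c.2 = 1 := by unfold len at h1; omega
              rw [h6]; exact hx 1
          · exact hx 0) hy2
    have hXb : ∀ (n : ℕ) (c : ℕ × ℕ), 1 ≤ len c → len c < b → n ≤ k →
        wtl κ ℓ (inr c) ≤ n * ℓ → c ≠ (1, 0) → S'.v (inr c) ∈ V := by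
      intro n c h1 h2 hn h3 hc
      rw [wtl_inr] at h3
      rcases hle n c h3 hn with ⟨h4, h5⟩ | rfl
      · rw [eq_zero_pair h4]
        unfold len at h1 h2
        exact hXb0 c.2 (by omega) (by omega)
      · exact absurd rfl hc
    have hB : ∀ n, 2 ≤ n → n + b - 2 ≤ k → S.v (inl (0, n)) ∈ U := by
      intro n
      induction n using Nat.strong_induction_on with
      | _ n ih =>
        intro hn2 hnb
        have hTn : ∀ c, 1 ≤ len c → wtl κ ℓ (inl c) < n * ℓ → S.v (inl c) ∈ U := by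
          intro c h1 h2
          rw [wtl_inl] at h2
          obtain ⟨h3, h4⟩ := hlt n c h2 (by omega)
          rw [eq_zero_pair h3]
          by_cases h6 : 2 ≤ c.2
          · exact ih c.2 h4 h6 (by omega)
          · have h6 : c.2 = 1 := by unfold len at h1; omega
            rw [h6]; exact hy 1
        have hXn0 : ∀ i, 1 ≤ i → i ≤ n - 1 → S.v (inr (0, i)) ∈ U :=
          xy_all (by omega) hℓ hκ H (n := n - 1) (by omega) (hnκ _ (by omega))
            (by have := hnκ (n - 1) (by omega); linarith)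
            (fun c h1 h2 => hTn c h1 (lt_of_le_of_lt h2 (by
              have : ((n - 1 : ℕ) : ℝ) < n := by exact_mod_cast (by omega : n - 1 < n)
              nlinarith))) hx2
        have hXn : ∀ c, 1 ≤ len c → wtl κ ℓ (inr c) < n * ℓ → S.v (inr c) ∈ U := by
          intro c h1 h2
          rw [wtl_inr] at h2
          obtain ⟨h3, h4⟩ := hlt n c h2 (by omega)
          rw [eq_zero_pair h3]
          unfold len at h1
          exact hXn0 c.2 (by omega) (by omega)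
        have ew : ((n : ℝ) + b - 2) * ℓ = ((n + b - 2 : ℕ) : ℝ) * ℓ := by
          rw [Nat.cast_sub (by omega)]; push_cast; ring
        have hwκ : ((n : ℝ) + b - 2) * ℓ ≤ κ := by
          rw [ew, hk]
          have : ((n + b - 2 : ℕ) : ℝ) ≤ k := by exact_mod_cast hnb
          nlinarith
        have hnk' : (n : ℝ) * ℓ < κ + ℓ := by have := hnκ n (by omega); linarith
        have hbk' : (b : ℝ) * ℓ < κ + ℓ := by
          have : (b : ℝ) ≤ k := by exact_mod_cast hbk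
          rw [hk]; nlinarith
        rcases crit_kill (m := m) (U := U) (V := V) hℓ hκ H (by linarith) hwκ hn2
          (by omega) (by omega) (by omega) hnk' hbk' hy hx hTn hXn
          (fun c a1 a2 a3 => hTb (n + b - 2) c a1 a2 hnb (by rw [← ew]; exact a3))
          (fun c a1 a2 a3 a4 => hXb (n + b - 2) c a1 a2 hnb (by rw [← ew]; exact a3) a4)
          with h1 | h1
        · exact hdiv n _ h1
        · exact absurd (hdiv' b _ h1) hbV
    -- the second stage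
    set n := k + 3 - b with hn
    have hn2 : 2 ≤ n := by omega
    have hnk : n ≤ k := by omega
    set U₂ := fun2 (S.v (inl (0, 1))) with hU₂
    have hTn : ∀ c, 1 ≤ len c → wtl κ ℓ (inl c) < n * ℓ → S.v (inl c) ∈ U₂ := by
      intro c h1 h2
      rw [wtl_inl] at h2
      obtain ⟨h3, h4⟩ := hlt n c h2 hnk
      rw [eq_zero_pair h3]
      by_cases h6 : 2 ≤ c.2
      · obtain ⟨r, hr⟩ := hhom c.2 h6 (by omega) (hB c.2 h6 (by omega))
        intro y y' hyy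
        rw [hr y, hr y', hyy]
      · have h6 : c.2 = 1 := by unfold len at h1; omega
        rw [h6]
        exact fun y y' hyy => hyy
    have hXn0 : ∀ i, 1 ≤ i → i ≤ n - 1 → S.v (inr (0, i)) ∈ U₂ :=
      xy_all (by omega) hℓ hκ H (n := n - 1) (by omega) (hnκ _ (by omega))
        (by have := hnκ (n - 1) (by omega); linarith)
        (fun c h1 h2 => hTn c h1 (lt_of_le_of_lt h2 (by
          have : ((n - 1 : ℕ) : ℝ) < n := by exact_mod_cast (by omega : n - 1 < n)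
          nlinarith))) hx2
    have hXn : ∀ c, 1 ≤ len c → wtl κ ℓ (inr c) < n * ℓ → S.v (inr c) ∈ U₂ := by
      intro c h1 h2
      rw [wtl_inr] at h2
      obtain ⟨h3, h4⟩ := hlt n c h2 hnk
      rw [eq_zero_pair h3]
      unfold len at h1
      exact hXn0 c.2 (by omega) (by omega)
    have hlt' : κ < ((n : ℝ) + b - 2) * ℓ := by
      have : (n : ℝ) + b - 2 = k + 1 := by
        have : n + b = k + 3 := by omega
        have : (n : ℝ) + b = k + 3 := by exact_mod_cast this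
        linarith
      rw [this, hk]
      nlinarith
    have h1 := below (m := m) (S := S) (S' := S'.kill) (U := U₂) (V := V) (W := κ) (n := n)
      (b := b) hℓ hκ h hn2 (by omega) hTn hXn
      (fun c a1 a2 a3 => by
        rw [S'.kill_inl]; exact hTb k c a1 a2 le_rfl (by rw [← hk]; exact a3))
      (fun c a1 a2 a3 => by
        by_cases hc : c = (1, 0)
        · rw [hc, S'.kill_v0]; exact V.zero_mem
        · rw [S'.kill_v (by simpa using hc)]
          exact hXb k c a1 a2 le_rfl (by rw [← hk]; exact a3) hc)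
      (w := κ) (w' := κ) hlt' le_rfl
    have h2 := EN_kill (S := S) (S' := S') hℓ hκ.le (by omega : 1 ≤ m + 1) h κ (le_refl κ)
    rw [H.coeff (by linarith), zero_sub, if_pos rfl] at h2
    have h3 : tn (DD κ ℓ S S' κ) (S'.v (inr (1, 0))) ∈ (fil U₂ V).AP ⊔ (fil U₂ V).AQ := by
      rw [← h2]; exact neg_mem h1
    -- two points with the same `y₂`
    obtain ⟨y₀, hy₀, hy₀'⟩ := hpy 0 0 h0ρ h0ρ
    set Lf : (Y → ℝ) →ₗ[ℝ] ℝ := (LinearMap.proj y₁ : (Y → ℝ) →ₗ[ℝ] ℝ)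
      - (LinearMap.proj y₀ : (Y → ℝ) →ₗ[ℝ] ℝ) with hLf
    obtain ⟨f, hf, g, hg, hfg⟩ := Submodule.mem_sup.1 h3
    have h4 : appY Lf f = 0 := appY_zero Lf (fun u hu => by
      rw [hLf, LinearMap.sub_apply, LinearMap.proj_apply, LinearMap.proj_apply, sub_eq_zero]
      exact hu y₁ y₀ (by rw [hy₁', hy₀'])) hf
    have h5 := appY_mem Lf hg
    have h6 := congrArg (appY Lf) hfg
    rw [map_add, h4, zero_add, appY_tn] at h6
    rw [h6] at h5
    have hval : ∀ y, S.v (inl (0, 1)) y = 0 →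
        DD κ ℓ S S' κ y = S.v (inl (1, 0)) y := by
      intro y hy0
      unfold DD
      rw [Finset.sum_apply]
      have hmem : ((1, 0) : ℕ × ℕ) ∈ tri (m + 1) := mem_tri.2 (by simp)
      rw [Finset.sum_eq_single_of_mem _ hmem]
      · have e1 : κ * (((1, 0) : ℕ × ℕ).1 : ℝ) + ℓ * (((1, 0) : ℕ × ℕ).2 : ℝ) = κ := by
          push_cast; ring
        have e2 : mX S' (1, 0) = 1 := S'.Q_one _ le_rfl (by show 1 ≤ m + 1; omega)
        rw [if_pos e1, e2, Pi.smul_apply, fac_10]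
        show (1 * 1 : ℝ) • (S.v (inl (e 0)) ^ 1 * S.v (inl (e 1)) ^ 0) y = _
        rw [pow_one, pow_zero, mul_one, mul_one, one_smul, e_zero]
      · intro c _ hne
        rw [Pi.smul_apply]
        split_ifs with h7
        · rcases lab_le hℓ hκ.le h7.le with h8 | h8
          · have h9 : c.2 ≠ 0 := by
              intro h10
              rw [h8, h10] at h7
              simp at h7
              linarith
            show (fac c * mX S' c) • (S.v (inl (e 0)) ^ c.1 * S.v (inl (e 1)) ^ c.2) y = 0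
            rw [Pi.mul_apply, Pi.pow_apply, Pi.pow_apply, e_one, hy0, zero_pow h9, mul_zero,
              smul_zero]
          · exact absurd h8 hne
        · rw [Pi.zero_apply, smul_zero]
    have h7 : Lf (DD κ ℓ S S' κ) = ρ / 2 := by
      rw [hLf, LinearMap.sub_apply, LinearMap.proj_apply, LinearMap.proj_apply,
        hval y₁ hy₁', hval y₀ hy₀', hy₁, hy₀, sub_zero]
    rw [h7] at h5
    have h8 := (Subalgebra.toSubmodule V).smul_mem (ρ / 2)⁻¹ h5
    rw [smul_smul, inv_mul_cancel₀ (by positivity), one_smul] at h8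
    exact h8

end

end Vale.Agent.P207.N3.H254
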